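import Crest.Agent.R197.Defs

/-! Row 197: a free resolution of length three whose last map splits. -/

set_option autoImplicit false

namespace Crest.Agent.R197

/-- Left translation of chains. -/
noncomputable def tr {A T : Type} [Group A] (g : A) : (A × T →₀ ℤ) →ₗ[ℤ] (A × T →₀ ℤ) :=
  Finsupp.lmapDomain ℤ ℤ fun p => (g * p.1, p.2)

/-- The augmentation. -/
noncomputable def aug {X : Type} : (X →₀ ℤ) →ₗ[ℤ] ℤ := Finsupp.linearCombination ℤ fun _ => 1

@[simp] theorem tr_single {A T : Type} [Group A] (g x : A) (t : T) (n : ℤ) :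
    tr g (Finsupp.single (x, t) n) = Finsupp.single (g * x, t) n := by
  simp [tr]

section aux
open CategoryTheory
/-- Left translation of chains over a ring. -/
noncomputable def trk (k : Type) [CommRing k] {A T : Type} [Group A] (g : A) :
    (A × T →₀ k) →ₗ[k] (A × T →₀ k) :=
  Finsupp.lmapDomain k k fun p => (g * p.1, p.2)

/-- The augmentation over a ring. -/
noncomputable def augk (k : Type) [CommRing k] {X : Type} : (X →₀ k) →ₗ[k] k :=
  Finsupp.linearCombination k fun _ => 1

variable {k : Type} [CommRing k] {A : Type} [Group A] (G : Subgroup A)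

@[simp] theorem trk_single {T : Type} (g x : A) (t : T) (n : k) :
    trk k g (Finsupp.single (x, t) n) = Finsupp.single (g * x, t) n := by
  simp [trk]

theorem trk_mul {T : Type} (g h : A) (c : A × T →₀ k) : trk k (g * h) c = trk k g (trk k h c) := by
  induction c using Finsupp.induction_linear with
  | zero => simp
  | add a b ha hb => simp [ha, hb]
  | single p n => obtain ⟨x, t⟩ := p; simp [mul_assoc]

theorem trk_one {T : Type} (c : A × T →₀ k) : trk k (1 : A) c = c := by
  induction c using Finsupp.induction_linear with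
  | zero => simp
  | add a b ha hb => simp [ha, hb]
  | single p n => obtain ⟨x, t⟩ := p; simp

variable (k) in
/-- Chains as a representation of the subgroup. -/
noncomputable def cdRep (T : Type) : Representation k G (A × T →₀ k) where
  toFun g := trk k (g : A)
  map_one' := LinearMap.ext trk_one
  map_mul' g h := LinearMap.ext (trk_mul (g : A) h)

variable (k) in
theorem cd_proj (T : Type) : Projective (Rep.of (cdRep k G T)) := by
  constructor
  intro X Y f e he
  have hs : Function.Surjective e.hom := (Rep.epi_iff_surjective e).1 he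
  choose sec hsec using hs
  let rp : A → A := fun a => (Quotient.mk (QuotientGroup.rightRel G) a).out
  have hrp : ∀ a, a * (rp a)⁻¹ ∈ G := fun a =>
    QuotientGroup.rightRel_apply.1 (Quotient.mk_out (s := QuotientGroup.rightRel G) a)
  have hrp' : ∀ (g : G) a, rp (g * a) = rp a := fun g a => by
    have : Quotient.mk (QuotientGroup.rightRel G) ((g : A) * a) =
        Quotient.mk (QuotientGroup.rightRel G) a :=
      Quotient.sound (QuotientGroup.rightRel_apply.2 (by simp))
    simp only [rp, this]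
  let l : (A × T →₀ k) →ₗ[k] X := Finsupp.linearCombination k fun p =>
    X.ρ ⟨p.1 * (rp p.1)⁻¹, hrp _⟩ (sec (f.hom (Finsupp.single (rp p.1, p.2) 1)))
  have hl : ∀ (g : G) v, l (cdRep k G T g v) = X.ρ g (l v) := by
    intro g v
    induction v using Finsupp.induction_linear with
    | zero => simp
    | add a b ha hb => simp only [map_add, ha, hb]
    | single p n =>
      obtain ⟨x, t⟩ := p
      change l (trk k (g : A) _) = _
      simp only [trk_single, l, Finsupp.linearCombination_single, map_smul, hrp']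
      congr 1
      rw [← Module.End.mul_apply, ← map_mul]
      congr 2
      ext; simp [mul_assoc]
  refine ⟨Rep.ofHom (l.intertwiningMap_of_isIntertwiningMap _ _ hl), ?_⟩
  ext1
  refine DFunLike.ext _ _ fun v => ?_
  change e.hom (l v) = f.hom v
  induction v using Finsupp.induction_linear with
  | zero => simp
  | add a b ha hb => simp only [map_add, ha, hb]
  | single p n =>
    obtain ⟨x, t⟩ := p
    simp only [l, Finsupp.linearCombination_single, map_smul]
    rw [Rep.hom_comm_apply, hsec, ← Rep.hom_comm_apply, ← map_smul]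
    congr 1
    change n • trk k (x * (rp x)⁻¹) _ = _
    simp

variable {T : ℕ → Type} (d : ∀ n, (A × T (n + 1) →₀ k) →ₗ[k] (A × T n →₀ k))
  (he : ∀ n, ∀ g ∈ G, ∀ c, d n (trk k g c) = trk k g (d n c))

/-- The differentials as morphisms of representations. -/
noncomputable def cdD (n : ℕ) : Rep.of (cdRep k G (T (n + 1))) ⟶ Rep.of (cdRep k G (T n)) :=
  Rep.ofHom ((d n).intertwiningMap_of_isIntertwiningMap _ _ fun g v => he n g g.2 v)

variable (hx : ∀ n, Function.Exact (d (n + 1)) (d n))

/-- The chain complex of representations. -/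
noncomputable def cdC : ChainComplex (Rep k G) ℕ :=
  ChainComplex.of (fun n => Rep.of (cdRep k G (T n))) (cdD G d he) fun n => by
    ext1
    exact DFunLike.ext _ _ fun v => (hx n).apply_apply_eq_zero v

theorem cdC_d (n : ℕ) : (cdC G d he hx).d (n + 1) n = cdD G d he n := by
  exact ChainComplex.of_d (fun n => Rep.of (cdRep k G (T n))) (cdD G d he) n

theorem augk_tr {X : Type} (g : A) (c : A × X →₀ k) : augk k (trk k g c) = augk k c := by
  induction c using Finsupp.induction_linear with
  | zero => simp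
  | add a b ha hb => simp only [map_add, ha, hb]
  | single p n => obtain ⟨x, t⟩ := p; simp [augk]

variable (h0 : Function.Exact (d 0) (augk k (X := A × T 0)))

variable (k) in
/-- The augmentation as a morphism of representations. -/
noncomputable def cdAug (X : Type) : Rep.of (cdRep k G X) ⟶ Rep.trivial k G k :=
  Rep.ofHom ((augk k (X := A × X)).intertwiningMap_of_isIntertwiningMap _ _
    fun g v => augk_tr (g : A) v)

/-- The augmentation of the complex. -/
noncomputable def cdPi : cdC G d he hx ⟶ (ChainComplex.single₀ (Rep k G)).obj (Rep.trivial k G k) :=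
  ((cdC G d he hx).toSingle₀Equiv _).symm ⟨cdAug k G (T 0), by
    rw [cdC_d]
    ext1
    exact DFunLike.ext _ _ fun v => h0.apply_apply_eq_zero v⟩

theorem cd_quasi [Nonempty (T 0)] : QuasiIso (cdPi G d he hx h0) where
  quasiIsoAt m := by
    induction m with
    | zero =>
      rw [ChainComplex.quasiIsoAt₀_iff, ShortComplex.quasiIso_iff_of_zeros' _ rfl rfl rfl]
      have e : (cdPi G d he hx h0).f 0 = cdAug k G (T 0) :=
        ChainComplex.toSingle₀Equiv_symm_apply_f_zero _ _
      constructor
      · apply (forget₂ _ (ModuleCat k)).reflects_exact_of_faithful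
        rw [ShortComplex.moduleCat_exact_iff]
        intro x hx0
        have h1 : ((cdPi G d he hx h0).f 0).hom x = 0 := hx0
        rw [e] at h1
        obtain ⟨y, hy⟩ := (h0 x).1 h1
        refine ⟨y, ?_⟩
        change ((cdC G d he hx).d 1 0).hom y = x
        rw [cdC_d]
        exact hy
      · change Epi ((cdPi G d he hx h0).f 0)
        rw [e, Rep.epi_iff_surjective]
        intro x
        obtain ⟨t⟩ := ‹Nonempty (T 0)›
        exact ⟨Finsupp.single (1, t) x, by
          change augk k (Finsupp.single ((1 : A), t) x) = x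
          simp [augk]⟩
    | succ m _ =>
      rw [quasiIsoAt_iff_exactAt' (hL := ChainComplex.exactAt_succ_single_obj ..),
        HomologicalComplex.exactAt_iff' _ (m + 2) (m + 1) m (by simp) (by simp)]
      apply (forget₂ _ (ModuleCat k)).reflects_exact_of_faithful
      rw [ShortComplex.moduleCat_exact_iff]
      intro x hx0
      have h1 : ((cdC G d he hx).d (m + 1) m).hom x = 0 := hx0
      rw [cdC_d] at h1
      obtain ⟨y, hy⟩ := (hx m x).1 h1
      refine ⟨y, ?_⟩
      change ((cdC G d he hx).d (m + 1 + 1) (m + 1)).hom y = x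
      rw [cdC_d]
      exact hy

include he hx h0 in
theorem cd_zero [Nonempty (T 0)] (M : Rep k G) (n : ℕ)
    (ψ : (A × T n →₀ k) →ₗ[k] (A × T (n + 1) →₀ k))
    (eψ : ∀ g ∈ G, ∀ c, ψ (trk k g c) = trk k g (ψ c)) (hψ : ∀ c, ψ (d n c) = c) :
    Limits.IsZero (groupCohomology M (n + 1)) := by
  let P : ProjectiveResolution (Rep.trivial k G k) :=
    { complex := cdC G d he hx
      projective := fun n => cd_proj k G (T n)
      π := cdPi G d he hx h0
      quasiIso := cd_quasi G d he hx h0 }
  refine Limits.IsZero.of_iso ?_ (groupCohomologyIso M (n + 1) P)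
  rw [← HomologicalComplex.exactAt_iff_isZero_homology,
    HomologicalComplex.exactAt_iff' _ n (n + 1) (n + 2) (by simp) (by simp),
    ShortComplex.moduleCat_exact_iff]
  intro f _
  let s : Rep.of (cdRep k G (T n)) ⟶ Rep.of (cdRep k G (T (n + 1))) :=
    Rep.ofHom (ψ.intertwiningMap_of_isIntertwiningMap _ _ fun g v => eψ g g.2 v)
  let f' : Rep.of (cdRep k G (T (n + 1))) ⟶ M := f
  refine ⟨s ≫ f', ?_⟩
  change (cdC G d he hx).d (n + 1) n ≫ s ≫ f' = f'
  rw [cdC_d]
  ext1
  exact DFunLike.ext _ _ fun v => congrArg f'.hom (hψ v)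

end aux

/-- Index types of the cells. -/
def cdT (T1 T2 T3 : Type) : ℕ → Type
  | 0 => Unit
  | 1 => T1
  | 2 => T2
  | 3 => T3
  | _ + 4 => Empty

/-- The differentials, extended by zero. -/
noncomputable def cdd {A T1 T2 T3 : Type}
    (d1 : (A × T1 →₀ ℤ) →ₗ[ℤ] (A × Unit →₀ ℤ)) (d2 : (A × T2 →₀ ℤ) →ₗ[ℤ] (A × T1 →₀ ℤ))
    (d3 : (A × T3 →₀ ℤ) →ₗ[ℤ] (A × T2 →₀ ℤ)) :
    ∀ n, (A × cdT T1 T2 T3 (n + 1) →₀ ℤ) →ₗ[ℤ] (A × cdT T1 T2 T3 n →₀ ℤ)
  | 0 => d1
  | 1 => d2
  | 2 => d3
  | _ + 3 => 0

/-- The modules `A × T →₀ ℤ` are free representations of the subgroup `G` (choose coset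
representatives; `Rep.free`, or `Rep.linearization` of a free `G`-set), so the `dᵢ` form a
`ProjectiveResolution` of the trivial representation, zero above degree three; compute with
`groupCohomologyIso`.  In degree three every cochain `f` is the coboundary of `f ∘ ψ`. -/
theorem cd_le_two {A : Type} [Group A] (G : Subgroup A) {T1 T2 T3 : Type}
    (d1 : (A × T1 →₀ ℤ) →ₗ[ℤ] (A × Unit →₀ ℤ)) (d2 : (A × T2 →₀ ℤ) →ₗ[ℤ] (A × T1 →₀ ℤ))
    (d3 : (A × T3 →₀ ℤ) →ₗ[ℤ] (A × T2 →₀ ℤ)) (ψ : (A × T2 →₀ ℤ) →ₗ[ℤ] (A × T3 →₀ ℤ))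
    (e1 : ∀ g ∈ G, ∀ c, d1 (tr g c) = tr g (d1 c)) (e2 : ∀ g ∈ G, ∀ c, d2 (tr g c) = tr g (d2 c))
    (e3 : ∀ g ∈ G, ∀ c, d3 (tr g c) = tr g (d3 c)) (eψ : ∀ g ∈ G, ∀ c, ψ (tr g c) = tr g (ψ c))
    (x0 : Function.Exact d1 (aug (X := A × Unit))) (x1 : Function.Exact d2 d1)
    (x2 : Function.Exact d3 d2) (hψ : ∀ c, ψ (d3 c) = c) (M : Rep ℤ G) (n : ℕ) (hn : 3 ≤ n) :
    CategoryTheory.Limits.IsZero (groupCohomology M n) := by
  have hsub : ∀ m, Subsingleton (A × cdT T1 T2 T3 (m + 4) →₀ ℤ) := fun m =>
    ⟨fun a b => Finsupp.ext fun p => Empty.elim p.2⟩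
  have he : ∀ n, ∀ g ∈ G, ∀ c, cdd d1 d2 d3 n (tr g c) = tr g (cdd d1 d2 d3 n c) := by
    intro n
    match n with
    | 0 => exact e1
    | 1 => exact e2
    | 2 => exact e3
    | m + 3 => intro g _ c; simp [cdd]
  have hx : ∀ n, Function.Exact (cdd d1 d2 d3 (n + 1)) (cdd d1 d2 d3 n) := by
    intro n
    match n with
    | 0 => exact x1
    | 1 => exact x2
    | 2 =>
      intro c
      constructor
      · intro h
        refine ⟨0, ?_⟩
        have h' : d3 c = 0 := h
        rw [map_zero, ← hψ c, h', map_zero]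
        rfl
      · rintro ⟨y, rfl⟩
        simp [cdd]
    | m + 3 =>
      intro c
      have := hsub m
      exact ⟨fun _ => ⟨0, Subsingleton.elim _ _⟩, fun _ => by simp [cdd]⟩
  have : Nonempty (cdT T1 T2 T3 0) := ⟨()⟩
  obtain ⟨m, rfl⟩ : ∃ m, n = m + 3 := ⟨n - 3, by omega⟩
  match m with
  | 0 => exact cd_zero G (cdd d1 d2 d3) he hx x0 M 2 ψ eψ hψ
  | m + 1 =>
    have := hsub m
    exact cd_zero G (cdd d1 d2 d3) he hx x0 M (m + 3) 0 (fun _ _ _ => by simp)
      fun c => Subsingleton.elim _ _

end Crest.Agent.R197
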