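import Crest.Agent.R197.Defs

/-! Row 197: holonomy around rectangles and triangles tiled by unit pieces. -/

set_option autoImplicit false

namespace Crest.Agent.R197

section
variable {G S Q : Type} [Group G] [Group Q] (π : FreeGroup S →* G)

/-- The holonomy along a word only sees finitely many edges. -/
theorem hol_local (w : FreeGroup S) : ∃ T : Finset G, ∀ (Q : Type) [Group Q]
    (σ σ' : G → S → Q) (g : G),
    (∀ x ∈ T, ∀ s, x * π (FreeGroup.of s) ∈ T → σ (g * x) s = σ' (g * x) s) →
      hol π σ g w = hol π σ' g w := by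
  classical
  induction w using FreeGroup.induction_on with
  | C1 => exact ⟨∅, fun Q _ σ σ' g _ => by simp⟩
  | of s =>
    refine ⟨{1, π (FreeGroup.of s)}, fun Q _ σ σ' g h => ?_⟩
    simpa using h 1 (by simp) s (by simp)
  | inv_of s ih =>
    obtain ⟨T, hT⟩ := ih
    refine ⟨T.image fun x => (π (FreeGroup.of s))⁻¹ * x, fun Q _ σ σ' g h => ?_⟩
    rw [hol_inv, hol_inv, hT Q σ σ' _ fun x hx s' hs' => ?_]
    rw [mul_assoc]
    exact h _ (Finset.mem_image_of_mem _ hx) s' (by
      rw [mul_assoc]; exact Finset.mem_image_of_mem _ hs')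
  | mul a b iha ihb =>
    obtain ⟨T, hT⟩ := iha
    obtain ⟨T', hT'⟩ := ihb
    refine ⟨T ∪ T'.image fun x => π a * x, fun Q _ σ σ' g h => ?_⟩
    rw [hol_mul, hol_mul, hT Q σ σ' g fun x hx s hs =>
      h x (Finset.mem_union_left _ hx) s (Finset.mem_union_left _ hs),
      hT' Q σ σ' _ fun x hx s' hs' => ?_]
    rw [mul_assoc]
    exact h _ (Finset.mem_union_right _ (Finset.mem_image_of_mem _ hx)) s' (by
      rw [mul_assoc]; exact Finset.mem_union_right _ (Finset.mem_image_of_mem _ hs'))

variable (σ : G → S → Q) (g : G) (α β γ : FreeGroup S)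

theorem π_rect (hc : Commute (π α) (π β)) (m n : ℕ) : π (rect α β m n) = 1 := by
  simp only [rect, map_mul, map_inv, map_pow]
  rw [(hc.pow_pow m n).eq]
  group

theorem π_tri (hc : Commute (π α) (π β)) (hγ : π α * π γ = π β) (m : ℕ) :
    π (tri α β γ m) = 1 := by
  have h : π γ = (π α)⁻¹ * π β := by rw [← hγ]; group
  simp only [tri, map_mul, map_inv, map_pow]
  rw [h, hc.inv_left.mul_pow]
  group

theorem flat_rect_add (hc : Commute (π α) (π β)) (m m' n : ℕ) :
    hol π σ g (rect α β (m + m') n) = hol π σ g (α ^ m) *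
      hol π σ (g * π α ^ m) (rect α β m' n) * (hol π σ g (α ^ m))⁻¹ * hol π σ g (rect α β m n) := by
  rw [rect_add, hol_mul, hol_conj _ _ _ _ (π_rect π α β hc _ _)]
  simp [π_rect π α β hc]

theorem flat_rect_add' (hc : Commute (π α) (π β)) (m n n' : ℕ) :
    hol π σ g (rect α β m (n + n')) = hol π σ g (rect α β m n) * (hol π σ g (β ^ n) *
      hol π σ (g * π β ^ n) (rect α β m n') * (hol π σ g (β ^ n))⁻¹) := by
  rw [rect_add', hol_mul, hol_conj _ _ _ _ (π_rect π α β hc _ _)]
  simp [π_rect π α β hc]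

theorem flat_tri_add (hc : Commute (π α) (π β)) (hγ : π α * π γ = π β) (m n : ℕ) :
    hol π σ g (tri α β γ (m + n)) = hol π σ g (α ^ m) *
      hol π σ (g * π α ^ m) (tri α β γ n) * (hol π σ g (α ^ m))⁻¹ * hol π σ g (rect α β m n) *
      (hol π σ g (β ^ n) * hol π σ (g * π β ^ n) (tri α β γ m) * (hol π σ g (β ^ n))⁻¹) := by
  rw [tri_add, hol_mul, hol_mul _ _ _ _ (rect α β m n), hol_conj _ _ _ _ (π_tri π α β γ hc hγ _),
    hol_conj _ _ _ _ (π_tri π α β γ hc hγ _)]
  simp [π_rect π α β hc, π_tri π α β γ hc hγ]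

theorem flat_pos {a b : G} (hc : Commute a b) (g : G) (n i k : ℕ) :
    g * b ^ n * a ^ i * b ^ k = g * a ^ i * b ^ (n + k) := by
  rw [mul_assoc g, ← (hc.pow_pow i n).eq, pow_add]
  simp only [mul_assoc]

theorem flat_pos' (a b g : G) (n i k : ℕ) :
    g * a ^ n * a ^ i * b ^ k = g * a ^ (n + i) * b ^ k := by
  rw [pow_add]
  simp only [mul_assoc]

theorem flat_rect (hc : Commute (π α) (π β)) (m n : ℕ)
    (h : ∀ i < m, ∀ k < n, hol π σ (g * π α ^ i * π β ^ k) (rect α β 1 1) = 1) :
    hol π σ g (rect α β m n) = 1 := by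
  have h1 : ∀ (g : G) (n : ℕ), (∀ k < n, hol π σ (g * π β ^ k) (rect α β 1 1) = 1) →
      hol π σ g (rect α β 1 n) = 1 := by
    intro g n h
    induction n with
    | zero => simp [rect]
    | succ n ih =>
      rw [flat_rect_add' π σ g α β hc, ih fun k hk => h k (by omega), h n (by omega)]
      simp
  induction m with
  | zero => simp [rect]
  | succ m ih =>
    rw [flat_rect_add π σ g α β hc, ih fun i hi => h i (by omega), h1 _ n (h m (by omega))]
    simp

/-- Induct with `tri_add m 1`. -/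
theorem flat_tri (hc : Commute (π α) (π β)) (hγ : π α * π γ = π β) (m : ℕ)
    (hsq : ∀ i k, i + k + 2 ≤ m → hol π σ (g * π α ^ i * π β ^ k) (rect α β 1 1) = 1)
    (htr : ∀ i k, i + k + 1 = m → hol π σ (g * π α ^ i * π β ^ k) (tri α β γ 1) = 1) :
    hol π σ g (tri α β γ m) = 1 := by
  induction m generalizing g with
  | zero => simp [tri]
  | succ m ih =>
    have h1 := htr m 0 (by omega)
    rw [pow_zero, mul_one] at h1
    rw [flat_tri_add π σ g α β γ hc hγ, h1,
      flat_rect π σ g α β hc m 1 fun i hi k hk => hsq i k (by omega),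
      ih _ (fun i k h => by rw [flat_pos hc]; exact hsq _ _ (by omega))
        (fun i k h => by rw [flat_pos hc]; exact htr _ _ (by omega))]
    simp

/-- A triangle that is flat outside the strip `m × n` at its corner (`tri_add m n`). -/
theorem tri_strip (hc : Commute (π α) (π β)) (hγ : π α * π γ = π β) (m n : ℕ)
    (hsq : ∀ i k, i + k + 2 ≤ m + n → (m ≤ i ∨ n ≤ k) →
      hol π σ (g * π α ^ i * π β ^ k) (rect α β 1 1) = 1)
    (htr : ∀ i k, i + k + 1 = m + n → hol π σ (g * π α ^ i * π β ^ k) (tri α β γ 1) = 1) :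
    hol π σ g (tri α β γ (m + n)) = hol π σ g (rect α β m n) := by
  rw [flat_tri_add π σ g α β γ hc hγ,
    flat_tri π σ _ α β γ hc hγ n
      (fun i k h => by rw [flat_pos']; exact hsq _ _ (by omega) (by omega))
      (fun i k h => by rw [flat_pos']; exact htr _ _ (by omega)),
    flat_tri π σ _ α β γ hc hγ m
      (fun i k h => by rw [flat_pos hc]; exact hsq _ _ (by omega) (by omega))
      (fun i k h => by rw [flat_pos hc]; exact htr _ _ (by omega))]
  simp

/-- A square that is flat outside a central patch. -/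
theorem patch (hc : Commute (π α) (π β)) (H R : ℕ)
    (h : ∀ i k, i < 2 * H + R → k < 2 * H + R → ¬ (H ≤ i ∧ i < H + R ∧ H ≤ k ∧ k < H + R) →
      hol π σ (g * π α ^ i * π β ^ k) (rect α β 1 1) = 1) :
    ∃ y : Q, hol π σ g (rect α β (2 * H + R) (2 * H + R)) =
      y * hol π σ (g * π α ^ H * π β ^ H) (rect α β R R) * y⁻¹ := by
  refine ⟨hol π σ g (α ^ H) * hol π σ (g * π α ^ H) (β ^ H), ?_⟩
  have e : 2 * H + R = H + (R + H) := by ring
  have h1 : hol π σ g (rect α β H (2 * H + R)) = 1 :=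
    flat_rect π σ g α β hc _ _ fun i hi k hk => h i k (by omega) hk (by omega)
  have h2 : hol π σ (g * π α ^ H * π α ^ R) (rect α β H (2 * H + R)) = 1 :=
    flat_rect π σ _ α β hc _ _ fun i hi k hk => by
      rw [mul_assoc g, ← pow_add, flat_pos']; exact h _ k (by omega) hk (by omega)
  have h3 : hol π σ (g * π α ^ H) (rect α β R H) = 1 :=
    flat_rect π σ _ α β hc _ _ fun i hi k hk => by
      rw [flat_pos']; exact h _ k (by omega) (by omega) (by omega)
  have h4 : hol π σ (g * π α ^ H * π β ^ H * π β ^ R) (rect α β R H) = 1 :=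
    flat_rect π σ _ α β hc _ _ fun i hi k hk => by
      rw [mul_assoc (g * π α ^ H), ← pow_add, flat_pos hc, flat_pos']
      exact h _ _ (by omega) (by omega) (by omega)
  have h5 : hol π σ (g * π α ^ H) (rect α β R (2 * H + R)) = hol π σ (g * π α ^ H) (β ^ H) *
      hol π σ (g * π α ^ H * π β ^ H) (rect α β R R) * (hol π σ (g * π α ^ H) (β ^ H))⁻¹ := by
    rw [e, flat_rect_add' π σ _ α β hc, h3, flat_rect_add' π σ _ α β hc, h4]
    simp
  conv_lhs => rw [show rect α β (2 * H + R) (2 * H + R) = rect α β (H + (R + H)) (2 * H + R) by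
    rw [← e]]
  rw [flat_rect_add π σ _ α β hc, h1, flat_rect_add π σ _ α β hc, h2, h5]
  group

theorem ahol_rect (ξ : G → S → ℝ) (hc : Commute (π α) (π β)) (m n : ℕ) :
    ahol π ξ g (rect α β m n) = ∑ i ∈ Finset.range m, ∑ k ∈ Finset.range n,
      ahol π ξ (g * π α ^ i * π β ^ k) (rect α β 1 1) := by
  have h1 : ∀ (g : G) (n : ℕ), ahol π ξ g (rect α β 1 n) =
      ∑ k ∈ Finset.range n, ahol π ξ (g * π β ^ k) (rect α β 1 1) := by
    intro g n
    induction n with
    | zero => simp [rect]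
    | succ n ih =>
      rw [Finset.sum_range_succ, ← ih]
      simp only [ahol]
      rw [flat_rect_add' π _ g α β hc]
      simp
  induction m with
  | zero => simp [rect]
  | succ m ih =>
    rw [Finset.sum_range_succ, ← ih, ← h1]
    simp only [ahol]
    rw [flat_rect_add π _ g α β hc]
    simp [add_comm]

end

end Crest.Agent.R197
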