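import Crest.Agent.R197.Lin
import Crest.Agent.R197.Flat

/-! Row 197: the filling of a large square uses a 2-cell near its centre. -/

set_option autoImplicit false

namespace Crest.Agent.R197

theorem centre_shift {G S : Type} [Group G] (π : FreeGroup S →* G) (ξ : G → S → ℝ) (h g : G)
    (w : FreeGroup S) : ahol π ξ (h * g) w = ahol π (fun x => ξ (h * x)) g w := by
  simp only [ahol, hol_shift]

theorem centre_pow {G S : Type} [Group G] (π : FreeGroup S →* G) (ξ : G → S → ℝ) (g : G)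
    (w : FreeGroup S) (n : ℕ) :
    ahol π ξ g (w ^ n) = ∑ i ∈ Finset.range n, ahol π ξ (g * π w ^ i) w := by
  induction n with
  | zero => simp
  | succ n ih => rw [pow_succ, ahol_mul, ih, Finset.sum_range_succ, map_pow]

/-- Proof.  (1) By `P.dual`, the additive coefficients `κ` of a word are unique; by `ahol_rect`
they are the sum over `(i,k)` of the translates by `π α ^ i * π β ^ k` of the coefficients of a
fixed filling `(K₁, κ₁)` of `rect α β 1 1` (`exists_fills`, `hol_shift`).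
(2) Take the connection `ξ x s = u x * (w (x * π (of s)) - w x)`, where `u`, `w` are the
indicators of `m ≤ θ x b`, `m ≤ θ x c`.  By `hol_local` and `ahol_cob`: along a word near which
`w` is constant its holonomy is `0`, along a word near which `u` is the constant `u₀` it is
`u₀ * (w end - w start)`; so `ahol ξ 1 (rect α β (2m) (2m)) = 1` (only the side `β ^ (2m)` from
`π α ^ (2m)` counts), and `acurv ξ d ≠ 0` for `d.2 ∈ K₁.image snd` forces `θ d.1 b` and `θ d.1 c`
to be within a constant of `m`.  (3) Some `d` has `κ d ≠ 0 ≠ acurv ξ d`; it is a translate of a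
cell of `K₁` by `π α ^ i * π β ^ k`, with `i, k` within a constant of `m`. -/
theorem centre {G : Type} [Group G] (P : Pres G) (θ : G →* Multiplicative (V → ℤ))
    {a b c : V} (hab : a ≠ b) (hac : a ≠ c) (hbc : b ≠ c) (α β : FreeGroup P.S)
    (hc : Commute (P.π α) (P.π β))
    (hα : Multiplicative.toAdd (θ (P.π α)) = Pi.single b 1 - Pi.single a 1)
    (hβ : Multiplicative.toAdd (θ (P.π β)) = Pi.single c 1 - Pi.single a 1) :
    ∃ N : ℕ, ∀ m : ℕ, N ≤ m → ∀ (K : Finset (G × P.R)) (κ : G × P.R → ℤ),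
      (∀ ξ : G → P.S → ℝ,
        ahol P.π ξ 1 (rect α β (2 * m) (2 * m)) = ∑ d ∈ K, (κ d : ℝ) * P.acurv ξ d) →
      ∃ d ∈ K, κ d ≠ 0 ∧ ∀ v, |Multiplicative.toAdd (θ d.1) v -
        Multiplicative.toAdd (θ (P.π α ^ m * P.π β ^ m)) v| ≤ N := by
  classical
  choose z hz using P.surj
  obtain ⟨K₁, κ₁, C, hF⟩ := P.exists_fills z hz (rect α β 1 1) (π_rect P.π α β hc 1 1)
  choose T hT using hol_local (G := G) P.π
  set x := P.π α with hx
  set y := P.π β with hy
  let φ : G → V → ℤ := fun g => Multiplicative.toAdd (θ g)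
  have φmul : ∀ g h v, φ (g * h) v = φ g v + φ h v := fun g h v => by simp [φ]
  have φx : ∀ (i : ℕ) v, φ (x ^ i) v = i * ((Pi.single b 1 - Pi.single a 1 : V → ℤ) v) :=
    fun i v => by simp [φ, hα]
  have φy : ∀ (i : ℕ) v, φ (y ^ i) v = i * ((Pi.single c 1 - Pi.single a 1 : V → ℤ) v) :=
    fun i v => by simp [φ, hβ]
  have φxb : ∀ i : ℕ, φ (x ^ i) b = i := fun i => by simp [φx, hab.symm]
  have φxc : ∀ i : ℕ, φ (x ^ i) c = 0 := fun i => by simp [φx, hac.symm, hbc.symm]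
  have φyb : ∀ i : ℕ, φ (y ^ i) b = 0 := fun i => by simp [φy, hab.symm, hbc]
  have φyc : ∀ i : ℕ, φ (y ^ i) c = i := fun i => by simp [φy, hac.symm]
  obtain ⟨B, hB⟩ : ∃ B : ℕ, ∀ t ∈ (T α ∪ T β) ∪ (K₁.biUnion (fun d => T (P.r d.2)) ∪
      K₁.image Prod.fst), ∀ v, -(B : ℤ) ≤ φ t v ∧ φ t v ≤ B := by
    generalize (T α ∪ T β) ∪ (K₁.biUnion (fun d => T (P.r d.2)) ∪ K₁.image Prod.fst) = Z
    refine ⟨Z.sup fun t => Finset.univ.sup fun v => (φ t v).natAbs, fun t ht v => ?_⟩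
    have h1 : (φ t v).natAbs ≤ Z.sup fun t => Finset.univ.sup fun v => (φ t v).natAbs :=
      le_trans (Finset.le_sup (f := fun v => (φ t v).natAbs) (Finset.mem_univ v))
        (Finset.le_sup (f := fun t => Finset.univ.sup fun v => (φ t v).natAbs) ht)
    omega
  have hBα : ∀ t ∈ T α, ∀ v, -(B : ℤ) ≤ φ t v ∧ φ t v ≤ B := fun t ht => hB t (by simp [ht])
  have hBβ : ∀ t ∈ T β, ∀ v, -(B : ℤ) ≤ φ t v ∧ φ t v ≤ B := fun t ht => hB t (by simp [ht])
  have hBr : ∀ d ∈ K₁, ∀ t ∈ T (P.r d.2), ∀ v, -(B : ℤ) ≤ φ t v ∧ φ t v ≤ B := fun d hd t ht =>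
    hB t (Finset.mem_union_right _ (Finset.mem_union_left _ (Finset.mem_biUnion.2 ⟨d, hd, ht⟩)))
  have hBK : ∀ d ∈ K₁, ∀ v, -(B : ℤ) ≤ φ d.1 v ∧ φ d.1 v ≤ B := fun d hd =>
    hB _ (Finset.mem_union_right _ (Finset.mem_union_right _ (Finset.mem_image_of_mem _ hd)))
  refine ⟨5 * B + 1, fun m hm K κ hK => ?_⟩
  have hsum : ∀ ξ : G → P.S → ℝ, ∑ d ∈ K, (κ d : ℝ) * P.acurv ξ d =
      ∑ i ∈ Finset.range (2 * m), ∑ k ∈ Finset.range (2 * m), ∑ d ∈ K₁,
        (κ₁ d : ℝ) * P.acurv ξ (x ^ i * y ^ k * d.1, d.2) := by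
    intro ξ
    rw [← hK, ahol_rect P.π 1 α β ξ hc]
    refine Finset.sum_congr rfl fun i _ => Finset.sum_congr rfl fun k _ => ?_
    have := hF.add fun g => ξ (x ^ i * y ^ k * g)
    rw [one_mul, ← mul_one (x ^ i * y ^ k), centre_shift, this]
    refine Finset.sum_congr rfl fun d _ => ?_
    simp only [Pres.acurv, centre_shift, mul_one]
  have hpos : ∀ d ∈ K, κ d ≠ 0 → ∃ i k : ℕ, ∃ e ∈ K₁, d = (x ^ i * y ^ k * e.1, e.2) := by
    intro d hd hκ
    by_contra hcon
    push Not at hcon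
    obtain ⟨ξ, h1, h2⟩ := P.dual (K ∪ ((Finset.range (2 * m) ×ˢ Finset.range (2 * m)) ×ˢ K₁).image
      fun p => (x ^ p.1.1 * y ^ p.1.2 * p.2.1, p.2.2)) d
    have h3 := hsum ξ
    rw [Finset.sum_eq_single d (fun e he hne => by
        rw [Pres.acurv, h2 e (Finset.mem_union_left _ he) hne, mul_zero]) (fun h => absurd hd h),
      Pres.acurv, h1, mul_one, Finset.sum_eq_zero fun i hi => Finset.sum_eq_zero fun k hk =>
        Finset.sum_eq_zero fun e he => ?_] at h3
    · exact hκ (by exact_mod_cast h3)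
    · rw [Pres.acurv, h2 _ (Finset.mem_union_right _ (Finset.mem_image.2
        ⟨((i, k), e), by simp only [Finset.mem_product]; exact ⟨⟨hi, hk⟩, he⟩, rfl⟩))
        (hcon i k e he).symm, mul_zero]
  let u : G → ℝ := fun g => if (m : ℤ) ≤ φ g b then 1 else 0
  let w : G → ℝ := fun g => if (m : ℤ) ≤ φ g c then 1 else 0
  let ξ : G → P.S → ℝ := fun g s => u g * (w (g * P.π (FreeGroup.of s)) - w g)
  have LA : ∀ (W : FreeGroup P.S) (g : G) (u₀ : ℝ), (∀ t ∈ T W, u (g * t) = u₀) →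
      ahol P.π ξ g W = u₀ * (w (g * P.π W) - w g) := by
    intro W g u₀ h
    rw [← ahol_cob, ← ahol_smul]
    exact congrArg Multiplicative.toAdd (hT W _ _ _ g fun t ht s _ => by simp [ξ, h t ht])
  have LB : ∀ (W : FreeGroup P.S) (g : G) (w₀ : ℝ), (∀ t ∈ T W, w (g * t) = w₀) →
      ahol P.π ξ g W = 0 := by
    intro W g w₀ h
    rw [← zero_mul (ahol P.π ξ g W), ← ahol_smul]
    exact congrArg Multiplicative.toAdd (hT W _ _ _ g fun t ht s hs => by
      simp [ξ, h t ht, mul_assoc, h _ hs])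
  have hbig : ahol P.π ξ 1 (rect α β (2 * m) (2 * m)) = 1 := by
    have e1 : ahol P.π ξ 1 (α ^ (2 * m)) = 0 := by
      rw [centre_pow]
      refine Finset.sum_eq_zero fun i _ => LB _ _ 0 fun t ht => if_neg ?_
      have := hBα t ht c
      rw [one_mul, φmul, φxc]; omega
    have e2 : ahol P.π ξ (y ^ (2 * m)) (α ^ (2 * m)) = 0 := by
      rw [centre_pow]
      refine Finset.sum_eq_zero fun i _ => LB _ _ 1 fun t ht => if_pos ?_
      have := hBα t ht c
      rw [φmul, φmul, φxc, φyc]; omega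
    have e3 : ahol P.π ξ 1 (β ^ (2 * m)) = 0 := by
      rw [centre_pow]
      refine Finset.sum_eq_zero fun i _ => ?_
      rw [LA _ _ 0 fun t ht => if_neg ?_, zero_mul]
      have := hBβ t ht b
      rw [one_mul, φmul, φyb]; omega
    have e4 : ahol P.π ξ (x ^ (2 * m)) (β ^ (2 * m)) = 1 := by
      rw [centre_pow, Finset.sum_congr rfl fun i _ => LA β _ 1 fun t ht => if_pos (by
        have := hBβ t ht b
        rw [φmul, φmul, φxb, φyb]; omega)]
      simp only [one_mul, mul_assoc, ← pow_succ]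
      rw [Finset.sum_range_sub (fun i => w (x ^ (2 * m) * y ^ i))]
      have h1 : w (x ^ (2 * m) * y ^ (2 * m)) = 1 := if_pos (by rw [φmul, φxc, φyc]; omega)
      have h2 : w (x ^ (2 * m) * y ^ 0) = 0 := if_neg (by rw [φmul, φxc, φyc]; omega)
      rw [h1, h2, sub_zero]
    have e5 : x ^ (2 * m) * y ^ (2 * m) * (x ^ (2 * m))⁻¹ = y ^ (2 * m) := by
      rw [(hc.pow_pow _ _).eq, mul_inv_cancel_right]
    simp only [rect, ahol_mul, ahol_inv, map_mul, map_inv, map_pow, one_mul, ← hx, ← hy, e5,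
      mul_inv_cancel, e1, e2, e3, e4]
    norm_num
  rw [hK] at hbig
  obtain ⟨d, hd, hne⟩ := Finset.exists_ne_zero_of_sum_ne_zero (hbig ▸ one_ne_zero)
  have hκ : κ d ≠ 0 := fun h => hne (by rw [h, Int.cast_zero, zero_mul])
  have hcu : ahol P.π ξ d.1 (P.r d.2) ≠ 0 := right_ne_zero_of_mul hne
  obtain ⟨i, k, e, he, rfl⟩ := hpos d hd hκ
  refine ⟨_, hd, hκ, fun v => ?_⟩
  simp only at hcu ⊢
  have b1 : (m : ℤ) - B ≤ φ (x ^ i * y ^ k * e.1) b := by
    by_contra h
    apply hcu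
    rw [LA _ _ 0 fun t ht => if_neg ?_, zero_mul]
    have := hBr e he t ht b
    rw [φmul]; omega
  have b2 : φ (x ^ i * y ^ k * e.1) b ≤ (m : ℤ) + B := by
    by_contra h
    apply hcu
    rw [LA _ _ 1 fun t ht => if_pos ?_, P.π_r, mul_one, sub_self, mul_zero]
    have := hBr e he t ht b
    rw [φmul]; omega
  have b3 : (m : ℤ) - B ≤ φ (x ^ i * y ^ k * e.1) c := by
    by_contra h
    refine hcu (LB _ _ 0 fun t ht => if_neg ?_)
    have := hBr e he t ht c
    rw [φmul]; omega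
  have b4 : φ (x ^ i * y ^ k * e.1) c ≤ (m : ℤ) + B := by
    by_contra h
    refine hcu (LB _ _ 1 fun t ht => if_pos ?_)
    have := hBr e he t ht c
    rw [φmul]; omega
  rw [φmul, φmul] at b1 b2 b3 b4
  rw [φxb, φyb] at b1 b2
  rw [φxc, φyc] at b3 b4
  have c1 := hBK e he b
  have c2 := hBK e he c
  have c3 := hBK e he v
  change |φ (x ^ i * y ^ k * e.1) v - φ (x ^ m * y ^ m) v| ≤ _
  rw [φmul, φmul, φmul, φx, φx, φy, φy, abs_le]
  simp only [Pi.sub_apply, Pi.single_apply]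
  split_ifs <;> constructor <;> push_cast <;> omega

end Crest.Agent.R197
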