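import Crest.Agent.R197.K1
import Crest.Agent.R197.Cd

/-! Row 197: the cellular chain complex of the cube complex of the Artin group. -/

set_option autoImplicit false

namespace Crest.Agent.R197

open Finsupp

variable (Γ : SimpleGraph V)

/-- Boundary of edges. -/
noncomputable def d1 : (Raag Γ × V →₀ ℤ) →ₗ[ℤ] (Raag Γ × Unit →₀ ℤ) :=
  linearCombination ℤ fun p => single (p.1 * gen Γ p.2, ()) 1 - single (p.1, ()) 1

/-- Boundary of squares. -/
noncomputable def d2 : (Raag Γ × Edge Γ →₀ ℤ) →ₗ[ℤ] (Raag Γ × V →₀ ℤ) :=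
  linearCombination ℤ fun p => single (p.1, p.2.1.1) 1 + single (p.1 * gen Γ p.2.1.1, p.2.1.2) 1
    - single (p.1 * gen Γ p.2.1.2, p.2.1.1) 1 - single (p.1, p.2.1.2) 1

/-- Boundary of cubes. -/
noncomputable def d3 : (Raag Γ × Tri Γ →₀ ℤ) →ₗ[ℤ] (Raag Γ × Edge Γ →₀ ℤ) :=
  linearCombination ℤ fun p =>
    (single (p.1 * gen Γ p.2.a, p.2.ebc) 1 - single (p.1 * gen Γ p.2.b, p.2.eac) 1
      + single (p.1 * gen Γ p.2.c, p.2.eab) 1)
    - (single (p.1, p.2.ebc) 1 - single (p.1, p.2.eac) 1 + single (p.1, p.2.eab) 1)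

variable {Γ}

theorem d1_tr (g : Raag Γ) (c : Raag Γ × V →₀ ℤ) : d1 Γ (tr g c) = tr g (d1 Γ c) := by
  induction c using Finsupp.induction_linear with
  | zero => simp
  | add f f' hf hf' => simp only [map_add, hf, hf']
  | single p n =>
    obtain ⟨x, t⟩ := p
    simp only [d1, tr_single, linearCombination_single, map_zsmul, map_sub, mul_assoc]

theorem d2_tr (g : Raag Γ) (c : Raag Γ × Edge Γ →₀ ℤ) : d2 Γ (tr g c) = tr g (d2 Γ c) := by
  induction c using Finsupp.induction_linear with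
  | zero => simp
  | add f f' hf hf' => simp only [map_add, hf, hf']
  | single p n =>
    obtain ⟨x, t⟩ := p
    simp only [d2, tr_single, linearCombination_single, map_zsmul, map_sub, map_add, mul_assoc]

theorem d3_tr (g : Raag Γ) (c : Raag Γ × Tri Γ →₀ ℤ) : d3 Γ (tr g c) = tr g (d3 Γ c) := by
  induction c using Finsupp.induction_linear with
  | zero => simp
  | add f f' hf hf' => simp only [map_add, hf, hf']
  | single p n =>
    obtain ⟨x, t⟩ := p
    simp only [d3, tr_single, linearCombination_single, map_zsmul, map_sub, map_add, mul_assoc]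

theorem aug_d1 (c : Raag Γ × V →₀ ℤ) : aug (d1 Γ c) = 0 := by
  induction c using Finsupp.induction_linear with
  | zero => simp
  | add f f' hf hf' => simp only [map_add, hf, hf', add_zero]
  | single p n =>
    obtain ⟨x, t⟩ := p
    simp only [d1, aug, linearCombination_single, map_zsmul, map_sub, sub_self, smul_zero]

theorem d1_single (x : Raag Γ) (v : V) :
    d1 Γ (single (x, v) 1) = single (x * gen Γ v, ()) 1 - single (x, ()) 1 := by
  rw [d1, linearCombination_single, one_smul]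

theorem d2_single (x : Raag Γ) (e : Edge Γ) :
    d2 Γ (single (x, e) 1) = single (x, e.1.1) 1 + single (x * gen Γ e.1.1, e.1.2) 1
      - single (x * gen Γ e.1.2, e.1.1) 1 - single (x, e.1.2) 1 := by
  rw [d2, linearCombination_single, one_smul]

theorem d1_d2 (c : Raag Γ × Edge Γ →₀ ℤ) : d1 Γ (d2 Γ c) = 0 := by
  induction c using Finsupp.induction_linear with
  | zero => simp
  | add f f' hf hf' => simp only [map_add, hf, hf', add_zero]
  | single p n =>
    obtain ⟨x, t⟩ := p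
    rw [d2, linearCombination_single, map_zsmul]
    simp only [map_sub, map_add, d1_single]
    rw [mul_assoc x, (gen_comm t.2.2).eq, ← mul_assoc x]
    convert smul_zero n using 2
    abel

theorem d2_d3 (c : Raag Γ × Tri Γ →₀ ℤ) : d2 Γ (d3 Γ c) = 0 := by
  induction c using Finsupp.induction_linear with
  | zero => simp
  | add f f' hf hf' => simp only [map_add, hf, hf', add_zero]
  | single p n =>
    obtain ⟨x, t⟩ := p
    rw [d3, linearCombination_single, map_zsmul]
    simp only [map_sub, map_add, d2_single]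
    simp only [Tri.ebc, Tri.eac, Tri.eab, mul_assoc]
    rw [(gen_comm t.adj_ab).eq, (gen_comm t.adj_ac).eq, (gen_comm t.adj_bc).eq]
    convert smul_zero n using 2
    abel

/-- The oriented edge from `x` along a letter. -/
noncomputable def e' (x : Raag Γ) (a : Letter) : Raag Γ × V →₀ ℤ :=
  sg a • single (x * lo Γ a, a.1) 1

open Classical in
/-- The oriented square at `x` on two generators (zero unless they are adjacent). -/
noncomputable def sq0 (x : Raag Γ) (u v : V) : Raag Γ × Edge Γ →₀ ℤ :=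
  if h : u < v ∧ Γ.Adj u v then single (x, ⟨(u, v), h⟩) 1
  else if h : v < u ∧ Γ.Adj v u then -single (x, ⟨(v, u), h⟩) 1 else 0

/-- The oriented square from `x` along two letters. -/
noncomputable def sq' (x : Raag Γ) (a b : Letter) : Raag Γ × Edge Γ →₀ ℤ :=
  (sg a * sg b) • sq0 (x * lo Γ a * lo Γ b) a.1 b.1

/-- The sign of an ordering of the vertices of a triangle. -/
def tsg (t : Tri Γ) (u v w : V) : ℤ :=
  if (u, v, w) = (t.a, t.b, t.c) ∨ (u, v, w) = (t.b, t.c, t.a) ∨ (u, v, w) = (t.c, t.a, t.b) then 1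
  else if (u, v, w) = (t.b, t.a, t.c) ∨ (u, v, w) = (t.a, t.c, t.b) ∨ (u, v, w) = (t.c, t.b, t.a)
    then -1 else 0

/-- The oriented cube from `x` along three letters. -/
noncomputable def cube' (x : Raag Γ) (a b c : Letter) : Raag Γ × Tri Γ →₀ ℤ :=
  (sg a * sg b * sg c) • ∑ t : Tri Γ,
    tsg t a.1 b.1 c.1 • single (x * lo Γ a * lo Γ b * lo Γ c, t) 1

theorem chain_diff {M : Type} [AddCommGroup M] (F : Raag Γ → M) (x : Raag Γ) (a : Letter) :
    sg a • (F (x * lo Γ a * gen Γ a.1) - F (x * lo Γ a)) = F (x * lt Γ a) - F x := by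
  obtain ⟨v, b⟩ := a
  cases b <;> simp [sg, lo, lt]

theorem chain_gen_lo {u : V} {b : Letter} (h : Γ.Adj u b.1) : Commute (gen Γ u) (lo Γ b) := by
  unfold lo
  split_ifs
  · exact Commute.one_right _
  · exact (gen_comm h).inv_right

theorem chain_lo_comm {a b : Letter} (h : Γ.Adj a.1 b.1) : Commute (lo Γ a) (lo Γ b) := by
  have := chain_gen_lo h
  unfold lo at this ⊢
  by_cases ha : a.2 = true
  · rw [if_pos ha]; exact Commute.one_left _
  · rw [if_neg ha]; exact this.inv_left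

theorem sq0_swap (x : Raag Γ) (u v : V) : sq0 x v u = -sq0 x u v := by
  unfold sq0
  by_cases h1 : u < v ∧ Γ.Adj u v
  · rw [dif_neg (fun h => lt_asymm h.1 h1.1), dif_pos h1, dif_pos h1]
  · rw [dif_neg h1, dif_neg h1]
    by_cases h2 : v < u ∧ Γ.Adj v u
    · rw [dif_pos h2, dif_pos h2, neg_neg]
    · rw [dif_neg h2, dif_neg h2, neg_zero]

theorem sq0_lt (x : Raag Γ) {u v : V} (h : u < v ∧ Γ.Adj u v) :
    sq0 x u v = single (x, ⟨(u, v), h⟩) 1 := by
  rw [sq0, dif_pos h]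

theorem d2_sq0 (x : Raag Γ) {u v : V} (h : Γ.Adj u v) :
    d2 Γ (sq0 x u v) = (single (x * gen Γ u, v) 1 - single (x, v) 1)
      - (single (x * gen Γ v, u) 1 - single (x, u) 1) := by
  rcases lt_or_gt_of_ne h.ne with h1 | h1
  · rw [sq0_lt x ⟨h1, h⟩]
    refine (d2_single x ⟨(u, v), h1, h⟩).trans ?_
    dsimp only
    abel
  · rw [sq0_swap, sq0_lt x ⟨h1, h.symm⟩, map_neg]
    refine (congrArg Neg.neg (d2_single x ⟨(v, u), h1, h.symm⟩)).trans ?_
    dsimp only
    abel

theorem tsg_aux {p q p' q' : Prop} [Decidable p] [Decidable q] [Decidable p'] [Decidable q']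
    (e1 : p' ↔ q) (e2 : q' ↔ p) (e3 : p → ¬ q) :
    (if p' then (1 : ℤ) else if q' then -1 else 0) = -(if p then 1 else if q then -1 else 0) := by
  by_cases hp : p
  · rw [if_neg (fun h => e3 hp (e1.1 h)), if_pos (e2.2 hp), if_pos hp]
  · rw [if_neg hp]
    by_cases hq : q
    · rw [if_pos (e1.2 hq), if_pos hq, neg_neg]
    · rw [if_neg (fun h => hq (e1.1 h)), if_neg (fun h => hp (e2.1 h)), if_neg hq, neg_zero]

theorem tsg_excl {a b c u v w : V} (h1 : a < b) (h2 : b < c) :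
    ((u, v, w) = (a, b, c) ∨ (u, v, w) = (b, c, a) ∨ (u, v, w) = (c, a, b)) →
      ¬ ((u, v, w) = (b, a, c) ∨ (u, v, w) = (a, c, b) ∨ (u, v, w) = (c, b, a)) := by
  simp only [Prod.mk.injEq, Fin.ext_iff]
  rw [Fin.lt_def] at h1 h2
  omega

theorem tsg_swap23 (t : Tri Γ) (u v w : V) : tsg t u w v = -tsg t u v w := by
  refine tsg_aux ?_ ?_ (tsg_excl t.ab t.bc) <;> (simp only [Prod.mk.injEq]; tauto)

theorem tsg_swap12 (t : Tri Γ) (u v w : V) : tsg t v u w = -tsg t u v w := by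
  refine tsg_aux ?_ ?_ (tsg_excl t.ab t.bc) <;> (simp only [Prod.mk.injEq]; tauto)

theorem tsg_left (t : Tri Γ) (u v : V) : tsg t u u v = 0 := by
  have := tsg_swap12 t u u v
  omega

theorem tsg_right (t : Tri Γ) (u v : V) : tsg t v u v = 0 := by
  rw [tsg_swap23, tsg_left, neg_zero]

theorem tsg_sorted (t t0 : Tri Γ) : tsg t t0.a t0.b t0.c = if t = t0 then 1 else 0 := by
  by_cases h : t = t0
  · rw [if_pos h, h, tsg, if_pos (Or.inl rfl)]
  · have h1 := t.ab
    have h2 := t.bc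
    have h3 := t0.ab
    have h4 := t0.bc
    have h5 : ¬ (t0.a = t.a ∧ t0.b = t.b ∧ t0.c = t.c) := fun h5 =>
      h (Subtype.ext (Prod.ext h5.1.symm (Prod.ext h5.2.1.symm h5.2.2.symm)))
    rw [Fin.lt_def] at h1 h2 h3 h4
    rw [if_neg h, tsg, if_neg, if_neg]
    · simp only [Prod.mk.injEq, Fin.ext_iff]
      omega
    · simp only [Prod.mk.injEq, Fin.ext_iff] at h5 ⊢
      omega

/-- The boundary formula for the cube on three generators. -/
def CubeOK (y : Raag Γ) (u v w : V) : Prop :=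
  d3 Γ (∑ t : Tri Γ, tsg t u v w • single (y, t) 1) =
    (sq0 (y * gen Γ u) v w - sq0 y v w) - (sq0 (y * gen Γ v) u w - sq0 y u w)
      + (sq0 (y * gen Γ w) u v - sq0 y u v)

theorem CubeOK.swap12 {y : Raag Γ} {u v w : V} (h : CubeOK y u v w) : CubeOK y v u w := by
  unfold CubeOK at h ⊢
  simp only [tsg_swap12 _ u v w, neg_smul, Finset.sum_neg_distrib, map_neg]
  rw [h, sq0_swap _ u v, sq0_swap _ u v]
  abel

theorem CubeOK.swap23 {y : Raag Γ} {u v w : V} (h : CubeOK y u v w) : CubeOK y u w v := by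
  unfold CubeOK at h ⊢
  simp only [tsg_swap23 _ u v w, neg_smul, Finset.sum_neg_distrib, map_neg]
  rw [h, sq0_swap _ v w, sq0_swap _ v w]
  abel

theorem cubeOK_sorted (y : Raag Γ) {u v w : V} (h1 : u < v) (h2 : v < w) (huv : Γ.Adj u v)
    (hvw : Γ.Adj v w) (huw : Γ.Adj u w) : CubeOK y u v w := by
  let t0 : Tri Γ := ⟨(u, v, w), h1, h2, huv, hvw, huw⟩
  change CubeOK y t0.a t0.b t0.c
  unfold CubeOK
  simp only [tsg_sorted, ite_smul, one_smul, zero_smul]
  rw [Finset.sum_ite_eq' Finset.univ t0, if_pos (Finset.mem_univ _), d3, linearCombination_single,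
    one_smul]
  simp only [sq0_lt _ ⟨t0.ab, t0.adj_ab⟩, sq0_lt _ ⟨t0.bc, t0.adj_bc⟩, sq0_lt _ ⟨t0.ac, t0.adj_ac⟩,
    Tri.eab, Tri.ebc, Tri.eac]
  abel

theorem d3_cube0 (y : Raag Γ) {u v w : V} (huv : Γ.Adj u v) (hvw : Γ.Adj v w) (huw : Γ.Adj u w) :
    d3 Γ (∑ t : Tri Γ, tsg t u v w • single (y, t) 1) =
      (sq0 (y * gen Γ u) v w - sq0 y v w) - (sq0 (y * gen Γ v) u w - sq0 y u w)
        + (sq0 (y * gen Γ w) u v - sq0 y u v) := by
  change CubeOK y u v w
  rcases lt_or_gt_of_ne huv.ne with h1 | h1 <;> rcases lt_or_gt_of_ne hvw.ne with h2 | h2 <;>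
    rcases lt_or_gt_of_ne huw.ne with h3 | h3
  · exact cubeOK_sorted y h1 h2 huv hvw huw
  · exact absurd (h1.trans h2) (lt_asymm h3)
  · exact (cubeOK_sorted y h3 h2 huw hvw.symm huv).swap23
  · exact (cubeOK_sorted y h3 h1 huw.symm huv hvw.symm).swap12.swap23
  · exact (cubeOK_sorted y h1 h3 huv.symm huw hvw).swap12
  · exact (cubeOK_sorted y h2 h3 hvw huw.symm huv.symm).swap23.swap12
  · exact absurd (h2.trans h1) (lt_asymm h3)
  · exact (cubeOK_sorted y h2 h1 hvw.symm huv.symm huw.symm).swap12.swap23.swap12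

theorem d1_e' (x : Raag Γ) (a : Letter) :
    d1 Γ (e' x a) = single (x * lt Γ a, ()) 1 - single (x, ()) 1 := by
  rw [e', map_zsmul, d1_single]
  exact chain_diff (fun z => single (z, ()) (1 : ℤ)) x a

theorem sq'_self (x : Raag Γ) (a : Letter) : sq' x a a = 0 := by
  rw [sq', sq0, dif_neg (fun h => lt_irrefl _ h.1), dif_neg (fun h => lt_irrefl _ h.1), smul_zero]

theorem sq'_swap (x : Raag Γ) {a b : Letter} (h : Γ.Adj a.1 b.1) : sq' x b a = -sq' x a b := by
  rw [sq', sq', sq0_swap, mul_assoc x, (chain_lo_comm h.symm).eq, ← mul_assoc x, mul_comm (sg b),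
    smul_neg]

theorem d2_sq' (x : Raag Γ) {a b : Letter} (h : Γ.Adj a.1 b.1) :
    d2 Γ (sq' x a b) = e' x a + e' (x * lt Γ a) b - e' (x * lt Γ b) a - e' x b := by
  have h1 := chain_diff (fun z => single (z * lo Γ b, b.1) (1 : ℤ)) x a
  have h2 := chain_diff (fun z => single (z * lo Γ a, a.1) (1 : ℤ)) x b
  have e1 : x * lo Γ a * lo Γ b * gen Γ a.1 = x * lo Γ a * gen Γ a.1 * lo Γ b := by
    rw [mul_assoc, ← (chain_gen_lo h).eq, ← mul_assoc]
  have e2 : x * lo Γ a * lo Γ b = x * lo Γ b * lo Γ a := by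
    rw [mul_assoc, (chain_lo_comm h).eq, ← mul_assoc]
  have e3 : x * lo Γ a * lo Γ b * gen Γ b.1 = x * lo Γ b * gen Γ b.1 * lo Γ a := by
    rw [e2, mul_assoc, ← (chain_gen_lo h.symm).eq, ← mul_assoc]
  rw [← e1] at h1
  rw [← e3, ← e2] at h2
  rw [sq', map_zsmul, d2_sq0 _ h, smul_sub, mul_smul, smul_comm (sg a), h1, mul_smul, h2]
  simp only [e', smul_sub]
  abel

theorem cube'_left (x : Raag Γ) (a b : Letter) : cube' x a a b = 0 := by
  simp only [cube', tsg_left, zero_smul, Finset.sum_const_zero, smul_zero]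

theorem cube'_right (x : Raag Γ) (a b : Letter) : cube' x b a b = 0 := by
  simp only [cube', tsg_right, zero_smul, Finset.sum_const_zero, smul_zero]

theorem d3_cube' (x : Raag Γ) {a b c : Letter} (hab : Γ.Adj a.1 b.1) (hbc : Γ.Adj b.1 c.1)
    (hac : Γ.Adj a.1 c.1) :
    d3 Γ (cube' x a b c) = (sq' (x * lt Γ a) b c - sq' (x * lt Γ b) a c + sq' (x * lt Γ c) a b)
      - (sq' x b c - sq' x a c + sq' x a b) := by
  have h1 := chain_diff (fun z => sq0 (z * lo Γ b * lo Γ c) b.1 c.1) x a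
  have h2 := chain_diff (fun z => sq0 (z * lo Γ a * lo Γ c) a.1 c.1) x b
  have h3 := chain_diff (fun z => sq0 (z * lo Γ a * lo Γ b) a.1 b.1) x c
  have f2 : x * lo Γ b * lo Γ a * lo Γ c = x * lo Γ a * lo Γ b * lo Γ c := by
    rw [mul_assoc x, ← (chain_lo_comm hab).eq, ← mul_assoc x]
  have f3 : x * lo Γ c * lo Γ a * lo Γ b = x * lo Γ a * lo Γ b * lo Γ c := by
    rw [mul_assoc x, ← (chain_lo_comm hac).eq, ← mul_assoc x, mul_assoc (x * lo Γ a),
      ← (chain_lo_comm hbc).eq, ← mul_assoc]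
  have mv : ∀ (z g p q : Raag Γ), Commute g p → Commute g q → z * g * p * q = z * p * q * g := by
    intro z g p q hp hq
    rw [mul_assoc z, hp.eq, ← mul_assoc z, mul_assoc (z * p), hq.eq, ← mul_assoc]
  rw [mv _ _ _ _ (chain_gen_lo hab) (chain_gen_lo hac)] at h1
  rw [mv _ _ _ _ (chain_gen_lo hab.symm) (chain_gen_lo hbc), f2] at h2
  rw [mv _ _ _ _ (chain_gen_lo hac.symm) (chain_gen_lo hbc.symm), f3] at h3
  have k1 : ∀ X : Raag Γ × Edge Γ →₀ ℤ, (sg a * sg b * sg c) • X = (sg b * sg c) • sg a • X := by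
    intro X; rw [smul_smul]; congr 1; ring
  have k2 : ∀ X : Raag Γ × Edge Γ →₀ ℤ, (sg a * sg b * sg c) • X = (sg a * sg c) • sg b • X := by
    intro X; rw [smul_smul]; congr 1; ring
  have k3 : ∀ X : Raag Γ × Edge Γ →₀ ℤ, (sg a * sg b * sg c) • X = (sg a * sg b) • sg c • X := by
    intro X; rw [smul_smul]
  rw [cube', map_zsmul, d3_cube0 _ hab hbc hac, smul_add, smul_sub, k1, h1, k2, h2, k3, h3]
  simp only [sq', smul_sub]
  abel

end Crest.Agent.R197
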