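import Crest.Agent.R197.Xt

/-! Row 197: the cube complex is contractible. -/

set_option autoImplicit false

namespace Crest.Agent.R197

variable {Γ : SimpleGraph V}

/-- The depth of a hyperplane: the least length of a vertex beyond it. -/
noncomputable def dep (H : Hyp Γ) : ℕ := sInf {n | ∃ x : Raag Γ, kap x H ≠ 0 ∧ len x = n}

theorem contr_kap_desc {x : Raag Γ} {a : Letter} (h : Desc x a) : kap x (eh x a) = -sg a := by
  have h1 := (sep_iff x 1 a).1 ((desc_iff x a).1 h)
  rw [kap_one, Pi.zero_apply] at h1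
  omega

theorem contr_kap_self {x : Raag Γ} {a : Letter} (h : Desc x a) :
    kap (x * lt Γ a) (eh x a) = 0 := by
  rw [kap_mul_lt, Pi.add_apply, Pi.single_eq_same, contr_kap_desc h, neg_add_cancel]

theorem contr_kap_ne (x : Raag Γ) (a : Letter) {H : Hyp Γ} (h : H ≠ eh x a) :
    kap (x * lt Γ a) H = kap x H := by
  rw [kap_mul_lt, Pi.add_apply, Pi.single_eq_of_ne h, add_zero]

theorem contr_ne_one {x : Raag Γ} {H : Hyp Γ} (h : kap x H ≠ 0) : x ≠ 1 := by
  rintro rfl
  exact h (by rw [kap_one]; rfl)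

theorem contr_dep_le {x : Raag Γ} {H : Hyp Γ} (h : kap x H ≠ 0) : dep H ≤ len x :=
  Nat.sInf_le ⟨x, h, rfl⟩

theorem contr_dep_mem {x : Raag Γ} {H : Hyp Γ} (h : kap x H ≠ 0) :
    ∃ y : Raag Γ, kap y H ≠ 0 ∧ len y = dep H :=
  Nat.sInf_mem (s := {n | ∃ x : Raag Γ, kap x H ≠ 0 ∧ len x = n}) ⟨_, x, h, rfl⟩

theorem contr_dep_lt {x : Raag Γ} {H H₀ : Hyp Γ} (h0 : kap x H₀ ≠ 0) (hne : H ≠ H₀)
    (h : ∀ y : Raag Γ, kap y H₀ ≠ 0 → kap y H ≠ 0) : dep H < dep H₀ := by
  obtain ⟨y, hy, hl⟩ := contr_dep_mem h0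
  obtain ⟨d, hd⟩ := exists_desc (contr_ne_one hy)
  have h1 := len_desc hd
  have h2 : H₀ = eh y d := by
    by_contra h2
    have h3 := contr_dep_le (x := y * lt Γ d) (H := H₀) (by rwa [contr_kap_ne y d h2])
    omega
  have h3 := contr_dep_le (x := y * lt Γ d) (H := H) (by
    rw [contr_kap_ne y d (h2 ▸ hne)]; exact h y hy)
  omega

/-- Induct on `len x`: `x₁ = x * lt a` with `Desc x a`, `H₀ = eh x a ≠ H`.  If `H = eh x₁ c` with
`Desc x₁ c`, either `a.1, c.1` are adjacent and `H = eh x c`, or every vertex beyond `H₀` is beyond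
`H` (`K2` at `x₁`), and a shortest vertex beyond `H₀` descends across `H₀`, so `dep H < dep H₀`. -/
theorem dep_max (x : Raag Γ) {H : Hyp Γ} (h : kap x H ≠ 0) :
    (∃ a, Desc x a ∧ H = eh x a) ∨ ∃ H', kap x H' ≠ 0 ∧ dep H < dep H' := by
  induction hn : len x using Nat.strong_induction_on generalizing x with
  | _ n ih =>
    obtain ⟨a, ha⟩ := exists_desc (contr_ne_one h)
    by_cases hH : H = eh x a
    · exact Or.inl ⟨a, ha, hH⟩
    have h1 := len_desc ha
    have h2 : kap (x * lt Γ a) H ≠ 0 := by rwa [contr_kap_ne x a hH]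
    rcases ih _ (by omega) (x * lt Γ a) h2 rfl with ⟨c, hc, hHc⟩ | ⟨H', hH', hd⟩
    · by_cases hadj : Γ.Adj c.1 a.1
      · exact Or.inl ⟨c, (desc_mul_lt x hadj).1 hc, hHc.trans (eh_mul_lt x hadj)⟩
      · refine Or.inr ⟨eh x a, ha, contr_dep_lt ha hH fun y hy hy' => ?_⟩
        have s1 : Sep (x * lt Γ a) y (a.1, !a.2) := by
          rw [Sep, eh_back, contr_kap_self ha]
          exact hy
        have s2 : Sep (x * lt Γ a) y c := by
          rw [Sep, ← hHc, hy']
          exact h2.symm
        rcases K2 s2 s1 with h3 | h3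
        · exact hH (by rw [hHc, h3, eh_back])
        · exact hadj h3
    · refine Or.inr ⟨H', ?_, hd⟩
      rwa [contr_kap_ne x a (by rintro rfl; exact hH' (contr_kap_self ha))] at hH'

theorem contr_abs_kap (x : Raag Γ) (H : Hyp Γ) : |(kap x H : ℝ)| ≤ 1 := by
  obtain ⟨c, hc⟩ := K0 H
  have h1 := hc 1
  have h2 := hc x
  rw [kap_one, Pi.zero_apply] at h1
  have h3 : |kap x H| ≤ 1 := by
    rw [abs_le]
    omega
  exact_mod_cast h3

theorem contr_one_le_dep (H : Hyp Γ) : 1 ≤ dep H := by
  obtain ⟨x, hx⟩ := hyp_surj H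
  have h1 : H = eh x (H.1, true) := by
    rw [eh, lo]
    simpa using hx.symm
  have h2 : ∃ y : Raag Γ, kap y H ≠ 0 := by
    by_cases h : kap x H = 0
    · refine ⟨x * lt Γ (H.1, true), ?_⟩
      rw [kap_mul_lt, Pi.add_apply, h, ← h1, Pi.single_eq_same]
      simp [sg]
    · exact ⟨x, h⟩
  obtain ⟨y, hy⟩ := h2
  obtain ⟨z, hz, hl⟩ := contr_dep_mem hy
  obtain ⟨d, hd⟩ := exists_desc (contr_ne_one hz)
  have := len_desc hd
  omega

theorem contr_eh_ne (x : Raag Γ) (v : V) : eh x (v, true) ≠ eh x (v, false) := fun h => by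
  simpa using eh_inj x h

theorem contr_not_both {x : Raag Γ} {v : V} (h1 : Desc x (v, true)) (h2 : Desc x (v, false)) :
    False := by
  rcases desc_adj h1 h2 with h | h
  · simp at h
  · exact Γ.irrefl h

theorem contr_spt_true (x : Raag Γ) (t : V → ℝ) (v : V) :
    spt x t (eh x (v, true)) = kap x (eh x (v, true)) + max (t v) 0 := by
  have h : (eh x (v, true)).1 = v := rfl
  simp only [spt, h]
  rw [if_neg (contr_eh_ne x v)]
  simp

theorem contr_spt_false (x : Raag Γ) (t : V → ℝ) (v : V) :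
    spt x t (eh x (v, false)) = kap x (eh x (v, false)) + min (t v) 0 := by
  have h : (eh x (v, false)).1 = v := rfl
  simp only [spt, h]
  rw [if_neg (contr_eh_ne x v).symm]
  simp

theorem contr_spt_other (x : Raag Γ) (t : V → ℝ) {H : Hyp Γ} (h : ∀ a, H ≠ eh x a) :
    spt x t H = kap x H := by
  simp only [spt]
  rw [if_neg (h _), if_neg (h _), add_zero, add_zero]

/-- Description of the points through the descending edges at the top vertex. -/
theorem contr_top {p : Hyp Γ → ℝ} (hp : p ∈ Xt Γ) : ∃ x : Raag Γ,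
    (∀ H, (∀ a, Desc x a → H ≠ eh x a) → p H = kap x H) ∧
      ∀ a, Desc x a → -1 ≤ (sg a : ℝ) * p (eh x a) ∧ (sg a : ℝ) * p (eh x a) < 0 := by
  obtain ⟨x, t, -, h1, h2, rfl⟩ := xt_top hp
  refine ⟨x, fun H hH => ?_, fun a ha => ?_⟩
  · by_cases h : ∀ a, H ≠ eh x a
    · exact contr_spt_other x t h
    push Not at h
    obtain ⟨⟨v, b⟩, rfl⟩ := h
    have h3 : ¬ 0 < (sg (v, b) : ℝ) * t v := fun h3 => hH _ (h2 (v, b) h3) rfl
    cases b
    · rw [contr_spt_false, min_eq_right, add_zero]
      simpa [sg] using h3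
    · rw [contr_spt_true, max_eq_right, add_zero]
      simpa [sg] using h3
  · obtain ⟨v, b⟩ := a
    have h3 := abs_lt.1 (h1 v)
    cases b
    · rw [contr_spt_false, contr_kap_desc ha]
      simp only [sg, Bool.false_eq_true, if_false]
      push_cast
      constructor
      · linarith [min_le_right (t v) 0]
      · have : -1 < min (t v) 0 := lt_min h3.1 (by norm_num)
        linarith
    · rw [contr_spt_true, contr_kap_desc ha]
      simp only [sg, if_true]
      push_cast
      constructor
      · linarith [le_max_right (t v) 0]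
      · have : max (t v) 0 < 1 := max_lt h3.2 (by norm_num)
        linarith

theorem contr_mem (x : Raag Γ) {q : Hyp Γ → ℝ}
    (h1 : ∀ H, (∀ a, Desc x a → H ≠ eh x a) → q H = kap x H)
    (h2 : ∀ a, Desc x a → -1 ≤ (sg a : ℝ) * q (eh x a) ∧ (sg a : ℝ) * q (eh x a) ≤ 0) :
    q ∈ Xt Γ := by
  classical
  have ht : ∀ v, Desc x (v, true) → -1 ≤ q (eh x (v, true)) ∧ q (eh x (v, true)) ≤ 0 :=
    fun v hv => by simpa [sg] using h2 _ hv
  have hf : ∀ v, Desc x (v, false) → q (eh x (v, false)) ≤ 1 ∧ 0 ≤ q (eh x (v, false)) :=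
    fun v hv => by simpa [sg] using h2 _ hv
  let t : V → ℝ := fun v => if Desc x (v, true) then q (eh x (v, true)) + 1 else
    if Desc x (v, false) then q (eh x (v, false)) - 1 else 0
  refine ⟨x, t, ⟨fun v => ?_, fun u v huv hu hv => ?_⟩, funext fun H => ?_⟩
  · simp only [t]
    split_ifs with h3 h4
    · rw [abs_le]
      constructor <;> linarith [(ht v h3).1, (ht v h3).2]
    · rw [abs_le]
      constructor <;> linarith [(hf v h4).1, (hf v h4).2]
    · simp
  · have key : ∀ w, t w ≠ 0 → ∃ b, Desc x (w, b) := fun w hw => by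
      by_contra h
      push Not at h
      exact hw (by simp only [t]; rw [if_neg (h _), if_neg (h _)])
    obtain ⟨b, hb⟩ := key u hu
    obtain ⟨b', hb'⟩ := key v hv
    rcases desc_adj hb hb' with h | h
    · exact absurd (congrArg Prod.fst h) huv
    · exact h
  · by_cases h : ∀ a, H ≠ eh x a
    · rw [contr_spt_other x t h, h1 H fun a _ => h a]
    push Not at h
    obtain ⟨⟨v, b⟩, rfl⟩ := h
    cases b
    · rw [contr_spt_false]
      by_cases h3 : Desc x (v, false)
      · have h4 : ¬ Desc x (v, true) := fun h4 => contr_not_both h4 h3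
        simp only [t]
        rw [if_neg h4, if_pos h3, contr_kap_desc h3, min_eq_left (by linarith [(hf v h3).1])]
        simp [sg]
      · rw [h1 _ fun a ha he => h3 (by rwa [← eh_inj x he] at ha), min_eq_right, add_zero]
        simp only [t]
        split_ifs with h4
        · linarith [(ht v h4).1]
        · exact le_rfl
    · rw [contr_spt_true]
      by_cases h3 : Desc x (v, true)
      · simp only [t]
        rw [if_pos h3, contr_kap_desc h3, max_eq_left (by linarith [(ht v h3).1])]
        simp [sg]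
      · rw [h1 _ fun a ha he => h3 (by rwa [← eh_inj x he] at ha), max_eq_right, add_zero]
        simp only [t]
        rw [if_neg h3]
        split_ifs with h4
        · linarith [(hf v h4).1]
        · exact le_rfl

theorem contr_abs_le {p : Hyp Γ → ℝ} (hp : p ∈ Xt Γ) (H : Hyp Γ) : |p H| ≤ 1 := by
  obtain ⟨x, h1, h2⟩ := contr_top hp
  by_cases h : ∀ a, Desc x a → H ≠ eh x a
  · rw [h1 H h]
    exact contr_abs_kap x H
  push Not at h
  obtain ⟨⟨v, b⟩, ha, rfl⟩ := h
  have h3 := h2 _ ha
  rw [abs_le]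
  cases b <;> simp only [sg, Bool.false_eq_true, if_false, if_true] at h3 <;> push_cast at h3 <;>
    constructor <;> linarith [h3.1, h3.2]

theorem contr_bdd {p : Hyp Γ → ℝ} (hp : p ∈ Xt Γ) : ∃ N, ∀ H, p H ≠ 0 → dep H ≤ N := by
  obtain ⟨x, h1, -⟩ := contr_top hp
  refine ⟨len x, fun H hH => contr_dep_le ?_⟩
  by_cases h : ∀ a, Desc x a → H ≠ eh x a
  · rw [h1 H h] at hH
    exact_mod_cast hH
  push Not at h
  obtain ⟨a, ha, rfl⟩ := h
  exact ha

/-- Clamping to `[-c, c]`. -/
noncomputable def contr_clamp (c s : ℝ) : ℝ := max (-c) (min c s)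

theorem contr_clamp_zero (s : ℝ) : contr_clamp 0 s = 0 := by
  rw [contr_clamp, neg_zero, max_eq_left (min_le_left _ _)]

theorem contr_clamp_zero' {c : ℝ} (hc : 0 ≤ c) : contr_clamp c 0 = 0 := by
  rw [contr_clamp, min_eq_right hc, max_eq_right (by linarith)]

theorem contr_clamp_one {s : ℝ} (hs : |s| ≤ 1) : contr_clamp 1 s = s := by
  rw [contr_clamp, min_eq_right (abs_le.1 hs).2, max_eq_right (abs_le.1 hs).1]

theorem contr_step {p : Hyp Γ → ℝ} (hp : p ∈ Xt Γ) {n : ℕ} (hn : ∀ H, p H ≠ 0 → dep H ≤ n)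
    {c : ℝ} (hc : 0 ≤ c) :
    (fun H => if dep H = n then contr_clamp c (p H) else p H) ∈ Xt Γ := by
  obtain ⟨x, h1, h2⟩ := contr_top hp
  refine contr_mem x (fun H hH => ?_) fun a ha => ?_
  · split_ifs with h
    · by_cases h0 : p H = 0
      · rw [← h1 H hH, h0, contr_clamp_zero' hc]
      exfalso
      have h3 : kap x H ≠ 0 := by
        rw [h1 H hH] at h0
        exact_mod_cast h0
      rcases dep_max x h3 with ⟨a, ha, he⟩ | ⟨H', hH', hd⟩
      · exact hH a ha he
      · have h4 : p H' ≠ 0 := by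
          by_cases h5 : ∀ a, Desc x a → H' ≠ eh x a
          · rw [h1 H' h5]
            exact_mod_cast hH'
          push Not at h5
          obtain ⟨a, ha, rfl⟩ := h5
          intro h6
          have := (h2 a ha).2
          rw [h6, mul_zero] at this
          exact lt_irrefl _ this
        have := hn H' h4
        omega
    · exact h1 H hH
  · have h3 := h2 a ha
    split_ifs with h
    · obtain ⟨v, b⟩ := a
      unfold contr_clamp
      cases b <;> simp only [sg, Bool.false_eq_true, if_false, if_true] at h3 ⊢ <;>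
        push_cast at h3 ⊢
      · have h4 : max (-c) (min c (p (eh x (v, false)))) ≤ 1 :=
          max_le (by linarith) ((min_le_right _ _).trans (by linarith [h3.1]))
        have h5 : 0 ≤ max (-c) (min c (p (eh x (v, false)))) :=
          le_max_of_le_right (le_min hc (by linarith [h3.2]))
        constructor <;> linarith
      · have h4 : -1 ≤ max (-c) (min c (p (eh x (v, true)))) :=
          le_max_of_le_right (le_min (by linarith) (by linarith [h3.1]))
        have h5 : max (-c) (min c (p (eh x (v, true)))) ≤ 0 :=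
          max_le (by linarith) ((min_le_right _ _).trans (by linarith [h3.2]))
        constructor <;> linarith
    · exact ⟨h3.1, h3.2.le⟩

theorem contr_trunc {p : Hyp Γ → ℝ} (hp : p ∈ Xt Γ) (n : ℕ) :
    (fun H => if dep H ≤ n then p H else 0) ∈ Xt Γ := by
  obtain ⟨N, hN⟩ := contr_bdd hp
  have key : ∀ k m, N ≤ m + k → (fun H => if dep H ≤ m then p H else 0) ∈ Xt Γ := by
    intro k
    induction k with
    | zero =>
      intro m hm
      convert hp using 2 with H
      split_ifs with h
      · rfl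
      · by_contra h0
        have := hN H (Ne.symm h0)
        omega
    | succ k ih =>
      intro m hm
      have h1 := contr_step (ih (m + 1) (by omega)) (n := m + 1) (fun H hH => by
        by_contra h
        exact hH (if_neg h)) le_rfl
      convert h1 using 2 with H
      by_cases h : dep H = m + 1
      · rw [if_pos h, contr_clamp_zero, if_neg (by omega)]
      · rw [if_neg h]
        by_cases h' : dep H ≤ m
        · rw [if_pos h', if_pos (by omega)]
        · rw [if_neg h', if_neg (by omega)]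
  exact key N n (by omega)

/-- The clamping level at time `t`. -/
noncomputable def contr_c (n : ℕ) (t : ℝ) : ℝ := max 0 (min 1 ((n + 1) * (1 - n * t)))

theorem contr_c_one {n : ℕ} {t : ℝ} (h : (n + 1) * t ≤ 1) : contr_c n t = 1 := by
  have h1 : (1 : ℝ) ≤ (n + 1) * (1 - n * t) := by
    have : (0 : ℝ) ≤ n := n.cast_nonneg
    nlinarith
  rw [contr_c, min_eq_left h1, max_eq_right zero_le_one]

theorem contr_c_zero {n : ℕ} {t : ℝ} (h : 1 ≤ n * t) : contr_c n t = 0 := by
  have h1 : ((n : ℝ) + 1) * (1 - n * t) ≤ 0 :=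
    mul_nonpos_of_nonneg_of_nonpos (by positivity) (by linarith)
  rw [contr_c, max_eq_left ((min_le_right _ _).trans h1)]

theorem contr_flow {p : Hyp Γ → ℝ} (hp : p ∈ Xt Γ) {t : ℝ} (ht : 0 ≤ t) :
    (fun H => contr_clamp (contr_c (dep H) t) (p H)) ∈ Xt Γ := by
  rcases ht.eq_or_lt with rfl | ht
  · convert hp using 2 with H
    rw [contr_c_one (by simp), contr_clamp_one (contr_abs_le hp H)]
  have h1 := contr_step (contr_trunc hp ⌊t⁻¹⌋₊) (n := ⌊t⁻¹⌋₊) (fun H hH => by
    by_contra h
    exact hH (if_neg h)) (c := contr_c ⌊t⁻¹⌋₊ t) (le_max_left _ _)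
  convert h1 using 2 with H
  rcases lt_trichotomy (dep H) ⌊t⁻¹⌋₊ with h | h | h
  · rw [if_neg h.ne, if_pos h.le, contr_c_one, contr_clamp_one (contr_abs_le hp H)]
    have h2 : ((dep H : ℝ) + 1) ≤ t⁻¹ := by
      refine le_trans ?_ (Nat.floor_le (inv_pos.2 ht).le)
      exact_mod_cast h
    rwa [← le_div_iff₀ ht, one_div]
  · rw [if_pos h, if_pos h.le, h]
  · rw [if_neg h.ne', if_neg (not_le.2 h), contr_c_zero, contr_clamp_zero]
    have h2 : t⁻¹ ≤ (dep H : ℝ) := by
      refine (Nat.lt_floor_add_one _).le.trans ?_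
      exact_mod_cast h
    rwa [← div_le_iff₀ ht, one_div]

/-- With `c n t = max 0 (min 1 ((n + 1) * (1 - n * t)))` put
`F (t, p) H = max (-c) (min c (p H))`, `c = c (dep H) t`; it is continuous for the product
topology, `F (0, p) = p` (`|p H| ≤ 1`), `F (1, p) = 0 = spt 1 0` (`1 ≤ dep H`).  For fixed `t` there
is `n` with `c m t = 1` for `m < n` and `c m t = 0` for `m > n`.  It stays in `Xt`: if all
hyperplanes in the support of `p` have depth `≤ n`, clamping those of depth `n` only changes
coordinates of descending edges at the top vertex (`xt_top`, `dep_max`, `desc_adj`); remove the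
larger depths one after the other. -/
theorem xt_contractible (Γ : SimpleGraph V) : ContractibleSpace (Xt Γ) := by
  have h0 : (fun _ => 0 : Hyp Γ → ℝ) ∈ Xt Γ :=
    contr_mem 1 (fun H _ => by rw [kap_one]; simp) fun a _ => by simp
  refine (contractible_iff_id_nullhomotopic _).2 ⟨⟨_, h0⟩, ⟨⟨⟨fun z =>
    ⟨fun H => contr_clamp (contr_c (dep H) z.1) (z.2.1 H), contr_flow z.2.2 z.1.2.1⟩, ?_⟩,
    fun p => ?_, fun p => ?_⟩⟩⟩
  · refine Continuous.subtype_mk (continuous_pi fun H => ?_) _
    have h1 : Continuous fun z : unitInterval × Xt Γ => z.2.1 H :=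
      (continuous_apply H).comp (continuous_subtype_val.comp continuous_snd)
    unfold contr_clamp contr_c
    fun_prop
  · refine Subtype.ext (funext fun H => ?_)
    change contr_clamp (contr_c (dep H) 0) (p.1 H) = p.1 H
    rw [contr_c_one (by simp), contr_clamp_one (contr_abs_le p.2 H)]
  · refine Subtype.ext (funext fun H => ?_)
    change contr_clamp (contr_c (dep H) 1) (p.1 H) = 0
    rw [contr_c_zero (by rw [mul_one]; exact_mod_cast contr_one_le_dep H), contr_clamp_zero]

end Crest.Agent.R197
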