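import Crest.Agent.R197.Defs

/-! Row 197: frames of flat bundles given by set-theoretic local trivialisations. -/

set_option autoImplicit false

namespace Crest.Agent.R197

open scoped Topology unitInterval

section
variable {Y ι Q : Type} [TopologicalSpace Y] [Group Q]

/-- An open cover with functions `k i` whose quotients are locally constant on overlaps. -/
def Cocyc (U : ι → Set Y) (k : ι → Y → Q) : Prop :=
  (∀ i, IsOpen (U i)) ∧ (∀ y, ∃ i, y ∈ U i) ∧
    ∀ i j y, y ∈ U i → y ∈ U j → ∀ᶠ y' in 𝓝 y, (k i y')⁻¹ * k j y' = (k i y)⁻¹ * k j y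

/-- A parallel frame. -/
def Frame (U : ι → Set Y) (k : ι → Y → Q) (F : Y → Q) : Prop :=
  ∀ i y, y ∈ U i → ∀ᶠ y' in 𝓝 y, F y' * k i y' = F y * k i y

variable {U : ι → Set Y} {k : ι → Y → Q}

theorem Frame.mul_left {F : Y → Q} (h : Frame U k F) (q : Q) : Frame U k fun y => q * F y :=
  fun i y hy => (h i y hy).mono fun y' h' => by rw [mul_assoc, h', mul_assoc]

theorem Frame.comp {F : Y → Q} (h : Frame U k F) {Z : Type} [TopologicalSpace Z] {f : Z → Y}
    (hf : Continuous f) : Frame (fun i => f ⁻¹' U i) (fun i z => k i (f z)) fun z => F (f z) :=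
  fun i z hz => hf.continuousAt.eventually (h i (f z) hz)

theorem Frame.map {F : Y → Q} (h : Frame U k F) {Q' : Type} [Group Q'] (φ : Q →* Q') :
    Frame U (fun i y => φ (k i y)) fun y => φ (F y) :=
  fun i y hy => (h i y hy).mono fun y' h' => by rw [← map_mul, h', map_mul]

/-- A function that is constant near every point of a connected space is constant. -/
theorem const_of_eventually [PreconnectedSpace Y] {A : Type} {f : Y → A}
    (h : ∀ y, ∀ᶠ y' in 𝓝 y, f y' = f y) (y y' : Y) : f y = f y' :=
  ((IsLocallyConstant.iff_eventually_eq f).2 h).apply_eq_of_preconnectedSpace y y'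

theorem Frame.unique [PreconnectedSpace Y] {F F' : Y → Q} (hc : ∀ y, ∃ i, y ∈ U i)
    (h : Frame U k F) (h' : Frame U k F') (y y' : Y) : F' y * (F y)⁻¹ = F' y' * (F y')⁻¹ := by
  refine const_of_eventually (f := fun y => F' y * (F y)⁻¹) (fun z => ?_) y y'
  obtain ⟨i, hi⟩ := hc z
  filter_upwards [h i z hi, h' i z hi] with w h1 h2
  calc F' w * (F w)⁻¹ = (F' w * k i w) * (F w * k i w)⁻¹ := by group
    _ = F' z * (F z)⁻¹ := by rw [h1, h2]; group

/-- A covering of a simply connected space has a section that is continuous along every path. -/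
theorem exists_frame_path_sec [SimplyConnectedSpace Y] {E : Type} [TopologicalSpace E] {p : E → Y}
    (cov : IsCoveringMap p) (e₀ : E) :
    ∃ sec : Y → E, (∀ y, p (sec y) = y) ∧ ∀ γ : C(I, Y), Continuous fun t => sec (γ t) := by
  let c : ∀ y : Y, Path.Homotopic.Quotient (p e₀) y := fun y =>
    .mk (PathConnectedSpace.somePath (p e₀) y)
  let sec : ∀ y : Y, p ⁻¹' {y} := fun y => cov.monodromy (c y) ⟨e₀, rfl⟩
  refine ⟨fun y => (sec y).1, fun y => (sec y).2, fun γ => ?_⟩
  have h0 : γ 0 = p (sec (γ 0)).1 := (sec (γ 0)).2.symm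
  have key : ∀ t, (sec (γ t)).1 = cov.liftPath γ (sec (γ 0)).1 h0 t := by
    intro t
    have hm : Continuous fun s : I => s * t := by fun_prop
    let γ' : Path (γ 0) (γ t) :=
      ⟨⟨fun s => γ (s * t), γ.continuous.comp hm⟩, by simp, by simp⟩
    have h1 : c (γ t) = (c (γ 0)).trans (.mk γ') := Subsingleton.elim _ _
    have h2 : sec (γ t) = cov.monodromy (.mk γ') (sec (γ 0)) := by
      change cov.monodromy (c (γ t)) _ = _
      rw [h1, cov.monodromy_trans_apply]
    have h3 : (⟨fun s => cov.liftPath γ (sec (γ 0)).1 h0 (s * t),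
        (cov.liftPath γ (sec (γ 0)).1 h0).continuous.comp hm⟩ : C(I, E)) =
        cov.liftPath γ' (sec (γ 0)).1 (γ'.source.trans h0) := by
      rw [cov.eq_liftPath_iff']
      refine ⟨funext fun s => congrFun (cov.liftPath_lifts γ _ h0) (s * t), ?_⟩
      change cov.liftPath γ (sec (γ 0)).1 h0 (0 * t) = _
      rw [zero_mul, cov.liftPath_zero]
    rw [h2]
    change cov.liftPath γ' (sec (γ 0)).1 _ 1 = _
    rw [← h3]
    change cov.liftPath γ (sec (γ 0)).1 h0 (1 * t) = _
    rw [one_mul]
  exact (cov.liftPath γ _ h0).continuous.congr fun t => (key t).symm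

/-- On a simply connected space there is a function that is a frame along every path.  Build the
covering space with discrete fibre `Q` (a `FiberBundleCore` with coordinate changes
`q ↦ q * (k i y)⁻¹ * k j y`, or directly a topology on `Y × Q`); a lift of `γ` is the same as a
frame along `γ`; define `Φ y` by lifting any path from a base point to `y` (monodromy only depends
on the homotopy class). -/
theorem exists_frame_path [SimplyConnectedSpace Y] (h : Cocyc U k) :
    ∃ Φ : Y → Q, ∀ γ : C(I, Y),
      Frame (fun i => γ ⁻¹' U i) (fun i t => k i (γ t)) fun t => Φ (γ t) := by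
  let _ : TopologicalSpace Q := ⊥
  have : DiscreteTopology Q := ⟨rfl⟩
  obtain ⟨ho, hc, hk⟩ := h
  choose ix hix using hc
  let Z : FiberBundleCore ι Y Q :=
    { baseSet := U
      isOpen_baseSet := ho
      indexAt := ix
      mem_baseSet_at := hix
      coordChange := fun i j y q => q * ((k i y)⁻¹ * k j y)
      coordChange_self := fun i y _ q => by simp
      continuousOn_coordChange := fun i j => by
        rintro ⟨y, q⟩ ⟨⟨hi, hj⟩, -⟩
        refine ContinuousAt.continuousWithinAt ?_
        have h1 : ∀ᶠ z in 𝓝 (y, q), (k i z.1)⁻¹ * k j z.1 = (k i y)⁻¹ * k j y :=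
          (continuousAt_fst (p := (y, q))).eventually (hk i j y hi hj)
        have h2 : ∀ᶠ z : Y × Q in 𝓝 (y, q), z.2 = q :=
          continuousAt_snd.eventually (p := fun z => z = q) (by simp)
        refine (continuousAt_const (y := q * ((k i y)⁻¹ * k j y))).congr ?_
        filter_upwards [h1, h2] with z hz hz'
        rw [hz, hz']
      coordChange_comp := fun i j l y _ q => by group }
  have cov : IsCoveringMap Z.proj := FiberBundle.isCoveringMap
  obtain ⟨y₀⟩ : Nonempty Y := inferInstance
  obtain ⟨sec, hsec, hcont⟩ := exists_frame_path_sec cov ⟨y₀, (1 : Q)⟩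
  refine ⟨fun y => (show Q from (sec y).2) * (k (ix y) y)⁻¹, fun γ i t ht => ?_⟩
  have hv : ∀ y, (show Q from (sec y).2) * (k (ix y) y)⁻¹ * k i y = (Z.localTriv i (sec y)).2 := by
    intro y
    have h1 : (sec y).1 = y := hsec y
    change _ = (show Q from (sec y).2) * ((k (ix (sec y).1) (sec y).1)⁻¹ * k i (sec y).1)
    rw [h1, mul_assoc]
  have h1 : ContinuousAt (Z.localTriv i) (sec (γ t)) :=
    (Z.localTriv i).continuousAt (by
      change (sec (γ t)).1 ∈ U i
      rw [show (sec (γ t)).1 = γ t from hsec _]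
      exact ht)
  have h2 : ContinuousAt (fun s => (Z.localTriv i (sec (γ s))).2) t :=
    continuousAt_snd.comp (ContinuousAt.comp (f := fun s => sec (γ s)) h1 (hcont γ).continuousAt)
  have h3 := h2.eventually (p := fun z => z = (Z.localTriv i (sec (γ t))).2) (by simp)
  filter_upwards [h3] with s hs
  rw [hv, hv, hs]

end

theorem exists_frame_I {ι Q : Type} [Group Q] {U : ι → Set I} {k : ι → I → Q} (h : Cocyc U k) :
    ∃ F : I → Q, Frame U k F ∧ F 0 = 1 := by
  have : ContractibleSpace I := (convex_Icc (0 : ℝ) 1).contractibleSpace ⟨0, by simp⟩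
  obtain ⟨Φ, hΦ⟩ := exists_frame_path h
  exact ⟨fun t => (Φ 0)⁻¹ * Φ t, (hΦ (ContinuousMap.id I)).mul_left _, by simp⟩

end Crest.Agent.R197
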