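import Crest.Agent.R197.Xt

/-! Row 197: the CW structure of the quotient. -/

set_option autoImplicit false

namespace Crest.Agent.R197

open Metric Set

namespace XbCW

variable {Γ : SimpleGraph V}

/-- The representative in `[0, 1)`. -/
noncomputable def rep (x : UnitAddCircle) : ℝ := (AddCircle.equivIco 1 0 x : ℝ)

theorem coe_rep (x : UnitAddCircle) : ((rep x : ℝ) : UnitAddCircle) = x := AddCircle.coe_equivIco

theorem rep_mem (x : UnitAddCircle) : 0 ≤ rep x ∧ rep x < 1 := by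
  have := (AddCircle.equivIco 1 0 x).2
  simpa [rep] using this

theorem rep_coe {y : ℝ} (h0 : 0 ≤ y) (h1 : y < 1) : rep (y : UnitAddCircle) = y :=
  AddCircle.equivIco_coe_of_mem ⟨h0, by simpa using h1⟩

theorem rep_zero : rep 0 = 0 := rep_coe le_rfl one_pos

theorem coe_ne_zero {y : ℝ} (h0 : 0 < y) (h1 : y < 1) : (y : UnitAddCircle) ≠ 0 := fun h => by
  have := rep_coe h0.le h1
  rw [h, rep_zero] at this
  exact h0.ne this

theorem rep_cont {x : UnitAddCircle} (hx : x ≠ 0) : ContinuousAt rep x :=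
  continuousAt_subtype_val.comp (AddCircle.continuousAt_equivIco 1 0 hx)

theorem coe_int (m : ℤ) : ((m : ℝ) : UnitAddCircle) = 0 :=
  (AddCircle.coe_eq_zero_iff 1).2 ⟨m, by simp⟩

theorem coe_sum (y : V → ℝ) : ((∑ v, y v : ℝ) : UnitAddCircle) = ∑ v, (y v : UnitAddCircle) :=
  map_sum (QuotientAddGroup.mk' (AddSubgroup.zmultiples (1 : ℝ))) y Finset.univ

variable (Γ) in
/-- The cells. -/
abbrev Cl (n : ℕ) : Type := ℤ × {s : Finset V // s.card = n ∧ Γ.IsClique (s : Set V)}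

/-- The point with coordinates `y`. -/
def raw (m : ℤ) (y : V → ℝ) : (V → UnitAddCircle) × ℝ :=
  (fun v => (y v : UnitAddCircle), (m : ℝ) + ∑ v, y v)

theorem raw_mem (m : ℤ) {s : Finset V} (hs : Γ.IsClique (s : Set V)) {y : V → ℝ}
    (hy : ∀ v, v ∉ s → y v = 0) : raw m y ∈ Xb Γ := by
  refine ⟨fun u v huv hu hv => ?_, ?_⟩
  · have h : ∀ w, (raw m y).1 w ≠ 0 → w ∈ s := fun w hw => by
      by_contra h
      exact hw (by simp [raw, hy w h])
    exact hs (h u hu) (h v hv) huv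
  · simp only [raw]
    rw [AddCircle.coe_add, coe_int, zero_add, coe_sum]

/-- The coordinates of a point of the cube. -/
noncomputable def yv {n : ℕ} (c : Cl Γ n) (a : Fin n → ℝ) (v : V) : ℝ :=
  if hv : v ∈ c.2.1 then (a ((c.2.1.orderIsoOfFin c.2.2.1).symm ⟨v, hv⟩) + 1) / 2 else 0

/-- The `i`-th vertex. -/
def vx {n : ℕ} (c : Cl Γ n) (i : Fin n) : V := (c.2.1.orderIsoOfFin c.2.2.1 i : V)

theorem vx_mem {n : ℕ} (c : Cl Γ n) (i : Fin n) : vx c i ∈ c.2.1 :=
  (c.2.1.orderIsoOfFin c.2.2.1 i).2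

theorem exists_vx {n : ℕ} (c : Cl Γ n) {v : V} (hv : v ∈ c.2.1) : ∃ i, vx c i = v :=
  ⟨(c.2.1.orderIsoOfFin c.2.2.1).symm ⟨v, hv⟩, by simp [vx]⟩

theorem yv_off {n : ℕ} (c : Cl Γ n) (a : Fin n → ℝ) {v : V} (hv : v ∉ c.2.1) : yv c a v = 0 :=
  dif_neg hv

theorem yv_vx {n : ℕ} (c : Cl Γ n) (a : Fin n → ℝ) (i : Fin n) :
    yv c a (vx c i) = (a i + 1) / 2 := by
  rw [yv, dif_pos (vx_mem c i)]
  congr 3
  exact (c.2.1.orderIsoOfFin c.2.2.1).symm_apply_apply i

theorem yv_cont {n : ℕ} (c : Cl Γ n) (v : V) : Continuous fun a => yv c a v := by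
  unfold yv
  split_ifs
  · fun_prop
  · exact continuous_const

/-- The characteristic map. -/
noncomputable def fm {n : ℕ} (c : Cl Γ n) (a : Fin n → ℝ) : Xb Γ :=
  ⟨raw c.1 (yv c a), raw_mem c.1 c.2.2.2 fun _ hv => yv_off c a hv⟩

theorem fm_cont {n : ℕ} (c : Cl Γ n) : Continuous (fm c) := by
  refine Continuous.subtype_mk (Continuous.prodMk (continuous_pi fun v => ?_) ?_) _
  · exact (AddCircle.continuous_mk' 1).comp (yv_cont c v)
  · exact continuous_const.add (continuous_finsetSum _ fun v _ => yv_cont c v)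

/-- Its inverse. -/
noncomputable def gm {n : ℕ} (c : Cl Γ n) (b : Xb Γ) (i : Fin n) : ℝ :=
  2 * rep (b.1.1 (vx c i)) - 1

theorem ball_iff {n : ℕ} {a : Fin n → ℝ} : a ∈ ball (0 : Fin n → ℝ) 1 ↔ ∀ i, |a i| < 1 := by
  rw [mem_ball_zero_iff, pi_norm_lt_iff one_pos]
  rfl

theorem cball_iff {n : ℕ} {a : Fin n → ℝ} :
    a ∈ closedBall (0 : Fin n → ℝ) 1 ↔ ∀ i, |a i| ≤ 1 := by
  rw [mem_closedBall_zero_iff, pi_norm_le_iff_of_nonneg zero_le_one]
  rfl

theorem yv_open {n : ℕ} (c : Cl Γ n) {a : Fin n → ℝ} (ha : a ∈ ball (0 : Fin n → ℝ) 1) {v : V}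
    (hv : v ∈ c.2.1) : 0 < yv c a v ∧ yv c a v < 1 := by
  obtain ⟨i, rfl⟩ := exists_vx c hv
  have := abs_lt.1 (ball_iff.1 ha i)
  rw [yv_vx]
  constructor <;> linarith [this.1, this.2]

theorem yv_closed {n : ℕ} (c : Cl Γ n) {a : Fin n → ℝ} (ha : a ∈ closedBall (0 : Fin n → ℝ) 1)
    (v : V) : 0 ≤ yv c a v ∧ yv c a v ≤ 1 := by
  by_cases hv : v ∈ c.2.1
  · obtain ⟨i, rfl⟩ := exists_vx c hv
    have := abs_le.1 (cball_iff.1 ha i)
    rw [yv_vx]
    constructor <;> linarith [this.1, this.2]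
  · rw [yv_off c a hv]
    exact ⟨le_rfl, zero_le_one⟩

theorem rep_fm {n : ℕ} (c : Cl Γ n) {a : Fin n → ℝ} (ha : a ∈ ball (0 : Fin n → ℝ) 1) (v : V) :
    rep ((fm c a).1.1 v) = yv c a v := by
  change rep (yv c a v : ℝ) = _
  by_cases hv : v ∈ c.2.1
  · exact rep_coe (yv_open c ha hv).1.le (yv_open c ha hv).2
  · rw [yv_off c a hv]
    exact rep_zero

theorem gm_fm {n : ℕ} (c : Cl Γ n) {a : Fin n → ℝ} (ha : a ∈ ball (0 : Fin n → ℝ) 1) :
    gm c (fm c a) = a := by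
  funext i
  rw [gm, rep_fm c ha, yv_vx]
  ring

/-- The characteristic map as a partial equivalence. -/
noncomputable def pe {n : ℕ} (c : Cl Γ n) : PartialEquiv (Fin n → ℝ) (Xb Γ) where
  toFun := fm c
  invFun := gm c
  source := ball 0 1
  target := fm c '' ball 0 1
  map_source' a ha := ⟨a, ha, rfl⟩
  map_target' := by
    rintro _ ⟨a, ha, rfl⟩
    rwa [gm_fm c ha]
  left_inv' a ha := gm_fm c ha
  right_inv' := by
    rintro _ ⟨a, ha, rfl⟩
    rw [gm_fm c ha]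

theorem gm_cont {n : ℕ} (c : Cl Γ n) : ContinuousOn (gm c) (fm c '' ball 0 1) := by
  rintro _ ⟨a, ha, rfl⟩
  refine ContinuousAt.continuousWithinAt (continuousAt_pi.2 fun i => ?_)
  have h := yv_open c ha (vx_mem c i)
  have h1 : ContinuousAt (fun b : Xb Γ => b.1.1 (vx c i)) (fm c a) := by fun_prop
  have h2 : ContinuousAt (fun b : Xb Γ => rep (b.1.1 (vx c i))) (fm c a) :=
    ContinuousAt.comp (f := fun b : Xb Γ => b.1.1 (vx c i)) (rep_cont (coe_ne_zero h.1 h.2)) h1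
  exact (continuousAt_const.mul h2).sub continuousAt_const

theorem mem_closed {n : ℕ} (c : Cl Γ n) {b : Xb Γ} {y : V → ℝ} (h0 : ∀ v, 0 ≤ y v ∧ y v ≤ 1)
    (h1 : ∀ v, v ∉ c.2.1 → y v = 0) (hb : b.1 = raw c.1 y) : b ∈ fm c '' closedBall 0 1 := by
  refine ⟨fun i => 2 * y (vx c i) - 1, cball_iff.2 fun i => ?_, Subtype.ext ?_⟩
  · have := h0 (vx c i)
    exact abs_le.2 ⟨by linarith [this.1], by linarith [this.2]⟩
  · rw [hb]
    change raw c.1 _ = _
    congr 1
    funext v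
    by_cases hv : v ∈ c.2.1
    · obtain ⟨i, rfl⟩ := exists_vx c hv
      rw [yv_vx]
      ring
    · rw [yv_off c _ hv, h1 v hv]

theorem disj {n n' : ℕ} (c : Cl Γ n) (c' : Cl Γ n') {a : Fin n → ℝ} {a' : Fin n' → ℝ}
    (ha : a ∈ ball (0 : Fin n → ℝ) 1) (ha' : a' ∈ ball (0 : Fin n' → ℝ) 1)
    (h : fm c a = fm c' a') : (⟨n, c⟩ : Σ n, Cl Γ n) = ⟨n', c'⟩ := by
  have hy : yv c a = yv c' a' := funext fun v => by rw [← rep_fm c ha, ← rep_fm c' ha', h]
  have hs : c.2.1 = c'.2.1 := by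
    ext v
    constructor
    · intro hv
      by_contra hv'
      have := (yv_open c ha hv).1
      rw [hy, yv_off c' a' hv'] at this
      exact lt_irrefl _ this
    · intro hv
      by_contra hv'
      have := (yv_open c' ha' hv).1
      rw [← hy, yv_off c a hv'] at this
      exact lt_irrefl _ this
  have hm : c.1 = c'.1 := by
    have h2 : (c.1 : ℝ) + ∑ v, yv c a v = (c'.1 : ℝ) + ∑ v, yv c' a' v :=
      congrArg (fun b : Xb Γ => b.1.2) h
    rw [hy] at h2
    exact_mod_cast add_right_cancel h2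
  obtain ⟨m, s, rfl, h1⟩ := c
  obtain ⟨m', s', rfl, h1'⟩ := c'
  dsimp only at hs hm
  subst hs hm
  rfl

theorem bdry {n : ℕ} (c : Cl Γ n) {a : Fin n → ℝ} (ha : a ∈ sphere (0 : Fin n → ℝ) 1) :
    ∃ k < n, ∃ c' : Cl Γ k, (c'.1 = c.1 ∨ c'.1 = c.1 + 1) ∧ fm c a ∈ fm c' '' closedBall 0 1 := by
  have hc : a ∈ closedBall (0 : Fin n → ℝ) 1 := sphere_subset_closedBall ha
  obtain ⟨i, hi⟩ : ∃ i, |a i| = 1 := by
    by_contra h
    have : a ∈ ball (0 : Fin n → ℝ) 1 :=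
      ball_iff.2 fun i => lt_of_le_of_ne (cball_iff.1 hc i) fun e => h ⟨i, e⟩
    exact (mem_ball.1 this).ne (mem_sphere.1 ha)
  have hk : (c.2.1.erase (vx c i)).card < n :=
    (Finset.card_erase_lt_of_mem (vx_mem c i)).trans_eq c.2.2.1
  have hcl : Γ.IsClique ((c.2.1.erase (vx c i) : Finset V) : Set V) :=
    c.2.2.2.subset (Finset.coe_subset.2 (Finset.erase_subset _ _))
  have h0 : ∀ v, 0 ≤ Function.update (yv c a) (vx c i) 0 v ∧
      Function.update (yv c a) (vx c i) 0 v ≤ 1 := fun v => by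
    by_cases hv : v = vx c i
    · subst hv
      simp
    · rw [Function.update_of_ne hv]
      exact yv_closed c hc v
  have h1 : ∀ v, v ∉ c.2.1.erase (vx c i) → Function.update (yv c a) (vx c i) 0 v = 0 :=
    fun v hv => by
      by_cases hv' : v = vx c i
      · subst hv'
        simp
      · rw [Function.update_of_ne hv']
        exact yv_off c a fun h => hv (Finset.mem_erase.2 ⟨hv', h⟩)
  have key : ∀ e : ℤ, yv c a (vx c i) = e →
      (fm c a).1 = raw (c.1 + e) (Function.update (yv c a) (vx c i) 0) := by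
    intro e he
    refine Prod.ext (funext fun v => ?_) ?_
    · change ((yv c a v : ℝ) : UnitAddCircle) =
        ((Function.update (yv c a) (vx c i) 0 v : ℝ) : UnitAddCircle)
      by_cases hv : v = vx c i
      · subst hv
        rw [he, coe_int, Function.update_self]
        rfl
      · rw [Function.update_of_ne hv]
    · change (c.1 : ℝ) + ∑ v, yv c a v =
        ((c.1 + e : ℤ) : ℝ) + ∑ v, Function.update (yv c a) (vx c i) 0 v
      rw [Finset.sum_update_of_mem (Finset.mem_univ _),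
        ← Finset.add_sum_erase _ _ (Finset.mem_univ (vx c i)), he, Finset.sdiff_singleton_eq_erase]
      push_cast
      ring
  rcases (abs_eq zero_le_one).1 hi with h | h
  · exact ⟨_, hk, (c.1 + 1, ⟨_, rfl, hcl⟩), Or.inr rfl,
      mem_closed _ h0 h1 (key 1 (by rw [yv_vx, h]; norm_num))⟩
  · exact ⟨_, hk, (c.1 + 0, ⟨_, rfl, hcl⟩), Or.inl (add_zero _),
      mem_closed _ h0 h1 (key 0 (by rw [yv_vx, h]; norm_num))⟩

theorem cover (b : Xb Γ) : ∃ (m : ℤ) (s : {s : Finset V // Γ.IsClique (s : Set V)}),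
    b ∈ fm (Γ := Γ) (m, ⟨s.1, rfl, s.2⟩) '' closedBall 0 1 := by
  classical
  have hcl : Γ.IsClique ((Finset.univ.filter fun v => b.1.1 v ≠ 0 : Finset V) : Set V) := by
    intro u hu v hv huv
    exact b.2.1 u v huv (by simpa using hu) (by simpa using hv)
  have h0 : ((b.1.2 - ∑ v, rep (b.1.1 v) : ℝ) : UnitAddCircle) = 0 := by
    rw [AddCircle.coe_sub, coe_sum, ← b.2.2]
    simp [coe_rep]
  obtain ⟨m, hm⟩ := (AddCircle.coe_eq_zero_iff 1).1 h0
  refine ⟨m, ⟨_, hcl⟩, mem_closed _ (y := fun v => rep (b.1.1 v))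
    (fun v => ⟨(rep_mem _).1, (rep_mem _).2.le⟩) (fun v hv => ?_) ?_⟩
  · have : b.1.1 v = 0 := by simpa using hv
    rw [this, rep_zero]
  · refine Prod.ext (funext fun v => (coe_rep _).symm) ?_
    change b.1.2 = (m : ℝ) + ∑ v, rep (b.1.1 v)
    rw [zsmul_eq_mul, mul_one] at hm
    rw [hm]
    ring

theorem height {n : ℕ} (c : Cl Γ n) {b : Xb Γ} (hb : b ∈ fm c '' closedBall 0 1) :
    (c.1 : ℝ) ≤ b.1.2 ∧ b.1.2 ≤ c.1 + 21 := by
  obtain ⟨a, ha, rfl⟩ := hb
  change (c.1 : ℝ) ≤ c.1 + ∑ v, yv c a v ∧ (c.1 : ℝ) + ∑ v, yv c a v ≤ c.1 + 21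
  have h1 : 0 ≤ ∑ v, yv c a v := Finset.sum_nonneg fun v _ => (yv_closed c ha v).1
  have h2 : ∑ v, yv c a v ≤ ∑ _v : V, (1 : ℝ) := Finset.sum_le_sum fun v _ => (yv_closed c ha v).2
  simp only [Finset.sum_const, Finset.card_univ, Fintype.card_fin, nsmul_eq_mul, mul_one,
    Nat.cast_ofNat] at h2
  constructor <;> linarith

theorem weak (B : Set (Xb Γ)) (h : ∀ n (c : Cl Γ n), IsClosed (B ∩ fm c '' closedBall 0 1)) :
    IsClosed B := by
  let f : ℤ × {s : Finset V // Γ.IsClique (s : Set V)} → Set (Xb Γ) := fun x =>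
    B ∩ fm (Γ := Γ) (x.1, ⟨x.2.1, rfl, x.2.2⟩) '' closedBall 0 1
  have hf : LocallyFinite f := by
    intro b
    refine ⟨{c | c.1.2 ∈ Ioo (b.1.2 - 1) (b.1.2 + 1)}, ?_, ?_⟩
    · refine IsOpen.mem_nhds (isOpen_Ioo.preimage (by fun_prop)) ?_
      constructor <;> simp
    · refine ((finite_Icc (⌊b.1.2⌋ - 22) (⌊b.1.2⌋ + 2)).prod finite_univ).subset ?_
      rintro x ⟨c, ⟨-, hc⟩, h1, h2⟩
      obtain ⟨h3, h4⟩ := height _ hc
      have h5 := Int.floor_le b.1.2
      have h6 := Int.lt_floor_add_one b.1.2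
      dsimp only at h3 h4
      refine ⟨⟨?_, ?_⟩, mem_univ _⟩
      · have : ((⌊b.1.2⌋ - 22 : ℤ) : ℝ) ≤ x.1 := by push_cast; linarith
        exact_mod_cast this
      · have : (x.1 : ℝ) ≤ ((⌊b.1.2⌋ + 2 : ℤ) : ℝ) := by push_cast; linarith
        exact_mod_cast this
  have e : B = ⋃ x, f x := by
    refine Subset.antisymm (fun b hb => ?_) (iUnion_subset fun x => inter_subset_left)
    obtain ⟨m, s, hs⟩ := cover b
    exact mem_iUnion.2 ⟨(m, s), hb, hs⟩
  rw [e]
  exact hf.isClosed_iUnion fun x => h _ _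

variable (Γ) in
/-- The CW structure. -/
@[reducible] noncomputable def cw : Topology.CWComplex (univ : Set (Xb Γ)) where
  cell := Cl Γ
  map _ c := pe c
  source_eq _ _ := rfl
  continuousOn _ c := (fm_cont c).continuousOn
  continuousOn_symm _ c := gm_cont c
  pairwiseDisjoint' := by
    rintro ⟨n, c⟩ - ⟨n', c'⟩ - hne
    refine Set.disjoint_left.2 ?_
    rintro _ ⟨a, ha, rfl⟩ ⟨a', ha', h⟩
    exact hne (disj c c' ha ha' h.symm)
  mapsTo' n c := by
    classical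
    refine ⟨fun k => ({c.1, c.1 + 1} : Finset ℤ) ×ˢ Finset.univ, fun a ha => ?_⟩
    obtain ⟨k, hk, c', h1, h2⟩ := bdry c ha
    simp only [mem_iUnion]
    exact ⟨k, hk, c', by simpa using h1, h2⟩
  closed' B _ h := weak B h
  union' := by
    refine eq_univ_of_forall fun b => ?_
    obtain ⟨m, s, hs⟩ := cover b
    exact mem_iUnion.2 ⟨_, mem_iUnion.2 ⟨_, hs⟩⟩

end XbCW

/-- Cells of dimension `n`: `ℤ × {s : Finset V // s.card = n ∧ Γ.IsClique s}`.  The cell `(m, s)`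
sends `a` to `(↑y, m + ∑ y)`, where `y v = (a i + 1) / 2` for the `i`-th element `v` of `s` and
`y v = 0` off `s` (clamp `a` to the cube to land in `Xb`).  Every point has a unique such form with
`0 < y < 1` on `s`.  The closed cells are compact and form a locally finite family (the height of
`(m, s)` lies in `[m, m + 21]`), which gives the weak topology.  Cliques have at most three
elements (`L.col`). -/
theorem xb_cw (L : LData) : ∃ _ : Topology.CWComplex (Set.univ : Set (Xb L.Γ)),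
    ∀ n : ℕ, 3 < n → IsEmpty (Topology.RelCWComplex.cell (Set.univ : Set (Xb L.Γ)) n) := by
  refine ⟨XbCW.cw L.Γ, fun n hn => ⟨fun c : XbCW.Cl L.Γ n => ?_⟩⟩
  obtain ⟨-, s, h1, h2⟩ := c
  have : s.card ≤ (Finset.univ : Finset (Fin 3)).card :=
    Finset.card_le_card_of_injOn L.col (fun _ _ => by simp) fun u hu v hv e => by
      by_contra hne
      exact L.col_ne u v (h2 hu hv hne) e
  simp at this
  omega

end Crest.Agent.R197
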