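import Crest.Agent.R197.Contr
import Crest.Agent.R197.Xb
import Crest.Prelude.Def_ClassifyingComplex

/-! Row 197: a three-dimensional classifying complex. -/

set_option autoImplicit false

namespace Crest.Agent.R197

section aux
open scoped _root_.Topology
variable {Γ : SimpleGraph V}

/-- Cube coordinates at the vertex `x`. -/
noncomputable def muCo (x : Raag Γ) (p : Hyp Γ → ℝ) (v : V) : ℝ :=
  (p (eh x (v, true)) - kap x (eh x (v, true))) + (p (eh x (v, false)) - kap x (eh x (v, false)))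

theorem muCo_true (x : Raag Γ) (t : V → ℝ) (v : V) :
    spt x t (eh x (v, true)) - kap x (eh x (v, true)) = max (t v) 0 := by
  have h1 : (eh x (v, true)).1 = v := rfl
  have h2 : eh x (v, true) ≠ eh x (v, false) := fun h => by simpa using eh_inj x h
  simp only [spt, h1, if_true, if_neg h2]
  ring

theorem muCo_false (x : Raag Γ) (t : V → ℝ) (v : V) :
    spt x t (eh x (v, false)) - kap x (eh x (v, false)) = min (t v) 0 := by
  have h1 : (eh x (v, false)).1 = v := rfl
  have h2 : eh x (v, false) ≠ eh x (v, true) := fun h => by simpa using eh_inj x h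
  simp only [spt, h1, if_true, if_neg h2]
  ring

theorem muCo_spt (x : Raag Γ) (t : V → ℝ) : muCo x (spt x t) = t := by
  ext v
  rw [muCo, muCo_true, muCo_false, max_add_min, add_zero]

theorem mu_eval (H : Hyp Γ) : Continuous fun p : Xt Γ => p.1 H :=
  (continuous_apply H).comp continuous_subtype_val

theorem muCo_continuous (x : Raag Γ) : Continuous fun p : Xt Γ => muCo x p.1 :=
  continuous_pi fun _ =>
    ((mu_eval _).sub continuous_const).add ((mu_eval _).sub continuous_const)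

/-- Near a point in the open star of `x` all points are in the open star. -/
theorem muCo_nhds (x : Raag Γ) (p : Xt Γ) {y : V → ℝ} (hy : ∀ v, |y v| < 1) (hp : p.1 = spt x y) :
    ∀ᶠ q : Xt Γ in 𝓝 p, Cub Γ (muCo x q.1) ∧ (∀ v, |muCo x q.1 v| < 1) ∧
      q.1 = spt x (muCo x q.1) := by
  have h : ∀ᶠ q : Xt Γ in 𝓝 p, ∀ a : Letter, |q.1 (eh x a) - kap x (eh x a)| < 1 := by
    rw [Filter.eventually_all]
    intro a
    have hc : Continuous fun q : Xt Γ => |q.1 (eh x a) - kap x (eh x a)| :=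
      ((mu_eval _).sub continuous_const).abs
    refine hc.continuousAt.eventually_lt continuousAt_const ?_
    obtain ⟨v, b⟩ := a
    have := abs_lt.mp (hy v)
    cases b
    · rw [hp, muCo_false, abs_lt]
      exact ⟨lt_min this.1 (by norm_num), min_lt_of_right_lt one_pos⟩
    · rw [hp, muCo_true, abs_lt]
      exact ⟨lt_max_of_lt_right (by norm_num), max_lt this.2 one_pos⟩
  filter_upwards [h] with q hq
  obtain ⟨t, ht, ht1, hqt⟩ := star q.2 x hq
  rw [hqt, muCo_spt]
  exact ⟨ht, ht1, rfl⟩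

theorem mu_low_abs {t : V → ℝ} (h : ∀ v, 0 ≤ t v ∧ t v < 1) (v : V) : |t v| < 1 :=
  abs_lt.mpr ⟨by linarith [(h v).1], (h v).2⟩

theorem mu_cub {b : (V → UnitAddCircle) × ℝ} (hb : b ∈ Xb Γ) {t : V → ℝ} (h1 : ∀ v, |t v| < 1)
    (h2 : ∀ v, (t v : UnitAddCircle) = b.1 v) : Cub Γ t := by
  have key : ∀ v, t v ≠ 0 → b.1 v ≠ 0 := by
    intro v hv h
    rw [← h2, AddCircle.coe_eq_zero_iff] at h
    obtain ⟨n, hn⟩ := h
    rw [zsmul_eq_mul, mul_one] at hn
    have h3 := h1 v
    rw [← hn, ← Int.cast_abs] at h3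
    have h4 : |n| < 1 := by exact_mod_cast h3
    rw [Int.abs_lt_one_iff] at h4
    exact hv (by rw [← hn, h4, Int.cast_zero])
  exact ⟨fun v => (h1 v).le, fun u v huv hu hv => hb.1 u v huv (key u hu) (key v hv)⟩

theorem mu_int {b : (V → UnitAddCircle) × ℝ} (hb : b ∈ Xb Γ) {t : V → ℝ}
    (h2 : ∀ v, (t v : UnitAddCircle) = b.1 v) : ∃ n : ℤ, (n : ℝ) + ∑ v, t v = b.2 := by
  have h : ((b.2 - ∑ v, t v : ℝ) : UnitAddCircle) = 0 := by
    rw [AddCircle.coe_sub, ← hb.2, sub_eq_zero, ← funext h2]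
    exact (map_sum (QuotientAddGroup.mk' (AddSubgroup.zmultiples (1 : ℝ))) t Finset.univ).symm
  rw [AddCircle.coe_eq_zero_iff] at h
  obtain ⟨n, hn⟩ := h
  rw [zsmul_eq_mul, mul_one] at hn
  exact ⟨n, by rw [hn]; ring⟩

theorem mu_eq_of_close {y s t : ℝ} (hs : |s - y| < 1 / 2) (ht : |t - y| < 1 / 2)
    (h : (s : UnitAddCircle) = t) : s = t := by
  rw [abs_lt] at hs ht
  exact (AddCircle.coe_eq_coe_iff_of_mem_Ico (p := (1 : ℝ)) (a := y - 1 / 2)
    ⟨by linarith, by linarith⟩ ⟨by linarith, by linarith⟩).mp h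

theorem mu_surjective (Γ : SimpleGraph V) : Function.Surjective (mu Γ) := by
  rintro ⟨b, hb⟩
  let t : V → ℝ := fun v => (AddCircle.equivIco 1 0 (b.1 v)).1
  have h1 : ∀ v, |t v| < 1 := mu_low_abs fun v => by
    simpa using (AddCircle.equivIco 1 0 (b.1 v)).2
  have h2 : ∀ v, (t v : UnitAddCircle) = b.1 v := fun v => AddCircle.coe_equivIco
  obtain ⟨n, hn⟩ := mu_int hb h2
  refine ⟨⟨spt (gen Γ 0 ^ n) t, _, t, mu_cub hb h1 h2, rfl⟩, Subtype.ext ?_⟩
  change muF (spt _ t) = b
  rw [muF_spt, map_zpow, ht, rlift_gen]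
  refine Prod.ext (funext h2) ?_
  simpa using hn

theorem mu_isOpenMap (Γ : SimpleGraph V) : IsOpenMap (mu Γ) := by
  classical
  rw [isOpenMap_iff_nhds_le]
  intro p
  obtain ⟨x, y, hy, hy1, hp⟩ := xt_low p.2
  have hb : (mu Γ p).1 = (fun v => (y v : UnitAddCircle),
      ((Multiplicative.toAdd (ht Γ x) : ℤ) : ℝ) + ∑ v, y v) := by
    change muF p.1 = _
    rw [hp, muF_spt]
  let t : Xb Γ → V → ℝ := fun b v => (AddCircle.equivIco 1 (y v - 1 / 2) (b.1.1 v)).1
  have h2 : ∀ b v, (t b v : UnitAddCircle) = b.1.1 v := fun b v => AddCircle.coe_equivIco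
  have ht0 : t (mu Γ p) = y := by
    ext v
    change (AddCircle.equivIco 1 (y v - 1 / 2) ((mu Γ p).1.1 v)).1 = _
    rw [hb]
    change (AddCircle.equivIco 1 (y v - 1 / 2) (y v : UnitAddCircle)).1 = _
    rw [AddCircle.equivIco_coe_eq ⟨by linarith, by linarith⟩]
  have htc : ContinuousAt t (mu Γ p) := by
    refine continuousAt_pi.mpr fun v => continuousAt_subtype_val.comp ?_
    refine ContinuousAt.comp (f := fun b : Xb Γ => b.1.1 v) ?_ (by fun_prop)
    refine AddCircle.continuousAt_equivIco 1 _ ?_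
    rw [hb]
    intro h
    have := (AddCircle.coe_eq_coe_iff_of_mem_Ico (p := (1 : ℝ)) (a := y v - 1 / 2)
      ⟨by linarith, by linarith⟩ ⟨by linarith, by linarith⟩).mp h
    linarith
  have h1 : ∀ᶠ b in 𝓝 (mu Γ p), ∀ v, |t b v| < 1 := by
    rw [Filter.eventually_all]
    intro v
    refine (continuousAt_pi.mp htc v).abs.eventually_lt continuousAt_const ?_
    rw [ht0]
    exact mu_low_abs hy1 v
  have h3 : ∀ᶠ b : Xb Γ in 𝓝 (mu Γ p),
      |b.1.2 - ∑ v, t b v - ((Multiplicative.toAdd (ht Γ x) : ℤ) : ℝ)| < 1 := by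
    have hc : ContinuousAt (fun b : Xb Γ =>
        |b.1.2 - ∑ v, t b v - ((Multiplicative.toAdd (ht Γ x) : ℤ) : ℝ)|) (mu Γ p) := by
      have : ContinuousAt (fun b => ∑ v, t b v) (mu Γ p) :=
        tendsto_finsetSum _ fun v _ => continuousAt_pi.mp htc v
      fun_prop
    refine hc.eventually_lt continuousAt_const ?_
    rw [ht0, hb]
    simp
  let s : Xb Γ → Xt Γ := fun b => if h : Cub Γ (t b) then ⟨spt x (t b), x, _, h, rfl⟩ else p
  have hs : ∀ᶠ b in 𝓝 (mu Γ p), (s b).1 = spt x (t b) := by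
    filter_upwards [h1] with b hb
    simp only [s, dif_pos (mu_cub b.2 hb (h2 b))]
  have hs0 : s (mu Γ p) = p := Subtype.ext (by rw [hs.self_of_nhds, ht0, hp])
  have hsc : ContinuousAt s (mu Γ p) := by
    rw [Topology.IsInducing.subtypeVal.continuousAt_iff]
    exact ((spt_continuous x).continuousAt.comp htc).congr (hs.mono fun b hb => hb.symm)
  have hms : (fun b => mu Γ (s b)) =ᶠ[𝓝 (mu Γ p)] id := by
    filter_upwards [hs, h3] with b hb hb3
    refine Subtype.ext ?_
    change muF (s b).1 = b.1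
    rw [hb, muF_spt]
    refine Prod.ext (funext (h2 b)) ?_
    obtain ⟨n, hn⟩ := mu_int b.2 (h2 b)
    rw [← hn, add_sub_cancel_right, ← Int.cast_sub, ← Int.cast_abs] at hb3
    have h4 : |n - Multiplicative.toAdd (ht Γ x)| < 1 := by exact_mod_cast hb3
    rw [Int.abs_lt_one_iff, sub_eq_zero] at h4
    rw [← hn, h4]
  calc 𝓝 (mu Γ p) = Filter.map (fun b => mu Γ (s b)) (𝓝 (mu Γ p)) := by
        rw [Filter.map_congr hms, Filter.map_id]
    _ = Filter.map (mu Γ) (Filter.map s (𝓝 (mu Γ p))) := rfl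
    _ ≤ Filter.map (mu Γ) (𝓝 p) := Filter.map_mono (by
        have := hsc.tendsto
        rwa [hs0] at this)

end aux

/-- On the open star of `x` (finitely many open conditions, `star`, `xt_low`) all coordinates but
the finitely many `eh x a` are constant. -/
theorem mu_continuous (Γ : SimpleGraph V) : Continuous (mu Γ) := by
  refine continuous_induced_rng.mpr (continuous_iff_continuousAt.mpr fun p => ?_)
  obtain ⟨x, y, hy, hy1, hp⟩ := xt_low p.2
  have hc := muCo_continuous x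
  have h : Continuous fun q : Xt Γ => ((fun v => (muCo x q.1 v : UnitAddCircle),
      ((Multiplicative.toAdd (ht Γ x) : ℤ) : ℝ) + ∑ v, muCo x q.1 v) :
        (V → UnitAddCircle) × ℝ) := by
    refine Continuous.prodMk (continuous_pi fun v => ?_) (by fun_prop)
    exact (AddCircle.continuous_mk' 1).comp ((continuous_apply v).comp hc)
  refine h.continuousAt.congr ?_
  filter_upwards [muCo_nhds x p (mu_low_abs hy1) hp] with q hq
  change _ = muF q.1
  conv_rhs => rw [hq.2.2, muF_spt]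

/-- Quotient map: near `(z₀, h₀)` lift `z v` continuously to `(0,1)` if `z₀ v ≠ 0` and to
`(-1/2, 1/2)` otherwise; `h - ∑ t` is a locally constant integer `n`; `b ↦ spt x (t b)` with
`ht x = n` is a continuous local section.  Orbits: `xt_low`, `muF_spt`.  Disjointness: for
`p = spt x y` (`xt_low`) take the points `spt x t` with `t v ∈ (0,1)` if `y v ≠ 0` and
`|t v| < 1/2` otherwise (open by `star`); the circle coordinates are invariant, then `spt_inj`. -/
theorem mu_cover (Γ : SimpleGraph V) : IsQuotientCoveringMap (mu Γ) (BBG Γ) := by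
  have hsm : ∀ (g : BBG Γ) (p : Xt Γ), ((g • p : Xt Γ) : Hyp Γ → ℝ) = actF g.1 p.1 :=
    fun _ _ => rfl
  refine { (mu_isOpenMap Γ).isQuotientMap (mu_continuous Γ) (mu_surjective Γ) with
    continuous_const_smul := fun g => ?_
    apply_eq_iff_mem_orbit := fun {p q} => ⟨fun h => ?_, ?_⟩
    disjoint := fun p => ?_ }
  · refine continuous_induced_rng.mpr ?_
    change Continuous fun p : Xt Γ => actF g.1 p.1
    exact continuous_pi fun _ => continuous_const.add (mu_eval _)
  · obtain ⟨x, t, -, ht1, hp⟩ := xt_low p.2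
    obtain ⟨x', t', -, ht1', hq⟩ := xt_low q.2
    have h1 : muF p.1 = muF q.1 := congrArg Subtype.val h
    rw [hp, hq, muF_spt, muF_spt, Prod.mk.injEq] at h1
    obtain rfl : t = t' := funext fun v =>
      (AddCircle.coe_eq_coe_iff_of_mem_Ico (p := (1 : ℝ)) (a := 0)
        (by simpa using ht1 v) (by simpa using ht1' v)).mp (congrFun h1.1 v)
    have h2 : ht Γ x = ht Γ x' :=
      Multiplicative.toAdd.injective (by exact_mod_cast add_right_cancel h1.2)
    refine ⟨⟨x * x'⁻¹, ?_⟩, Subtype.ext ?_⟩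
    · change ht Γ (x * x'⁻¹) = 1
      rw [map_mul, map_inv, h2, mul_inv_cancel]
    · change actF (x * x'⁻¹) q.1 = p.1
      rw [hp, hq, actF_spt, inv_mul_cancel_right]
  · rintro ⟨g, rfl⟩
    obtain ⟨x, t, -, hq⟩ := q.2
    refine Subtype.ext ?_
    change muF (actF g.1 q.1) = muF q.1
    rw [hq, actF_spt, muF_spt, muF_spt, map_mul, show ht Γ g.1 = 1 from g.2, one_mul]
  · obtain ⟨x, y, -, hy1, hp⟩ := xt_low p.2
    have h1 : ∀ᶠ q : Xt Γ in nhds p, ∀ v, |muCo x q.1 v - y v| < 1 / 2 := by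
      rw [Filter.eventually_all]
      intro v
      have hc := muCo_continuous x
      have hc' : Continuous fun q : Xt Γ => |muCo x q.1 v - y v| := by fun_prop
      refine hc'.continuousAt.eventually_lt continuousAt_const ?_
      rw [hp, muCo_spt]
      simp
    refine ⟨_, h1.and (muCo_nhds x p (mu_low_abs hy1) hp), ?_⟩
    rintro g ⟨_, ⟨q, ⟨hq1, hq2, hq3, hq4⟩, rfl⟩, hr1, -, -, hr4⟩
    have h2 : spt (g.1 * x) (muCo x q.1) = spt x (muCo x (g • q : Xt Γ).1) := by
      rw [← hr4, hsm, ← actF_spt, ← hq4]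
    have h3 := congrArg (fun p => (muF p).1) h2
    simp only [muF_spt] at h3
    have h4 : muCo x q.1 = muCo x (g • q : Xt Γ).1 :=
      funext fun v => mu_eq_of_close (hq1 v) (hr1 v) (congrFun h3 v)
    rw [← h4] at h2
    exact Subtype.ext (mul_eq_right.mp (spt_inj hq2 hq3 h2))

theorem bbg_dim3 (L : LData) : Crest.Topology.HasClassifyingComplex (BBG L.Γ) 3 := by
  obtain ⟨cw, h⟩ := xb_cw L
  have hc := mu_cover L.Γ
  have := xt_contractible L.Γ
  obtain ⟨e⟩ : Nonempty (Xt L.Γ) := inferInstance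
  exact ⟨Xb L.Γ, inferInstance, cw, inferInstance, h,
    ⟨Xt L.Γ, inferInstance, mu L.Γ, inferInstance, hc.isCoveringMap, hc.surjective⟩, mu L.Γ e,
    ⟨(hc.fundamentalGroupEquiv ⟨e, rfl⟩).trans (MulEquiv.inv' (BBG L.Γ)).symm⟩⟩

end Crest.Agent.R197
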