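import Crest.Agent.R197.Cov

/-! Row 197: two-dimensional cell structures in polar coordinates. -/

set_option autoImplicit false

namespace Crest.Agent.R197

open scoped Topology unitInterval

/-- A two-dimensional cell structure; faces in polar coordinates `(angle, radius)`. -/
structure Cx (X : Type) [TopologicalSpace X] where
  V : Type
  S : Type
  R : Type
  vx : V → X
  ed : S → C(I, X)
  fc : R → C(I × I, X)
  src : S → V
  tgt : S → V
  ed0 : ∀ e, ed e 0 = vx (src e)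
  ed1 : ∀ e, ed e 1 = vx (tgt e)
  vx_inj : Function.Injective vx
  ed_ne : ∀ e s v, s ≠ 0 → s ≠ 1 → ed e s ≠ vx v
  ed_inj : ∀ e s e' s', s ≠ 0 → s ≠ 1 → ed e s = ed e' s' → e = e' ∧ s = s'
  fc_zero : ∀ c s, fc c (s, 0) = fc c (0, 0)
  fc_per : ∀ c r, fc c (0, r) = fc c (1, r)
  fc_fin : ∀ c, ∃ (A : Finset V) (B : Finset S), ∀ s,
    (∃ v ∈ A, fc c (s, 1) = vx v) ∨ ∃ e ∈ B, ∃ t, fc c (s, 1) = ed e t
  fc_ne : ∀ c s r, r ≠ 1 → (∀ v, fc c (s, r) ≠ vx v) ∧ ∀ e t, fc c (s, r) ≠ ed e t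
  fc_inj : ∀ c s r c' s' r', r ≠ 1 → fc c (s, r) = fc c' (s', r') →
    c = c' ∧ r = r' ∧ (r = 0 ∨ s = s' ∨ (s = 0 ∧ s' = 1) ∨ (s = 1 ∧ s' = 0))
  cover : ∀ x, (∃ v, x = vx v) ∨ (∃ e t, x = ed e t) ∨ ∃ c z, x = fc c z
  weak : ∀ A : Set X, (∀ e, IsClosed (ed e ⁻¹' A)) → (∀ c, IsClosed (fc c ⁻¹' A)) → IsClosed A

/-- A free equivariant two-dimensional cell structure; the cells are the translates of the
listed ones. -/
structure GCx (G : Type) [Group G] (E : Type) [TopologicalSpace E] [MulAction G E] where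
  V : Type
  S : Type
  R : Type
  vx : V → E
  ed : S → C(I, E)
  fc : R → C(I × I, E)
  src : S → V
  tgt : S → V
  lab : S → G
  ed0 : ∀ e, ed e 0 = vx (src e)
  ed1 : ∀ e, ed e 1 = lab e • vx (tgt e)
  free : ∀ (g : G) (y : E), g • y = y → g = 1
  vx_inj : ∀ (g : G) v v', vx v = g • vx v' → v = v'
  ed_ne : ∀ e s (g : G) v, s ≠ 0 → s ≠ 1 → ed e s ≠ g • vx v
  ed_inj : ∀ e s (g : G) e' s', s ≠ 0 → s ≠ 1 → ed e s = g • ed e' s' → e = e' ∧ s = s'
  fc_zero : ∀ c s, fc c (s, 0) = fc c (0, 0)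
  fc_per : ∀ c r, fc c (0, r) = fc c (1, r)
  fc_fin : ∀ c, ∃ (A : Finset (G × V)) (B : Finset (G × S)), ∀ s,
    (∃ v ∈ A, fc c (s, 1) = v.1 • vx v.2) ∨ ∃ e ∈ B, ∃ t, fc c (s, 1) = e.1 • ed e.2 t
  fc_ne : ∀ c s r (g : G), r ≠ 1 →
    (∀ v, fc c (s, r) ≠ g • vx v) ∧ ∀ e t, fc c (s, r) ≠ g • ed e t
  fc_inj : ∀ c s r (g : G) c' s' r', r ≠ 1 → fc c (s, r) = g • fc c' (s', r') →
    c = c' ∧ r = r' ∧ (r = 0 ∨ s = s' ∨ (s = 0 ∧ s' = 1) ∨ (s = 1 ∧ s' = 0))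
  cover : ∀ y, (∃ (g : G) (v : V), y = g • vx v) ∨ (∃ (g : G) (e : S) (t : I), y = g • ed e t) ∨
    ∃ (g : G) (c : R) (z : I × I), y = g • fc c z
  weak : ∀ A : Set E, (∀ (g : G) e, IsClosed {t | g • ed e t ∈ A}) →
    (∀ (g : G) c, IsClosed {z | g • fc c z ∈ A}) → IsClosed A

namespace GCx
variable {G E : Type} [Group G] [TopologicalSpace E] [MulAction G E] (C : GCx G E)

/-- The 1-skeleton. -/
def sk1 : Set E :=
  {y | (∃ (g : G) (v : C.V), y = g • C.vx v) ∨ ∃ (g : G) (e : C.S) (t : I), y = g • C.ed e t}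

/-- Open half-stars of vertices, and open edges. -/
def U : (G × C.V) ⊕ (G × C.S) → Set E
  | .inl p => {y | y = p.1 • C.vx p.2 ∨
      (∃ (e : C.S) (t : I), C.src e = p.2 ∧ (t : ℝ) < 1 / 2 ∧ y = p.1 • C.ed e t) ∨
      ∃ (e : C.S) (t : I), C.tgt e = p.2 ∧ 1 / 2 < (t : ℝ) ∧ y = (p.1 * (C.lab e)⁻¹) • C.ed e t}
  | .inr p => {y | ∃ t : I, t ≠ 0 ∧ t ≠ 1 ∧ y = p.1 • C.ed p.2 t}

open Classical in
/-- Local trivialisations of the tautological bundle with fibre the free group on the edges. -/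
noncomputable def k : (G × C.V) ⊕ (G × C.S) → E → FreeGroup C.S
  | .inl _, _ => 1
  | .inr p, y => if ∃ t : I, 1 / 2 < (t : ℝ) ∧ t ≠ 1 ∧ y = p.1 • C.ed p.2 t
      then (FreeGroup.of p.2)⁻¹ else 1

/-- The map from words to the group. -/
def π : FreeGroup C.S →* G := FreeGroup.lift C.lab

/-- `γ` runs in the 1-skeleton and `F t` is the edge word read up to time `t`. -/
def Fr (γ : C(I, E)) (F : I → FreeGroup C.S) : Prop :=
  (∀ t, γ t ∈ C.sk1) ∧ F 0 = 1 ∧ Frame (fun i => γ ⁻¹' C.U i) (fun i t => C.k i (γ t)) F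

open Classical in
/-- The group coordinate of the nearest vertex (the source for midpoints). -/
noncomputable def pos (y : E) : G :=
  if h : ∃ p : G × C.V, y ∈ C.U (.inl p) then h.choose.1
  else if h : ∃ p : G × C.S, y ∈ C.U (.inr p) then h.choose.1 else 1

/-- Translate of a path. -/
def sm [ContinuousConstSMul G E] (g : G) (γ : C(I, E)) : C(I, E) :=
  ⟨fun t => g • γ t, γ.continuous.const_smul g⟩

/-- The boundary loop of a face. -/
def bd (c : C.R) : C(I, E) := ⟨fun s => C.fc c (s, 1), by fun_prop⟩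

end GCx

end Crest.Agent.R197
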