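import Crest.Agent.R197.Cx

/-! Row 197: a CW complex of dimension at most two has such a cell structure. -/

set_option autoImplicit false

namespace Crest.Agent.R197

open scoped unitInterval
open Set Metric

theorem cx_polar : ∃ b : I → (Fin 2 → ℝ), Continuous b ∧ (∀ s, ‖b s‖ = 1) ∧ b 0 = b 1 ∧
    (∀ s s', b s = b s' → s = s' ∨ (s = 0 ∧ s' = 1) ∨ (s = 1 ∧ s' = 0)) ∧
    ∀ y, ‖y‖ = 1 → ∃ s, b s = y := by
  let c : ℝ → Fin 2 → ℝ := fun x => ![Real.cos x, Real.sin x]
  have hc : Continuous c := by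
    refine continuous_pi fun i => ?_
    fin_cases i
    · exact Real.continuous_cos
    · exact Real.continuous_sin
  have hne : ∀ x, c x ≠ 0 := fun x h => by
    have h0 : Real.cos x = 0 := congrFun h 0
    have h1 : Real.sin x = 0 := congrFun h 1
    have := Real.cos_sq_add_sin_sq x
    rw [h0, h1] at this; norm_num at this
  have hpi := Real.pi_pos
  refine ⟨fun s => ‖c (2 * Real.pi * s)‖⁻¹ • c (2 * Real.pi * s), ?_, ?_, ?_, ?_, ?_⟩
  · have : Continuous fun s : I => c (2 * Real.pi * s) := hc.comp (by fun_prop)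
    exact (this.norm.inv₀ fun s => norm_ne_zero_iff.2 (hne _)).smul this
  · intro s
    rw [norm_smul, norm_inv, norm_norm, inv_mul_cancel₀ (norm_ne_zero_iff.2 (hne _))]
  · have : c (2 * Real.pi * ((0 : I) : ℝ)) = c (2 * Real.pi * ((1 : I) : ℝ)) := by simp [c]
    simp only [this]
  · intro s s' h
    set x := 2 * Real.pi * (s : ℝ) with hx
    set y := 2 * Real.pi * (s' : ℝ) with hy
    have h0 : ‖c x‖⁻¹ * Real.cos x = ‖c y‖⁻¹ * Real.cos y := congrFun h 0
    have h1 : ‖c x‖⁻¹ * Real.sin x = ‖c y‖⁻¹ * Real.sin y := congrFun h 1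
    have px : 0 < ‖c x‖⁻¹ := inv_pos.2 (norm_pos_iff.2 (hne _))
    have py : 0 < ‖c y‖⁻¹ := inv_pos.2 (norm_pos_iff.2 (hne _))
    generalize ‖c x‖⁻¹ = u at h0 h1 px
    generalize ‖c y‖⁻¹ = v at h0 h1 py
    have huv : u = v := by
      have e : u ^ 2 = v ^ 2 := by
        calc u ^ 2 = (u * Real.cos x) ^ 2 + (u * Real.sin x) ^ 2 := by
              rw [mul_pow, mul_pow, ← mul_add, Real.cos_sq_add_sin_sq, mul_one]
          _ = v ^ 2 := by rw [h0, h1, mul_pow, mul_pow, ← mul_add, Real.cos_sq_add_sin_sq, mul_one]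
      exact (pow_left_inj₀ px.le py.le two_ne_zero).1 e
    subst huv
    have e0 := mul_left_cancel₀ px.ne' h0
    have e1 := mul_left_cancel₀ px.ne' h1
    obtain ⟨k, hk⟩ := Real.Angle.angle_eq_iff_two_pi_dvd_sub.1
      (Real.Angle.cos_sin_inj e0 e1)
    have hk' : (s : ℝ) - s' = k := by
      have : 2 * Real.pi * ((s : ℝ) - s') = 2 * Real.pi * k := by rw [← hk, hx, hy]; ring
      exact mul_left_cancel₀ (by positivity) this
    have a1 := s.2.1; have a2 := s.2.2; have a3 := s'.2.1; have a4 := s'.2.2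
    have k1 : (-1 : ℝ) ≤ k := by linarith
    have k2 : (k : ℝ) ≤ 1 := by linarith
    have k1' : -1 ≤ k := by exact_mod_cast k1
    have k2' : k ≤ 1 := by exact_mod_cast k2
    interval_cases k
    · push_cast at hk'
      exact Or.inr (Or.inl ⟨Subtype.ext (by change _ = (0 : ℝ); linarith),
        Subtype.ext (by change _ = (1 : ℝ); linarith)⟩)
    · push_cast at hk'
      exact Or.inl (Subtype.ext (by linarith))
    · push_cast at hk'
      exact Or.inr (Or.inr ⟨Subtype.ext (by change _ = (1 : ℝ); linarith),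
        Subtype.ext (by change _ = (0 : ℝ); linarith)⟩)
  · intro y hy
    let z : ℂ := ⟨y 0, y 1⟩
    have hz : z ≠ 0 := fun h => by
      have : y = 0 := by
        funext i; fin_cases i
        · exact congrArg Complex.re h
        · exact congrArg Complex.im h
      simp [this] at hy
    have hzn : 0 < ‖z‖ := norm_pos_iff.2 hz
    have key : ∀ x, Real.cos x = Real.cos z.arg → Real.sin x = Real.sin z.arg →
        ‖c x‖⁻¹ • c x = y := by
      intro x h0 h1
      have : c x = ‖z‖⁻¹ • y := by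
        funext i; fin_cases i
        · simp [c, h0, Complex.cos_arg hz, z, div_eq_inv_mul]
        · simp [c, h1, Complex.sin_arg, z, div_eq_inv_mul]
      rw [this, norm_smul, hy, smul_smul]
      simp [hzn.ne']
    have b1 := Complex.neg_pi_lt_arg z
    have b2 := Complex.arg_le_pi z
    by_cases h : 0 ≤ z.arg
    · refine ⟨⟨z.arg / (2 * Real.pi), by positivity, by rw [div_le_one (by positivity)]; linarith⟩,
        ?_⟩
      have : 2 * Real.pi * (z.arg / (2 * Real.pi)) = z.arg := by field_simp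
      simp only [this]
      exact key _ rfl rfl
    · refine ⟨⟨(z.arg + 2 * Real.pi) / (2 * Real.pi), div_nonneg (by linarith) (by positivity),
        by rw [div_le_one (by positivity)]; linarith⟩, ?_⟩
      have : 2 * Real.pi * ((z.arg + 2 * Real.pi) / (2 * Real.pi)) = z.arg + 2 * Real.pi := by
        field_simp
      simp only [this]
      exact key _ (Real.cos_add_two_pi _) (Real.sin_add_two_pi _)

theorem cx_closed {X D : Type} [TopologicalSpace X] [T2Space X] [TopologicalSpace D]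
    [CompactSpace D] (f : C(D, X)) {A : Set X} (h : IsClosed (f ⁻¹' A)) :
    IsClosed (A ∩ range f) := by
  rw [inter_comm, ← image_preimage_eq_range_inter]
  exact (h.isCompact.image f.continuous).isClosed

open _root_.Topology _root_.Topology.RelCWComplex in
/-- `vx v = map 0 v 0`, `ed e t = map 1 e (fun _ => 2 t - 1)`, `fc c (s, r) = map 2 c (r • b s)`
with `b s = (cos 2πs, sin 2πs) / max |cos 2πs| |sin 2πs|` on the unit sphere of the sup norm.
For `weak`: `A ∩ closedCell` is the image of a compact set. -/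
theorem exists_cx (X : Type) [TopologicalSpace X] [T2Space X]
    [Topology.CWComplex (Set.univ : Set X)]
    (h : ∀ n : ℕ, 2 < n → IsEmpty (Topology.RelCWComplex.cell (Set.univ : Set X) n)) :
    Nonempty (Cx X) := by
  obtain ⟨b, hb, hb1, hb01, hbi, hbs⟩ := cx_polar
  let l : I → Fin 1 → ℝ := fun t _ => 2 * t - 1
  have hl : Continuous l := by fun_prop
  have ln : ∀ t, ‖l t‖ = |2 * (t : ℝ) - 1| := fun t => by simp [l, Pi.norm_def]
  have lc : ∀ t, l t ∈ closedBall (0 : Fin 1 → ℝ) 1 := fun t => by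
    rw [mem_closedBall_zero_iff, ln, abs_le]; constructor <;> linarith [t.2.1, t.2.2]
  have lb : ∀ t, t ≠ 0 → t ≠ 1 → l t ∈ ball (0 : Fin 1 → ℝ) 1 := fun t h0 h1 => by
    have a0 : 0 < (t : ℝ) := unitInterval.pos_iff_ne_zero.2 h0
    have a1 : (t : ℝ) < 1 := unitInterval.lt_one_iff_ne_one.2 h1
    rw [mem_ball_zero_iff, ln, abs_lt]; constructor <;> linarith
  have ls : ∀ a ∈ closedBall (0 : Fin 1 → ℝ) 1, ∃ t, l t = a := fun a ha => by
    have : |a 0| ≤ 1 := (norm_le_pi_norm a 0).trans (mem_closedBall_zero_iff.1 ha)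
    rw [abs_le] at this
    refine ⟨⟨(a 0 + 1) / 2, by linarith, by linarith⟩, funext fun i => ?_⟩
    rw [Subsingleton.elim i 0]; simp only [l]; ring
  let P : I × I → Fin 2 → ℝ := fun z => (z.2 : ℝ) • b z.1
  have hP : Continuous P := by fun_prop
  have Pn : ∀ z, ‖P z‖ = z.2 := fun z => by
    simp only [P, norm_smul, hb1, mul_one, Real.norm_eq_abs, abs_of_nonneg z.2.2.1]
  have Pc : ∀ z, P z ∈ closedBall (0 : Fin 2 → ℝ) 1 := fun z => by
    rw [mem_closedBall_zero_iff, Pn]; exact z.2.2.2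
  have Pb : ∀ s r, r ≠ 1 → P (s, r) ∈ ball (0 : Fin 2 → ℝ) 1 := fun s r h1 => by
    rw [mem_ball_zero_iff, Pn]; exact unitInterval.lt_one_iff_ne_one.2 h1
  have Ps : ∀ a ∈ closedBall (0 : Fin 2 → ℝ) 1, ∃ z, P z = a := fun a ha => by
    by_cases h0 : a = 0
    · exact ⟨(0, 0), by simp [P, h0]⟩
    have hn : ‖a‖ ≠ 0 := norm_ne_zero_iff.2 h0
    obtain ⟨s, hs⟩ := hbs (‖a‖⁻¹ • a) (by rw [norm_smul, norm_inv, norm_norm, inv_mul_cancel₀ hn])
    exact ⟨(s, ⟨‖a‖, norm_nonneg _, mem_closedBall_zero_iff.1 ha⟩), by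
      simp only [P, hs, smul_smul, mul_inv_cancel₀ hn, one_smul]⟩
  let vx : cell (univ : Set X) 0 → X := fun v => map 0 v ![]
  let ed : cell (univ : Set X) 1 → C(I, X) := fun e =>
    ⟨fun t => map 1 e (l t), (continuousOn 1 e).comp_continuous hl lc⟩
  let fc : cell (univ : Set X) 2 → C(I × I, X) := fun c =>
    ⟨fun z => map 2 c (P z), (continuousOn 2 c).comp_continuous hP Pc⟩
  have r1 : ∀ e, range (ed e) = closedCell 1 e := fun e => by
    ext x; constructor
    · rintro ⟨t, rfl⟩; exact ⟨_, lc t, rfl⟩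
    · rintro ⟨a, ha, rfl⟩; obtain ⟨t, rfl⟩ := ls a ha; exact ⟨t, rfl⟩
  have r2 : ∀ c, range (fc c) = closedCell 2 c := fun c => by
    ext x; constructor
    · rintro ⟨t, rfl⟩; exact ⟨_, Pc t, rfl⟩
    · rintro ⟨a, ha, rfl⟩; obtain ⟨t, rfl⟩ := Ps a ha; exact ⟨t, rfl⟩
  have vo : ∀ v, vx v ∈ openCell 0 v := fun v => by simp [openCell_zero_eq_singleton, vx]
  have ends : ∀ e t, (t = 0 ∨ t = 1) → ∃ v, ed e t = vx v := fun e t ht => by
    obtain ⟨u, v, huv⟩ := CWComplex.exists_cellFrontier_one_eq e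
    have : ed e t ∈ cellFrontier 1 e := ⟨l t, by
      rw [mem_sphere_zero_iff_norm, ln]
      rcases ht with rfl | rfl <;> norm_num, rfl⟩
    rw [huv, closedCell_zero_eq_singleton, closedCell_zero_eq_singleton] at this
    rcases this with h | h
    · exact ⟨u, h⟩
    · exact ⟨v, h⟩
  choose src hsrc using fun e => ends e 0 (Or.inl rfl)
  choose tgt htgt using fun e => ends e 1 (Or.inr rfl)
  have eqo : ∀ {n m : ℕ} {i : cell (univ : Set X) n} {j : cell (univ : Set X) m} {x : X},
      x ∈ openCell n i → x ∈ openCell m j → (⟨n, i⟩ : Σ n, cell (univ : Set X) n) = ⟨m, j⟩ :=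
    fun hi hj => eq_of_not_disjoint_openCell (not_disjoint_iff.2 ⟨_, hi, hj⟩)
  have eo : ∀ e t, t ≠ 0 → t ≠ 1 → ed e t ∈ openCell 1 e := fun e t h0 h1 => ⟨_, lb t h0 h1, rfl⟩
  have fo : ∀ c s r, r ≠ 1 → fc c (s, r) ∈ openCell 2 c := fun c s r h1 => ⟨_, Pb s r h1, rfl⟩
  have ed_ne : ∀ e s v, s ≠ 0 → s ≠ 1 → ed e s ≠ vx v := fun e s v h0 h1 h => by
    have := congrArg Sigma.fst (eqo (eo e s h0 h1) (h ▸ vo v))
    simp at this
  have fne : ∀ c s r, r ≠ 1 → (∀ v, fc c (s, r) ≠ vx v) ∧ ∀ e t, fc c (s, r) ≠ ed e t := by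
    intro c s r h1
    have hv : ∀ v, fc c (s, r) ≠ vx v := fun v h => by
      have := congrArg Sigma.fst (eqo (fo c s r h1) (h ▸ vo v))
      simp at this
    refine ⟨hv, fun e t h => ?_⟩
    by_cases ht : t = 0 ∨ t = 1
    · obtain ⟨v, hv'⟩ := ends e t ht
      exact hv v (h.trans hv')
    · push Not at ht
      have := congrArg Sigma.fst (eqo (fo c s r h1) (h ▸ eo e t ht.1 ht.2))
      simp at this
  have ffin : ∀ c, ∃ (A : Finset (cell (univ : Set X) 0)) (B : Finset (cell (univ : Set X) 1)),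
      ∀ s, (∃ v ∈ A, fc c (s, 1) = vx v) ∨ ∃ e ∈ B, ∃ t, fc c (s, 1) = ed e t := by
    intro c
    obtain ⟨J, hJ⟩ := CWComplex.cellFrontier_subset_finite_closedCell 2 c
    refine ⟨J 0, J 1, fun s => ?_⟩
    have : fc c (s, 1) ∈ cellFrontier 2 c := ⟨P (s, 1), by
      rw [mem_sphere_zero_iff_norm, Pn]; rfl, rfl⟩
    have := hJ this
    simp only [mem_iUnion, exists_prop] at this
    obtain ⟨m, hm, j, hj, hx⟩ := this
    interval_cases m
    · rw [closedCell_zero_eq_singleton] at hx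
      exact Or.inl ⟨j, hj, hx⟩
    · rw [← r1] at hx
      obtain ⟨t, ht⟩ := hx
      exact Or.inr ⟨j, hj, t, ht.symm⟩
  refine ⟨⟨cell (univ : Set X) 0, cell (univ : Set X) 1, cell (univ : Set X) 2, vx, ed, fc, src,
    tgt, hsrc, htgt, injective_map_zero _, ed_ne, ?_, ?_, ?_, ffin, fne, ?_, ?_, ?_⟩⟩
  · intro e s e' s' h0 h1 h
    have h0' : s' ≠ 0 := by rintro rfl; exact ed_ne e s _ h0 h1 (h.trans (hsrc e'))
    have h1' : s' ≠ 1 := by rintro rfl; exact ed_ne e s _ h0 h1 (h.trans (htgt e'))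
    obtain rfl : e = e' := eq_of_heq (Sigma.mk.inj (eqo (eo e s h0 h1) (h ▸ eo e' s' h0' h1'))).2
    have := (map 1 e).injOn (by rw [source_eq]; exact lb s h0 h1)
      (by rw [source_eq]; exact lb s' h0' h1') h
    have := congrFun this 0
    exact ⟨rfl, Subtype.ext (by simp only [l] at this; linarith)⟩
  · intro c s
    simp [fc, P]
  · intro c r
    simp [fc, P, hb01]
  · intro c s r c' s' r' h1 h
    have h1' : r' ≠ 1 := by
      rintro rfl
      obtain ⟨A, B, hAB⟩ := ffin c'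
      rcases hAB s' with ⟨v, -, hv⟩ | ⟨e, -, t, ht⟩
      · exact (fne c s r h1).1 v (h.trans hv)
      · exact (fne c s r h1).2 e t (h.trans ht)
    obtain rfl : c = c' := eq_of_heq (Sigma.mk.inj (eqo (fo c s r h1) (h ▸ fo c' s' r' h1'))).2
    have e := (map 2 c).injOn (by rw [source_eq]; exact Pb s r h1)
      (by rw [source_eq]; exact Pb s' r' h1') h
    obtain rfl : r = r' := Subtype.ext (by rw [← Pn (s, r), e, Pn])
    refine ⟨rfl, rfl, ?_⟩
    by_cases h0 : r = 0
    · exact Or.inl h0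
    · exact Or.inr (hbi s s' (smul_right_injective _ (fun h => h0 (Subtype.ext h)) e))
  · intro x
    have : x ∈ ⋃ (n : ℕ) (j : cell (univ : Set X) n), closedCell n j := by
      rw [CWComplex.union]; trivial
    simp only [mem_iUnion] at this
    obtain ⟨n, j, hx⟩ := this
    rcases lt_or_ge 2 n with hn | hn
    · exact ((h n hn).false j).elim
    interval_cases n
    · rw [closedCell_zero_eq_singleton] at hx
      exact Or.inl ⟨j, hx⟩
    · rw [← r1] at hx
      obtain ⟨t, ht⟩ := hx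
      exact Or.inr (Or.inl ⟨j, t, ht.symm⟩)
    · rw [← r2] at hx
      obtain ⟨t, ht⟩ := hx
      exact Or.inr (Or.inr ⟨j, t, ht.symm⟩)
  · intro A h1 h2
    refine (CWComplex.closed univ A (subset_univ _)).2 fun n j => ?_
    rcases lt_or_ge 2 n with hn | hn
    · exact ((h n hn).false j).elim
    interval_cases n
    · rw [closedCell_zero_eq_singleton]
      exact ((finite_singleton _).inter_of_right _).isClosed
    · rw [← r1]; exact cx_closed _ (h1 j)
    · rw [← r2]; exact cx_closed _ (h2 j)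

end Crest.Agent.R197
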