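import Crest.Agent.R197.Cx

/-! Row 197: the deck action on a simply connected cover. -/

set_option autoImplicit false

namespace Crest.Agent.R197

open scoped Topology unitInterval

variable {X E : Type} [TopologicalSpace X] [TopologicalSpace E] {p : E → X}

theorem exists_deck_map_trans {x y z : E} (f : C(E, X)) (a : Path.Homotopic.Quotient x y)
    (b : Path.Homotopic.Quotient y z) : (a.trans b).map f = (a.map f).trans (b.map f) := by
  induction a using Path.Homotopic.Quotient.ind with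
  | mk a =>
    induction b using Path.Homotopic.Quotient.ind with
    | mk b =>
      rw [← Path.Homotopic.Quotient.mk_trans, ← Path.Homotopic.Quotient.mk_map,
        ← Path.Homotopic.Quotient.mk_map, ← Path.Homotopic.Quotient.mk_map,
        ← Path.Homotopic.Quotient.mk_trans, Path.map_trans]

/-- Points of a simply connected cover are path classes in the base. -/
noncomputable def deckEquiv [SimplyConnectedSpace E] (hp : IsCoveringMap p) (e₀ : E) :
    E ≃ Σ z : X, Path.Homotopic.Quotient (p e₀) z where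
  toFun y := ⟨p y, (Path.Homotopic.Quotient.mk (PathConnectedSpace.somePath e₀ y)).map
    ⟨p, hp.continuous⟩⟩
  invFun ω := (hp.monodromy ω.2 ⟨e₀, rfl⟩).1
  left_inv y := congrArg Subtype.val (hp.monodromy_map
    (Path.Homotopic.Quotient.mk (PathConnectedSpace.somePath e₀ y)))
  right_inv ω := by
    refine Sigma.ext (hp.monodromy ω.2 ⟨e₀, rfl⟩).2 ?_
    have h1 := hp.map_liftPathQuotient ω.2 ⟨e₀, rfl⟩
    have h2 : Path.Homotopic.Quotient.mk (PathConnectedSpace.somePath e₀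
      (hp.monodromy ω.2 ⟨e₀, rfl⟩).1) = hp.liftPathQuotient ω.2 ⟨e₀, rfl⟩ := Subsingleton.elim _ _
    refine HEq.trans (heq_of_eq ?_) (Path.Homotopic.Quotient.cast_heq (γ := ω.2) rfl
      (hp.monodromy ω.2 ⟨e₀, rfl⟩).2)
    rw [← h1, ← h2]

/-- Fix `e₀` over `x`.  For `y : E` let `[y]` be the image in `X` of the unique path class from
`e₀` to `y`, and `a • y = monodromy (a.trans [y]) e₀` for a loop class `a`.  (Mathlib:
`FundamentalGroup.mul_def : p * q = q.trans p`; compose with inversion to get a left action.)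
No continuity of the action is claimed here. -/
theorem exists_deck [SimplyConnectedSpace E] (hp : IsCoveringMap p) (hs : Function.Surjective p)
    (x : X) {G : Type} [Group G] (φ : FundamentalGroup X x ≃* G) :
    ∃ _ : MulAction G E, (∀ (g : G) y, p (g • y) = p y) ∧
      (∀ y y', p y = p y' → ∃ g : G, g • y = y') ∧ (∀ (g : G) (y : E), g • y = y → g = 1) ∧
      ∀ (g : G) (γ γ' : C(I, E)), (∀ t, p (γ' t) = p (γ t)) → γ' 0 = g • γ 0 → γ' 1 = g • γ 1 := by
  obtain ⟨e₀, rfl⟩ := hs x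
  let Φ := deckEquiv hp e₀
  let τ : G → Path.Homotopic.Quotient (p e₀) (p e₀) := fun g => φ.symm g⁻¹
  have τ1 : τ 1 = .refl _ := by
    change φ.symm 1⁻¹ = _
    rw [inv_one, map_one]
    rfl
  have τm : ∀ g h, τ (g * h) = (τ g).trans (τ h) := by
    intro g h
    change φ.symm (g * h)⁻¹ = _
    rw [mul_inv_rev, map_mul]
    rfl
  let act : G → E → E := fun g y => Φ.symm ⟨(Φ y).1, (τ g).trans (Φ y).2⟩
  have hact : ∀ g y, Φ (act g y) = ⟨(Φ y).1, (τ g).trans (Φ y).2⟩ := fun g y =>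
    Φ.apply_symm_apply _
  have a1 : ∀ y, act 1 y = y := fun y => by
    apply Φ.injective
    rw [hact, τ1, Path.Homotopic.Quotient.refl_trans]
  have a2 : ∀ g h y, act (g * h) y = act g (act h y) := fun g h y => by
    apply Φ.injective
    rw [hact, hact, hact, τm, Path.Homotopic.Quotient.trans_assoc]
  refine ⟨{ smul := act, one_smul := a1, mul_smul := a2 }, fun g y => ?_, fun y y' hy => ?_,
    fun g y hy => ?_, fun g γ γ' hγ h0 => ?_⟩
  · exact congrArg Sigma.fst (hact g y)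
  · have key : ∀ ω ω' : Σ z : X, Path.Homotopic.Quotient (p e₀) z, ω.1 = ω'.1 →
        ∃ g, (⟨ω.1, (τ g).trans ω.2⟩ : Σ z : X, Path.Homotopic.Quotient (p e₀) z) = ω' := by
      rintro ⟨z, q⟩ ⟨z', q'⟩ h
      obtain rfl : z = z' := h
      refine ⟨(φ (q'.trans q.symm))⁻¹, ?_⟩
      have : τ (φ (q'.trans q.symm))⁻¹ = q'.trans q.symm := by
        change φ.symm _ = _
        rw [inv_inv, MulEquiv.symm_apply_apply]
      rw [this, Path.Homotopic.Quotient.trans_assoc, Path.Homotopic.Quotient.symm_trans,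
        Path.Homotopic.Quotient.trans_refl]
    obtain ⟨g, hg⟩ := key (Φ y) (Φ y') hy
    exact ⟨g, Φ.injective ((hact g y).trans hg)⟩
  · have h1 : Φ (act g y) = Φ y := congrArg Φ hy
    rw [hact] at h1
    have h2 : (τ g).trans (Φ y).2 = (Φ y).2 := eq_of_heq (Sigma.mk.inj_iff.1 h1).2
    have h3 := congrArg (fun q => q.trans (Φ y).2.symm) h2
    simp only [Path.Homotopic.Quotient.trans_assoc, Path.Homotopic.Quotient.trans_symm,
      Path.Homotopic.Quotient.trans_refl] at h3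
    have h4 : φ.symm g⁻¹ = 1 := h3
    rwa [map_eq_one_iff _ φ.symm.injective, inv_eq_one] at h4
  · let δ : Path (γ 0) (γ 1) := ⟨γ, rfl, rfl⟩
    have h1 : Path.Homotopic.Quotient.mk (PathConnectedSpace.somePath e₀ (γ 1)) =
        (Path.Homotopic.Quotient.mk (PathConnectedSpace.somePath e₀ (γ 0))).trans
          (Path.Homotopic.Quotient.mk δ) := Subsingleton.elim _ _
    change γ' 1 = (hp.monodromy ((τ g).trans ((Path.Homotopic.Quotient.mk
      (PathConnectedSpace.somePath e₀ (γ 1))).map ⟨p, hp.continuous⟩)) ⟨e₀, rfl⟩).1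
    rw [h1, exists_deck_map_trans, ← Path.Homotopic.Quotient.trans_assoc,
      hp.monodromy_trans_apply]
    have h2 : hp.monodromy ((τ g).trans ((Path.Homotopic.Quotient.mk
        (PathConnectedSpace.somePath e₀ (γ 0))).map ⟨p, hp.continuous⟩)) ⟨e₀, rfl⟩ =
        ⟨γ' 0, hγ 0⟩ := Subtype.ext h0.symm
    rw [h2]
    have h3 : γ' = hp.liftPath (δ.map hp.continuous) (γ' 0) (hγ 0).symm :=
      (hp.eq_liftPath_iff' _).2 ⟨funext hγ, rfl⟩
    exact DFunLike.congr_fun h3 1

theorem t2_cover [T2Space X] (hp : IsCoveringMap p) : T2Space E := by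
  refine ⟨fun y y' hne => ?_⟩
  by_cases h : p y = p y'
  · exact hp.isSeparatedMap y y' h hne
  · obtain ⟨u, v, hu, hv, hyu, hyv, huv⟩ := t2_separation h
    exact ⟨p ⁻¹' u, p ⁻¹' v, hu.preimage hp.continuous, hv.preimage hp.continuous, hyu, hyv,
      huv.preimage p⟩

/-- For each pair `(y, y')` there are neighbourhoods `W, W'` with at most one `g` such that
`g • W` meets `W'`; then use compactness of `K ×ˢ L`. -/
theorem proper_cover [T2Space X] (hp : IsCoveringMap p) {G : Type} [Group G] [MulAction G E]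
    [ContinuousConstSMul G E] (h1 : ∀ (g : G) y, p (g • y) = p y)
    (h2 : ∀ y y', p y = p y' → ∃ g : G, g • y = y') (h3 : ∀ (g : G) (y : E), g • y = y → g = 1)
    {K L : Set E} (hK : IsCompact K) (hL : IsCompact L) : {g : G | ∃ y ∈ K, g • y ∈ L}.Finite := by
  have key : {g : G | ∃ q ∈ K ×ˢ L, g • q.1 = q.2}.Finite := by
    refine (hK.prod hL).induction_on (p := fun s => {g : G | ∃ q ∈ s, g • q.1 = q.2}.Finite)
      (by simp) ?_ ?_ ?_
    · intro s t hst ht
      exact ht.subset fun g ⟨q, hq, h⟩ => ⟨q, hst hq, h⟩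
    · intro s t hs ht
      refine (hs.union ht).subset ?_
      rintro g ⟨q, hq | hq, h⟩
      · exact Or.inl ⟨q, hq, h⟩
      · exact Or.inr ⟨q, hq, h⟩
    · rintro ⟨y, y'⟩ -
      by_cases h : p y = p y'
      · obtain ⟨g₀, hg₀⟩ := h2 y y' h
        obtain ⟨W, hW, hyW, hinj⟩ := hp.isLocalHomeomorph.isLocallyInjective y
        have hW' : IsOpen ((fun z : E => g₀⁻¹ • z) ⁻¹' W) := hW.preimage (continuous_const_smul _)
        have hy' : y' ∈ (fun z : E => g₀⁻¹ • z) ⁻¹' W := by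
          simpa [← hg₀] using hyW
        refine ⟨W ×ˢ ((fun z : E => g₀⁻¹ • z) ⁻¹' W),
          mem_nhdsWithin_of_mem_nhds ((hW.prod hW').mem_nhds ⟨hyW, hy'⟩), ?_⟩
        refine (Set.finite_singleton g₀).subset ?_
        rintro g ⟨⟨z, z'⟩, ⟨hz, hz'⟩, hg⟩
        have hg' : g • z = z' := hg
        have hz2 : g₀⁻¹ • z' ∈ W := hz'
        have e1 : g₀⁻¹ • z' = z := hinj hz2 hz (by rw [h1, ← hg', h1])
        have e2 : g₀⁻¹ * g = 1 := h3 _ z (by rw [mul_smul, hg', e1])
        exact (inv_mul_eq_one.1 e2).symm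
      · obtain ⟨u, v, hu, hv, hyu, hyv, huv⟩ := t2_separation h
        refine ⟨(p ⁻¹' u) ×ˢ (p ⁻¹' v), mem_nhdsWithin_of_mem_nhds
          (((hu.preimage hp.continuous).prod (hv.preimage hp.continuous)).mem_nhds ⟨hyu, hyv⟩), ?_⟩
        refine Set.finite_empty.subset ?_
        rintro g ⟨⟨z, z'⟩, ⟨hz, hz'⟩, hg⟩
        have hg' : g • z = z' := hg
        have hz1 : p z ∈ u := hz
        have hz2 : p z' ∈ v := hz'
        rw [← hg', h1] at hz2
        exact (Set.disjoint_left.1 huv hz1 hz2).elim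
  exact key.subset fun g ⟨y, hy, h⟩ => ⟨(y, g • y), ⟨hy, h⟩, rfl⟩

theorem deck_weak_aux {Z : Type} [TopologicalSpace Z] (f : C(Z, X)) {A W : Set E} (hW : IsOpen W)
    (h : ∀ z y, p y = f z → ∃ ψ : C(Z, E), (∀ w, p (ψ w) = f w) ∧ ψ z = y ∧ IsClosed (ψ ⁻¹' A)) :
    IsClosed (f ⁻¹' (p '' (W \ A))ᶜ) := by
  rw [Set.preimage_compl, isClosed_compl_iff, isOpen_iff_forall_mem_open]
  rintro z ⟨y, hy, hyz⟩
  obtain ⟨ψ, hψ, rfl, hA⟩ := h z y hyz
  exact ⟨ψ ⁻¹' W ∩ (ψ ⁻¹' A)ᶜ, fun w hw => ⟨ψ w, ⟨hw.1, hw.2⟩, hψ w⟩,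
    (hW.preimage ψ.continuous).inter hA.isOpen_compl, hy.1, hy.2⟩

/-- The weak topology passes to a cover.  For `y ∉ A` take an open `W ∋ y` on which `p` is an open
embedding; `p '' (W \ A)` is open in `X` because its preimage under a cell is, near each of its
points, the preimage of `Aᶜ` under a lifted cell (local connectedness and uniqueness of lifts). -/
theorem weak_cover (hp : IsCoveringMap p) {S R : Type} (ed : S → C(I, X)) (fc : R → C(I × I, X))
    (hw : ∀ A : Set X, (∀ e, IsClosed (ed e ⁻¹' A)) → (∀ c, IsClosed (fc c ⁻¹' A)) → IsClosed A)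
    (A : Set E)
    (h1 : ∀ e t y, p y = ed e t →
      ∃ ψ : C(I, E), (∀ w, p (ψ w) = ed e w) ∧ ψ t = y ∧ IsClosed (ψ ⁻¹' A))
    (h2 : ∀ c z y, p y = fc c z →
      ∃ ψ : C(I × I, E), (∀ w, p (ψ w) = fc c w) ∧ ψ z = y ∧ IsClosed (ψ ⁻¹' A)) :
    IsClosed A := by
  rw [← isOpen_compl_iff, isOpen_iff_forall_mem_open]
  intro y hy
  obtain ⟨W, hW, hyW, hinj⟩ := hp.isLocalHomeomorph.isLocallyInjective y
  have hB : IsClosed (p '' (W \ A))ᶜ := by
    refine hw _ (fun e => ?_) (fun c => ?_)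
    · exact deck_weak_aux (ed e) hW (h1 e)
    · exact deck_weak_aux (fc c) hW (h2 c)
  refine ⟨W ∩ p ⁻¹' (p '' (W \ A)), ?_, hW.inter ((isClosed_compl_iff.1 hB).preimage hp.continuous),
    hyW, y, ⟨hyW, hy⟩, rfl⟩
  rintro z ⟨hz, z', hz', h⟩
  rw [← hinj hz'.1 hz h]
  exact hz'.2

end Crest.Agent.R197
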