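import Mathlib

/-! Row 197 (Eilenberg–Ganea): shared definitions.

Outline.  `G` is the Bestvina–Brady group of a flag complex `L` (acyclic, with a non-trivial
representation `ρ` of `π₁ L` in the unit quaternions).
* Positive part (`Raag*`, `Chain`, `Split`, `Cd`, `Xt*`, `Xb`, `Cover`, `RF`): `G` is finitely
  generated, residually finite, of cohomological dimension two, with a three-dimensional
  classifying complex.
* `PresOf`: a two-dimensional classifying complex gives an aspherical presentation `Pres G`.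
* `NoPres`: `G` has no such presentation.  The `s`-fold scaled copy of `L` in `G` carries a family
  of connections from the trivial one to `ρ` whose curvature is spread over many far apart
  2-cells; a degree argument on `(S³)ⁿ` (`Deg*`) extends `ρ` to a flat connection on a finite
  simply connected part of the Cayley complex, which is absurd. -/

set_option autoImplicit false

namespace Crest.Agent.R197

open scoped Quaternion

/-- Unit quaternions. -/
abbrev U : Type := Metric.sphere (0 : ℍ) 1

/-! ### Holonomy -/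

/-- Functions on a group twisted by right translation. -/
@[ext] structure Wr (G Q : Type) where
  f : G → Q
  g : G

namespace Wr
variable {G Q : Type} [Group G] [Group Q]

instance : Mul (Wr G Q) := ⟨fun a b => ⟨fun x => a.f x * b.f (x * a.g), a.g * b.g⟩⟩
instance : One (Wr G Q) := ⟨⟨fun _ => 1, 1⟩⟩
instance : Inv (Wr G Q) := ⟨fun a => ⟨fun x => (a.f (x * a.g⁻¹))⁻¹, a.g⁻¹⟩⟩

@[simp] theorem mul_f (a b : Wr G Q) (x : G) : (a * b).f x = a.f x * b.f (x * a.g) := rfl
@[simp] theorem mul_g (a b : Wr G Q) : (a * b).g = a.g * b.g := rfl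
@[simp] theorem one_f (x : G) : (1 : Wr G Q).f x = 1 := rfl
@[simp] theorem one_g : (1 : Wr G Q).g = 1 := rfl
@[simp] theorem inv_f (a : Wr G Q) (x : G) : a⁻¹.f x = (a.f (x * a.g⁻¹))⁻¹ := rfl
@[simp] theorem inv_g (a : Wr G Q) : a⁻¹.g = a.g⁻¹ := rfl

instance : Group (Wr G Q) := Group.ofLeftAxioms
  (fun a b c => by ext x <;> simp [mul_assoc])
  (fun a => by ext x <;> simp)
  (fun a => by ext x <;> simp)

/-- The projection to `G`. -/
def gHom : Wr G Q →* G where
  toFun a := a.g
  map_one' := rfl
  map_mul' _ _ := rfl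

end Wr

section hol
variable {G S Q Q' : Type} [Group G] [Group Q] [Group Q']

/-- The word read in the twisted function group. -/
def holW (π : FreeGroup S →* G) (σ : G → S → Q) : FreeGroup S →* Wr G Q :=
  FreeGroup.lift fun s => ⟨fun x => σ x s, π (FreeGroup.of s)⟩

/-- Holonomy of the connection `σ` on the Cayley graph along the word `w` read from `g`. -/
def hol (π : FreeGroup S →* G) (σ : G → S → Q) (g : G) (w : FreeGroup S) : Q := (holW π σ w).f g

variable (π : FreeGroup S →* G) (σ : G → S → Q)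

theorem holW_g (w : FreeGroup S) : (holW π σ w).g = π w := by
  have : Wr.gHom.comp (holW π σ) = π := by
    ext s; simp [holW, Wr.gHom]
  exact DFunLike.congr_fun this w

@[simp] theorem hol_of (g : G) (s : S) : hol π σ g (FreeGroup.of s) = σ g s := by
  simp [hol, holW]

@[simp] theorem hol_one (g : G) : hol π σ g 1 = 1 := by simp [hol]

theorem hol_mul (g : G) (w w' : FreeGroup S) :
    hol π σ g (w * w') = hol π σ g w * hol π σ (g * π w) w' := by
  simp [hol, holW_g]

theorem hol_inv (g : G) (w : FreeGroup S) :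
    hol π σ g w⁻¹ = (hol π σ (g * (π w)⁻¹) w)⁻¹ := by
  simp [hol, holW_g]

theorem hol_conj (g : G) (y : FreeGroup S) {w : FreeGroup S} (hw : π w = 1) :
    hol π σ g (y * w * y⁻¹) = hol π σ g y * hol π σ (g * π y) w * (hol π σ g y)⁻¹ := by
  simp [hol_mul, hol_inv, hw]

theorem hol_shift (h g : G) (w : FreeGroup S) :
    hol π σ (h * g) w = hol π (fun x => σ (h * x)) g w := by
  induction w using FreeGroup.induction_on generalizing g with
  | C1 => simp
  | of s => simp
  | inv_of s ih => rw [hol_inv, hol_inv, mul_assoc, ih]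
  | mul a b iha ihb => rw [hol_mul, hol_mul, mul_assoc, iha, ihb]

theorem map_hol (φ : Q →* Q') (g : G) (w : FreeGroup S) :
    φ (hol π σ g w) = hol π (fun x s => φ (σ x s)) g w := by
  induction w using FreeGroup.induction_on generalizing g with
  | C1 => simp
  | of s => simp
  | inv_of s ih => rw [hol_inv, hol_inv, map_inv, ih]
  | mul a b iha ihb => rw [hol_mul, hol_mul, map_mul, iha, ihb]

/-- Holonomy of a real-valued connection. -/
def ahol (π : FreeGroup S →* G) (α : G → S → ℝ) (g : G) (w : FreeGroup S) : ℝ :=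
  Multiplicative.toAdd (hol π (fun x s => Multiplicative.ofAdd (α x s)) g w)

variable (α : G → S → ℝ)

@[simp] theorem ahol_of (g : G) (s : S) : ahol π α g (FreeGroup.of s) = α g s := by simp [ahol]

@[simp] theorem ahol_one (g : G) : ahol π α g 1 = 0 := by simp [ahol]

theorem ahol_mul (g : G) (w w' : FreeGroup S) :
    ahol π α g (w * w') = ahol π α g w + ahol π α (g * π w) w' := by simp [ahol, hol_mul]

theorem ahol_inv (g : G) (w : FreeGroup S) :
    ahol π α g w⁻¹ = -ahol π α (g * (π w)⁻¹) w := by simp [ahol, hol_inv]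

theorem ahol_add (β : G → S → ℝ) (g : G) (w : FreeGroup S) :
    ahol π (α + β) g w = ahol π α g w + ahol π β g w := by
  induction w using FreeGroup.induction_on generalizing g with
  | C1 => simp
  | of s => simp
  | inv_of s ih => rw [ahol_inv, ahol_inv, ahol_inv, ih]; ring
  | mul a b iha ihb => rw [ahol_mul, ahol_mul, ahol_mul, iha, ihb]; ring

theorem ahol_smul (c : ℝ) (g : G) (w : FreeGroup S) :
    ahol π (c • α) g w = c * ahol π α g w := by
  induction w using FreeGroup.induction_on generalizing g with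
  | C1 => simp
  | of s => simp
  | inv_of s ih => rw [ahol_inv, ahol_inv, ih]; ring
  | mul a b iha ihb => rw [ahol_mul, ahol_mul, iha, ihb]; ring

theorem ahol_sum {ι : Type} (s : Finset ι) (β : ι → G → S → ℝ) (g : G) (w : FreeGroup S) :
    ahol π (∑ i ∈ s, β i) g w = ∑ i ∈ s, ahol π (β i) g w := by
  classical
  induction s using Finset.induction_on with
  | empty => simpa using ahol_smul π (0 : G → S → ℝ) 0 g w
  | insert a s ha ih => rw [Finset.sum_insert ha, Finset.sum_insert ha, ahol_add, ih]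

/-- Coboundaries telescope. -/
theorem ahol_cob (ψ : G → ℝ) (g : G) (w : FreeGroup S) :
    ahol π (fun x s => ψ (x * π (FreeGroup.of s)) - ψ x) g w = ψ (g * π w) - ψ g := by
  induction w using FreeGroup.induction_on generalizing g with
  | C1 => simp
  | of s => simp
  | inv_of s ih => rw [ahol_inv, ih]; simp
  | mul a b iha ihb => rw [ahol_mul, iha, ihb, map_mul, mul_assoc]; ring

end hol

/-- An aspherical presentation: the 2-cells `(g, c)` of the Cayley complex have independent
boundaries (in dual form). -/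
structure Pres (G : Type) [Group G] where
  S : Type
  R : Type
  π : FreeGroup S →* G
  r : R → FreeGroup S
  surj : Function.Surjective π
  ker_eq : π.ker = Subgroup.normalClosure (Set.range r)
  dual : ∀ (K : Finset (G × R)) (d : G × R), ∃ α : G → S → ℝ,
    ahol π α d.1 (r d.2) = 1 ∧ ∀ c ∈ K, c ≠ d → ahol π α c.1 (r c.2) = 0

namespace Pres
variable {G : Type} [Group G] (P : Pres G)

/-- Curvature on a 2-cell. -/
def curv {Q : Type} [Group Q] (σ : G → P.S → Q) (c : G × P.R) : Q := hol P.π σ c.1 (P.r c.2)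

/-- Curvature of a real-valued connection. -/
def acurv (α : G → P.S → ℝ) (c : G × P.R) : ℝ := ahol P.π α c.1 (P.r c.2)

theorem π_r (c : P.R) : P.π (P.r c) = 1 := by
  rw [← MonoidHom.mem_ker, P.ker_eq]
  exact Subgroup.subset_normalClosure ⟨c, rfl⟩

end Pres

section shapes
variable {F : Type} [Group F]

/-- The boundary of an `m × n` rectangle. -/
def rect (α β : F) (m n : ℕ) : F := α ^ m * β ^ n * (α ^ m)⁻¹ * (β ^ n)⁻¹

/-- The boundary of a triangle of size `m`. -/
def tri (α β γ : F) (m : ℕ) : F := α ^ m * γ ^ m * (β ^ m)⁻¹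

theorem rect_add (α β : F) (m m' n : ℕ) :
    rect α β (m + m') n = α ^ m * rect α β m' n * (α ^ m)⁻¹ * rect α β m n := by
  simp only [rect, pow_add]; group

theorem rect_add' (α β : F) (m n n' : ℕ) :
    rect α β m (n + n') = rect α β m n * (β ^ n * rect α β m n' * (β ^ n)⁻¹) := by
  simp only [rect, pow_add]; group

theorem tri_add (α β γ : F) (m n : ℕ) : tri α β γ (m + n) =
    α ^ m * tri α β γ n * (α ^ m)⁻¹ * rect α β m n * (β ^ n * tri α β γ m * (β ^ n)⁻¹) := by
  simp only [rect, tri]
  rw [pow_add α, add_comm m n, pow_add γ, pow_add β]; group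

end shapes

/-! ### The complex `L` -/

/-- Vertices of `L`. -/
abbrev V : Type := Fin 21

/-- Edges of the clique complex. -/
def Edge (Γ : SimpleGraph V) : Type := {e : V × V // e.1 < e.2 ∧ Γ.Adj e.1 e.2}

/-- Triangles of the clique complex. -/
def Tri (Γ : SimpleGraph V) : Type :=
  {t : V × V × V // t.1 < t.2.1 ∧ t.2.1 < t.2.2 ∧ Γ.Adj t.1 t.2.1 ∧ Γ.Adj t.2.1 t.2.2 ∧
    Γ.Adj t.1 t.2.2}

instance (Γ : SimpleGraph V) : Finite (Edge Γ) := by unfold Edge; infer_instance
instance (Γ : SimpleGraph V) : Finite (Tri Γ) := by unfold Tri; infer_instance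
noncomputable instance (Γ : SimpleGraph V) : Fintype (Tri Γ) := Fintype.ofFinite _
instance (Γ : SimpleGraph V) : DecidableEq (Tri Γ) := by unfold Tri; infer_instance

namespace Tri
variable {Γ : SimpleGraph V} (t : Tri Γ)
/-- First vertex. -/
def a : V := t.1.1
/-- Second vertex. -/
def b : V := t.1.2.1
/-- Third vertex. -/
def c : V := t.1.2.2
theorem ab : t.a < t.b := t.2.1
theorem bc : t.b < t.c := t.2.2.1
theorem ac : t.a < t.c := t.ab.trans t.bc
theorem adj_ab : Γ.Adj t.a t.b := t.2.2.2.1
theorem adj_bc : Γ.Adj t.b t.c := t.2.2.2.2.1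
theorem adj_ac : Γ.Adj t.a t.c := t.2.2.2.2.2
/-- The edge `ab`. -/
def eab : Edge Γ := ⟨(t.a, t.b), t.ab, t.adj_ab⟩
/-- The edge `bc`. -/
def ebc : Edge Γ := ⟨(t.b, t.c), t.bc, t.adj_bc⟩
/-- The edge `ac`. -/
def eac : Edge Γ := ⟨(t.a, t.c), t.ac, t.adj_ac⟩
end Tri

/-- The data of the flag complex `L`: a 3-colouring, a rooted spanning tree, a list `nt` of the
other edges indexed by the triangles, a left inverse `h1` of the boundary map `C₂ → C₁`, and a
non-trivial flat connection `ρ` that is trivial on the tree. -/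
structure LData where
  Γ : SimpleGraph V
  col : V → Fin 3
  col_ne : ∀ a b, Γ.Adj a b → col a ≠ col b
  root : V
  par : V → V
  rk : V → ℕ
  par_adj : ∀ v, v ≠ root → Γ.Adj (par v) v
  rk_lt : ∀ v, v ≠ root → rk (par v) < rk v
  nt : Tri Γ → V × V
  nt_edge : ∀ t, (nt t).1 < (nt t).2 ∧ Γ.Adj (nt t).1 (nt t).2
  cover : ∀ a b, a < b → Γ.Adj a b →
    (b ≠ root ∧ a = par b) ∨ (a ≠ root ∧ b = par a) ∨ ∃ t, nt t = (a, b)
  h1 : V → V → Tri Γ → ℤ
  h1_spec : ∀ t t' : Tri Γ, h1 t.b t.c t' - h1 t.a t.c t' + h1 t.a t.b t' = if t' = t then 1 else 0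
  ρ : V → V → U
  ρ_tri : ∀ t : Tri Γ, ρ t.a t.b * ρ t.b t.c = ρ t.a t.c
  ρ_tree : ∀ v, v ≠ root → ρ (par v) v = 1 ∧ ρ v (par v) = 1
  ρ_ne : ∃ a b, a < b ∧ Γ.Adj a b ∧ ρ a b ≠ 1
  t0 : Tri Γ

/-- Scaled copies of `L` in a group. -/
structure BB (L : LData) (G : Type) [Group G] where
  θ : G →* Multiplicative (V → ℤ)
  q : V → V → G
  P : ℕ → V → G
  θq : ∀ a b, Multiplicative.toAdd (θ (q a b)) = Pi.single b 1 - Pi.single a 1
  θP : ∀ (s : ℕ) a, Multiplicative.toAdd (θ (P s a)) = Pi.single a (s : ℤ) - Pi.single L.root (s : ℤ)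
  Pq : ∀ s a b, L.Γ.Adj a b → P s b = P s a * q a b ^ s
  P_root : ∀ s, P s L.root = 1
  comm : ∀ t : Tri L.Γ, Commute (q t.a t.b) (q t.a t.c)
  tri : ∀ t : Tri L.Γ, q t.a t.b * q t.b t.c = q t.a t.c

end Crest.Agent.R197
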