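import Crest.Agent.R197.Chain

/-! Row 197: the chain complex is exact.

Filter by the length of the top vertex.  Let `F₀ n`, `F₁ n`, `F₂ n` be the spans of the
`single (y, ()) 1`, of the `e' y a` (`Desc y a`), and of the `sq' y a b` (`Desc y a`, `Desc y b`,
adjacent) with `len y < n`; every basis cell is `±` such a cell (`desc_back`, `desc_mul_lt`).
Choose a descending letter `*` at every `y ≠ 1` (`exists_desc`, `desc_adj`) and define linear maps
by `h₀ [y] = -e' y *`, `h₁ (e' y a) = -sq' y * a`, `h₂ (sq' y a b) = -cube' y * a b`.  They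
preserve the level, and `d h + h d - 1` lowers it; so a cycle of level `< n + 1` is homologous to
one of level `< n`. -/

set_option autoImplicit false

namespace Crest.Agent.R197

open Finsupp

theorem exact_of_filt {M N P : Type} [AddCommGroup M] [AddCommGroup N] [AddCommGroup P]
    (d : N →ₗ[ℤ] M) (d' : M →ₗ[ℤ] P) (h : M →ₗ[ℤ] N) (h' : P →ₗ[ℤ] M) (F : ℕ → Submodule ℤ M)
    (hdd : ∀ x, d' (d x) = 0) (F0 : F 0 = ⊥) (hall : ∀ c, ∃ n, c ∈ F n)
    (hT : ∀ n, ∀ c ∈ F (n + 1), d (h c) + h' (d' c) - c ∈ F n) : Function.Exact d d' := by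
  intro c
  refine ⟨fun hc => ?_, ?_⟩
  · obtain ⟨n, hn⟩ := hall c
    induction n generalizing c with
    | zero =>
      rw [F0, Submodule.mem_bot] at hn
      exact ⟨0, by rw [hn, map_zero]⟩
    | succ n ih =>
      have h1 := hT n c hn
      rw [hc, map_zero, add_zero] at h1
      obtain ⟨z, hz⟩ := ih _ (by rw [map_sub, hdd, hc, sub_zero]) h1
      exact ⟨h c - z, by rw [map_sub, hz]; abel⟩
  · rintro ⟨z, rfl⟩
    exact hdd z

theorem exact_all {X : Type} (F : ℕ → Submodule ℤ (X →₀ ℤ)) (hF : Monotone F)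
    (h : ∀ x, ∃ n, single x 1 ∈ F n) (c : X →₀ ℤ) : ∃ n, c ∈ F n := by
  induction c using Finsupp.induction_linear with
  | zero => exact ⟨0, Submodule.zero_mem _⟩
  | add f g hf hg =>
    obtain ⟨m, hm⟩ := hf
    obtain ⟨n, hn⟩ := hg
    exact ⟨max m n, Submodule.add_mem _ (hF (le_max_left _ _) hm) (hF (le_max_right _ _) hn)⟩
  | single x a =>
    obtain ⟨n, hn⟩ := h x
    refine ⟨n, ?_⟩
    have := (F n).smul_mem a hn
    rwa [smul_single, smul_eq_mul, mul_one] at this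

section aux
variable {Γ : SimpleGraph V}

open Classical in
/-- A descending letter, if there is one. -/
noncomputable def exSt (y : Raag Γ) : Letter := if h : ∃ a, Desc y a then h.choose else (0, true)

theorem exSt_desc {y : Raag Γ} {a : Letter} (h : Desc y a) : Desc y (exSt y) := by
  have h1 : ∃ a, Desc y a := ⟨a, h⟩
  rw [exSt, dif_pos h1]
  exact h1.choose_spec

open Classical in
/-- The letter that descends along the edge `(x, v)` from its top vertex. -/
noncomputable def exSel (x : Raag Γ) (v : V) : Letter :=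
  if Desc x (v, true) then (v, true) else (v, false)

theorem exSel_fst (x : Raag Γ) (v : V) : (exSel x v).1 = v := by
  unfold exSel; split_ifs <;> rfl

theorem exSel_lo {y : Raag Γ} {a : Letter} (h : Desc y a) : exSel (y * lo Γ a) a.1 = a := by
  obtain ⟨v, b⟩ := a
  cases b
  · have h1 : ¬ Desc (y * lt Γ (v, false)) (v, true) := fun h1 => (desc_back y (v, false)).1 h1 h
    exact if_neg h1
  · have h1 : y * lo Γ (v, true) = y := mul_one y
    rw [h1]
    exact if_pos h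

theorem exSel_desc (x : Raag Γ) (v : V) : Desc (x * (lo Γ (exSel x v))⁻¹) (exSel x v) := by
  unfold exSel
  split_ifs with h
  · have h1 : x * (lo Γ (v, true))⁻¹ = x := by simp [lo]
    rwa [h1]
  · have h1 : x * (lo Γ (v, false))⁻¹ = x * lt Γ (v, true) := by simp [lo, lt]
    rw [h1]
    exact (desc_back x (v, true)).2 h

theorem ex_desc_lo (x : Raag Γ) {a b : Letter} (h : Γ.Adj a.1 b.1) :
    Desc (x * lo Γ b) a ↔ Desc x a := by
  obtain ⟨v, c⟩ := b
  cases c
  · exact desc_mul_lt x (b := (v, false)) h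
  · have h1 : x * lo Γ (v, true) = x := mul_one x
    rw [h1]

theorem ex_desc_lo_inv (x : Raag Γ) {a b : Letter} (h : Γ.Adj a.1 b.1) :
    Desc (x * (lo Γ b)⁻¹) a ↔ Desc x a := by
  rw [← ex_desc_lo (x * (lo Γ b)⁻¹) h, inv_mul_cancel_right]

theorem exSel_mul_lo (x : Raag Γ) {u : V} {b : Letter} (h : Γ.Adj u b.1) :
    exSel (x * lo Γ b) u = exSel x u := by
  unfold exSel
  rw [ex_desc_lo x (a := (u, true)) h]

theorem ex_lo_comm {a b : Letter} (h : Γ.Adj a.1 b.1) : Commute (lo Γ a) (lo Γ b) := by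
  unfold lo
  split_ifs
  · exact Commute.one_left _
  · exact Commute.one_left _
  · exact Commute.one_right _
  · exact (gen_comm h).inv_inv

theorem ex_sg_sq (a : Letter) : sg a * sg a = 1 := by
  unfold sg; split_ifs <;> rfl

theorem ex_tsg_swap (t : Tri Γ) (u v w : V) : tsg t u w v = -tsg t u v w := by
  have h1 := t.ab
  have h2 := t.bc
  unfold tsg
  generalize t.a = a at *
  generalize t.b = b at *
  generalize t.c = c at *
  have e1 : ((u, w, v) = (a, b, c) ∨ (u, w, v) = (b, c, a) ∨ (u, w, v) = (c, a, b)) ↔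
      ((u, v, w) = (b, a, c) ∨ (u, v, w) = (a, c, b) ∨ (u, v, w) = (c, b, a)) := by
    simp only [Prod.mk.injEq]; tauto
  have e2 : ((u, w, v) = (b, a, c) ∨ (u, w, v) = (a, c, b) ∨ (u, w, v) = (c, b, a)) ↔
      ((u, v, w) = (a, b, c) ∨ (u, v, w) = (b, c, a) ∨ (u, v, w) = (c, a, b)) := by
    simp only [Prod.mk.injEq]; tauto
  have e3 : ((u, v, w) = (a, b, c) ∨ (u, v, w) = (b, c, a) ∨ (u, v, w) = (c, a, b)) →
      ¬ ((u, v, w) = (b, a, c) ∨ (u, v, w) = (a, c, b) ∨ (u, v, w) = (c, b, a)) := by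
    simp only [Prod.mk.injEq, Fin.ext_iff]
    rw [Fin.lt_def] at h1 h2
    omega
  by_cases p : (u, v, w) = (a, b, c) ∨ (u, v, w) = (b, c, a) ∨ (u, v, w) = (c, a, b)
  · rw [if_neg (fun h => e3 p (e1.1 h)), if_pos (e2.2 p), if_pos p]
  · rw [if_neg p]
    by_cases q : (u, v, w) = (b, a, c) ∨ (u, v, w) = (a, c, b) ∨ (u, v, w) = (c, b, a)
    · rw [if_pos (e1.2 q), if_pos q, neg_neg]
    · rw [if_neg (fun h => q (e1.1 h)), if_neg (fun h => p (e2.1 h)), if_neg q, neg_zero]

theorem ex_cube_swap (x : Raag Γ) (s : Letter) {a b : Letter} (h : Γ.Adj a.1 b.1) :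
    cube' x s b a = -cube' x s a b := by
  unfold cube'
  rw [← smul_neg, ← Finset.sum_neg_distrib, mul_right_comm (sg s),
    mul_assoc (x * lo Γ s) (lo Γ b), ← (ex_lo_comm h).eq, ← mul_assoc]
  congr 1
  refine Finset.sum_congr rfl fun t _ => ?_
  rw [ex_tsg_swap, neg_smul]

variable (Γ)

open Classical in
/-- The homotopy on vertices. -/
noncomputable def exH0 : (Raag Γ × Unit →₀ ℤ) →ₗ[ℤ] (Raag Γ × V →₀ ℤ) :=
  linearCombination ℤ fun p => if Desc p.1 (exSt p.1) then -e' p.1 (exSt p.1) else 0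

/-- The homotopy on edges. -/
noncomputable def exH1 : (Raag Γ × V →₀ ℤ) →ₗ[ℤ] (Raag Γ × Edge Γ →₀ ℤ) :=
  linearCombination ℤ fun p => -(sg (exSel p.1 p.2) •
    sq' (p.1 * (lo Γ (exSel p.1 p.2))⁻¹) (exSt (p.1 * (lo Γ (exSel p.1 p.2))⁻¹)) (exSel p.1 p.2))

/-- The homotopy on squares. -/
noncomputable def exH2 : (Raag Γ × Edge Γ →₀ ℤ) →ₗ[ℤ] (Raag Γ × Tri Γ →₀ ℤ) :=
  linearCombination ℤ fun p => -((sg (exSel p.1 p.2.1.1) * sg (exSel p.1 p.2.1.2)) •
    cube' (p.1 * (lo Γ (exSel p.1 p.2.1.2))⁻¹ * (lo Γ (exSel p.1 p.2.1.1))⁻¹)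
      (exSt (p.1 * (lo Γ (exSel p.1 p.2.1.2))⁻¹ * (lo Γ (exSel p.1 p.2.1.1))⁻¹))
      (exSel p.1 p.2.1.1) (exSel p.1 p.2.1.2))

/-- The filtration of 1-chains. -/
noncomputable def exF1 (n : ℕ) : Submodule ℤ (Raag Γ × V →₀ ℤ) :=
  Submodule.span ℤ {c | ∃ y a, Desc y a ∧ len y < n ∧ c = e' y a}

/-- The filtration of 2-chains. -/
noncomputable def exF2 (n : ℕ) : Submodule ℤ (Raag Γ × Edge Γ →₀ ℤ) :=
  Submodule.span ℤ {c | ∃ y a b, Desc y a ∧ Desc y b ∧ Γ.Adj a.1 b.1 ∧ len y < n ∧ c = sq' y a b}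

variable {Γ}

theorem exH1_e' {y : Raag Γ} {a : Letter} (h : Desc y a) :
    exH1 Γ (e' y a) = -sq' y (exSt y) a := by
  rw [e', map_smul, exH1, linearCombination_single, one_smul]
  simp only [exSel_lo h, mul_inv_cancel_right]
  rw [smul_neg, smul_smul, ex_sg_sq, one_smul]

theorem exH2_sq'_lt {y : Raag Γ} {a b : Letter} (ha : Desc y a) (hb : Desc y b)
    (h : Γ.Adj a.1 b.1) (hlt : a.1 < b.1) : exH2 Γ (sq' y a b) = -cube' y (exSt y) a b := by
  have h1 : exSel (y * lo Γ a * lo Γ b) a.1 = a := by rw [exSel_mul_lo _ h, exSel_lo ha]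
  have h2 : exSel (y * lo Γ a * lo Γ b) b.1 = b := by
    rw [mul_assoc, (ex_lo_comm h).eq, ← mul_assoc, exSel_mul_lo _ h.symm, exSel_lo hb]
  rw [sq', sq0, dif_pos ⟨hlt, h⟩, map_smul, exH2, linearCombination_single, one_smul]
  simp only [h1, h2, mul_inv_cancel_right]
  rw [smul_neg, smul_smul, mul_mul_mul_comm, ex_sg_sq, ex_sg_sq, one_mul, one_smul]

theorem exH2_sq' {y : Raag Γ} {a b : Letter} (ha : Desc y a) (hb : Desc y b)
    (h : Γ.Adj a.1 b.1) : exH2 Γ (sq' y a b) = -cube' y (exSt y) a b := by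
  rcases lt_or_gt_of_ne h.ne with hlt | hlt
  · exact exH2_sq'_lt ha hb h hlt
  · rw [sq'_swap y h.symm, map_neg, exH2_sq'_lt hb ha h.symm hlt, ex_cube_swap y _ h, neg_neg]

theorem exF1_mem {y : Raag Γ} {a : Letter} {n : ℕ} (ha : Desc y a) (hn : len y < n) :
    e' y a ∈ exF1 Γ n := Submodule.subset_span ⟨y, a, ha, hn, rfl⟩

theorem exF2_mem {y : Raag Γ} {a b : Letter} {n : ℕ} (ha : Desc y a) (hb : Desc y b)
    (hn : len y < n) : sq' y a b ∈ exF2 Γ n := by
  rcases desc_adj ha hb with rfl | h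
  · rw [sq'_self]; exact Submodule.zero_mem _
  · exact Submodule.subset_span ⟨y, a, b, ha, hb, h, hn, rfl⟩

theorem exH0_mem {y : Raag Γ} {n : ℕ} (hn : len y < n) :
    exH0 Γ (single (y, ()) 1) ∈ exF1 Γ n := by
  rw [exH0, linearCombination_single, one_smul]
  split_ifs with h
  · exact Submodule.neg_mem _ (exF1_mem h hn)
  · exact Submodule.zero_mem _

theorem exH0_desc {y : Raag Γ} {a : Letter} (h : Desc y a) :
    exH0 Γ (single (y, ()) 1) = -e' y (exSt y) := by
  rw [exH0, linearCombination_single, one_smul, if_pos (exSt_desc h)]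

theorem exT1 {y : Raag Γ} {a : Letter} {n : ℕ} (ha : Desc y a) (hn : len y < n + 1) :
    d2 Γ (exH1 Γ (e' y a)) + exH0 Γ (d1 Γ (e' y a)) - e' y a ∈ exF1 Γ n := by
  have hs := exSt_desc ha
  have la : len (y * lt Γ a) < n := by have := len_desc ha; omega
  have ls : len (y * lt Γ (exSt y)) < n := by have := len_desc hs; omega
  rw [exH1_e' ha, d1_e', map_sub, exH0_desc ha, map_neg]
  rcases desc_adj hs ha with h | h
  · rw [h, sq'_self, map_zero]
    convert exH0_mem la using 1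
    abel
  · rw [d2_sq' y h]
    have h1 := exF1_mem ((desc_mul_lt y h.symm).2 ha) ls
    have h2 := exF1_mem ((desc_mul_lt y h).2 hs) la
    convert Submodule.add_mem _ (Submodule.sub_mem _ h2 h1) (exH0_mem la) using 1
    abel

theorem exT2 {y : Raag Γ} {a b : Letter} {n : ℕ} (ha : Desc y a) (hb : Desc y b)
    (h : Γ.Adj a.1 b.1) (hn : len y < n + 1) :
    d3 Γ (exH2 Γ (sq' y a b)) + exH1 Γ (d2 Γ (sq' y a b)) - sq' y a b ∈ exF2 Γ n := by
  have hs := exSt_desc ha
  have la : len (y * lt Γ a) < n := by have := len_desc ha; omega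
  have lb : len (y * lt Γ b) < n := by have := len_desc hb; omega
  have ls : len (y * lt Γ (exSt y)) < n := by have := len_desc hs; omega
  have hab : Desc (y * lt Γ a) b := (desc_mul_lt y h.symm).2 hb
  have hba : Desc (y * lt Γ b) a := (desc_mul_lt y h).2 ha
  have m1 := exF2_mem (exSt_desc hab) hab la
  have m2 := exF2_mem (exSt_desc hba) hba lb
  rw [exH2_sq' ha hb h, d2_sq' y h, map_sub, map_sub, map_add, exH1_e' ha, exH1_e' hb,
    exH1_e' hab, exH1_e' hba, map_neg]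
  rcases desc_adj hs ha with h1 | h1
  · rw [h1, cube'_left, sq'_self, map_zero]
    convert Submodule.sub_mem _ m2 m1 using 1
    abel
  rcases desc_adj hs hb with h2 | h2
  · rw [h2, cube'_right, sq'_self, map_zero, sq'_swap y h]
    convert Submodule.sub_mem _ m2 m1 using 1
    abel
  rw [d3_cube' y h1 h h2]
  have m3 := exF2_mem ((desc_mul_lt y h1.symm).2 ha) ((desc_mul_lt y h2.symm).2 hb) ls
  have m4 := exF2_mem ((desc_mul_lt y h1).2 hs) hab la
  have m5 := exF2_mem ((desc_mul_lt y h2).2 hs) hba lb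
  convert Submodule.sub_mem _ (Submodule.sub_mem _ m2 m1)
    (Submodule.add_mem _ (Submodule.sub_mem _ m3 m4) m5) using 1
  abel

theorem ex_span_map {M : Type} [AddCommGroup M] (T : M →ₗ[ℤ] M) (S : Set M) (W : Submodule ℤ M)
    (h : ∀ c ∈ S, T c ∈ W) : ∀ c ∈ Submodule.span ℤ S, T c ∈ W :=
  fun _ hc => (Submodule.span_le (p := W.comap T)).2 h hc

end aux

variable (Γ : SimpleGraph V)

theorem exact0 : Function.Exact (d1 Γ) (aug (X := Raag Γ × Unit)) := by
  have h1 : ∀ y : Raag Γ, single (y, ()) (1 : ℤ) - single (1, ()) 1 ∈ LinearMap.range (d1 Γ) := by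
    intro y
    induction y using raag_ind with
    | h1 => rw [sub_self]; exact Submodule.zero_mem _
    | hs x a ih =>
      convert Submodule.add_mem _ (LinearMap.mem_range_self (d1 Γ) (e' x a)) ih using 1
      rw [d1_e']
      abel
  have h2 : ∀ c : Raag Γ × Unit →₀ ℤ,
      c - aug c • single (1, ()) 1 ∈ LinearMap.range (d1 Γ) := by
    intro c
    induction c using Finsupp.induction_linear with
    | zero => simp
    | add f g hf hg =>
      convert Submodule.add_mem _ hf hg using 1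
      rw [map_add, add_smul]
      abel
    | single x a =>
      convert Submodule.smul_mem _ a (h1 x.1) using 1
      rw [aug, linearCombination_single, smul_sub, smul_single, smul_eq_mul, mul_one]
      simp
  intro c
  refine ⟨fun hc => ?_, ?_⟩
  · have := h2 c
    rw [hc, zero_smul, sub_zero] at this
    exact this
  · rintro ⟨z, rfl⟩
    exact aug_d1 z

theorem exact1 : Function.Exact (d2 Γ) (d1 Γ) := by
  refine exact_of_filt (d2 Γ) (d1 Γ) (exH1 Γ) (exH0 Γ) (exF1 Γ) d1_d2 ?_ ?_ ?_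
  · rw [exF1, Submodule.span_eq_bot]
    rintro _ ⟨y, a, -, h, -⟩
    exact absurd h (Nat.not_lt_zero _)
  · refine exact_all _ (fun m n hmn => Submodule.span_mono ?_) ?_
    · rintro _ ⟨y, a, h1, h2, rfl⟩
      exact ⟨y, a, h1, h2.trans_le hmn, rfl⟩
    · rintro ⟨x, v⟩
      have := (exF1 Γ _).smul_mem (sg (exSel x v))
        (exF1_mem (exSel_desc x v) (Nat.lt_succ_self _))
      rw [e', smul_smul, ex_sg_sq, one_smul, inv_mul_cancel_right, exSel_fst] at this
      exact ⟨_, this⟩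
  · intro n
    refine ex_span_map (d2 Γ ∘ₗ exH1 Γ + exH0 Γ ∘ₗ d1 Γ - LinearMap.id) _ _ ?_
    rintro _ ⟨y, a, h1, h2, rfl⟩
    exact exT1 h1 h2

theorem exact2 : Function.Exact (d3 Γ) (d2 Γ) := by
  refine exact_of_filt (d3 Γ) (d2 Γ) (exH2 Γ) (exH1 Γ) (exF2 Γ) d2_d3 ?_ ?_ ?_
  · rw [exF2, Submodule.span_eq_bot]
    rintro _ ⟨y, a, b, -, -, -, h, -⟩
    exact absurd h (Nat.not_lt_zero _)
  · refine exact_all _ (fun m n hmn => Submodule.span_mono ?_) ?_
    · rintro _ ⟨y, a, b, h1, h2, h3, h4, rfl⟩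
      exact ⟨y, a, b, h1, h2, h3, h4.trans_le hmn, rfl⟩
    · rintro ⟨x, ⟨u, v⟩, huv, hadj⟩
      have hadj' : Γ.Adj (exSel x u).1 (exSel x v).1 := by rwa [exSel_fst, exSel_fst]
      have ha : Desc (x * (lo Γ (exSel x v))⁻¹ * (lo Γ (exSel x u))⁻¹) (exSel x u) := by
        rw [mul_assoc, ← (ex_lo_comm hadj').inv_inv.eq, ← mul_assoc, ex_desc_lo_inv _ hadj']
        exact exSel_desc x u
      have hb : Desc (x * (lo Γ (exSel x v))⁻¹ * (lo Γ (exSel x u))⁻¹) (exSel x v) := by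
        rw [ex_desc_lo_inv _ hadj'.symm]
        exact exSel_desc x v
      have := (exF2 Γ _).smul_mem (sg (exSel x u) * sg (exSel x v))
        (exF2_mem ha hb (Nat.lt_succ_self _))
      rw [sq', smul_smul, mul_mul_mul_comm, ex_sg_sq, ex_sg_sq, one_mul, one_smul,
        inv_mul_cancel_right, inv_mul_cancel_right, exSel_fst, exSel_fst, sq0,
        dif_pos ⟨huv, hadj⟩] at this
      exact ⟨_, this⟩
  · intro n
    refine ex_span_map (d3 Γ ∘ₗ exH2 Γ + exH1 Γ ∘ₗ d2 Γ - LinearMap.id) _ _ ?_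
    rintro _ ⟨y, a, b, h1, h2, h3, h4, rfl⟩
    exact exT2 h1 h2 h3 h4

end Crest.Agent.R197
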