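import Crest.Agent.R197.Cx

/-! Row 197: the 1-skeleton and edge words of paths. -/

set_option autoImplicit false

namespace Crest.Agent.R197

open scoped Topology unitInterval

namespace GCx
variable {G E : Type} [Group G] [TopologicalSpace E] [MulAction G E] (C : GCx G E)

theorem gba_vx_eq {g g' : G} {v v' : C.V} (h : g • C.vx v = g' • C.vx v') : g = g' ∧ v = v' := by
  have h1 : C.vx v = (g⁻¹ * g') • C.vx v' := by rw [mul_smul, ← h, inv_smul_smul]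
  obtain rfl := C.vx_inj _ _ _ h1
  exact ⟨inv_mul_eq_one.1 (C.free _ _ h1.symm), rfl⟩

theorem gba_ed_ne {g g' : G} {e : C.S} {s : I} {v : C.V} (h0 : s ≠ 0) (h1 : s ≠ 1) :
    g • C.ed e s ≠ g' • C.vx v := fun h =>
  C.ed_ne e s (g⁻¹ * g') v h0 h1 (by rw [mul_smul, ← h, inv_smul_smul])

theorem gba_ed_eq {g g' : G} {e e' : C.S} {s s' : I} (h0 : s ≠ 0) (h1 : s ≠ 1)
    (h : g • C.ed e s = g' • C.ed e' s') : g = g' ∧ e = e' ∧ s = s' := by
  have h2 : C.ed e s = (g⁻¹ * g') • C.ed e' s' := by rw [mul_smul, ← h, inv_smul_smul]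
  obtain ⟨rfl, rfl⟩ := C.ed_inj _ _ _ _ _ h0 h1 h2
  exact ⟨inv_mul_eq_one.1 (C.free _ _ h2.symm), rfl, rfl⟩

theorem gba_vx_inl {g : G} {v : C.V} {p : G × C.V} : g • C.vx v ∈ C.U (.inl p) ↔ p = (g, v) := by
  refine ⟨fun h => ?_, fun h => h ▸ Or.inl rfl⟩
  have key : g • C.vx v = p.1 • C.vx p.2 := by
    rcases h with h | ⟨e, t, he, ht, h⟩ | ⟨e, t, he, ht, h⟩
    · exact h
    · by_cases h0 : t = 0
      · rw [h, h0, C.ed0, he]
      · refine absurd h.symm (C.gba_ed_ne h0 ?_)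
        rintro rfl
        norm_num at ht
    · by_cases h1 : t = 1
      · rw [h, h1, C.ed1, he, smul_smul, inv_mul_cancel_right]
      · refine absurd h.symm (C.gba_ed_ne ?_ h1)
        rintro rfl
        norm_num at ht
  obtain ⟨h1, h2⟩ := C.gba_vx_eq key
  exact Prod.ext h1.symm h2.symm

theorem gba_vx_inr {g : G} {v : C.V} {p : G × C.S} : g • C.vx v ∉ C.U (.inr p) := by
  rintro ⟨t, h0, h1, h⟩
  exact C.gba_ed_ne h0 h1 h.symm

theorem gba_ed_inl {g : G} {e : C.S} {t : I} {p : G × C.V} :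
    g • C.ed e t ∈ C.U (.inl p) ↔ ((t : ℝ) < 1 / 2 ∧ p = (g, C.src e)) ∨
      (1 / 2 < (t : ℝ) ∧ p = (g * C.lab e, C.tgt e)) := by
  by_cases h0 : t = 0
  · rw [h0, C.ed0, gba_vx_inl]
    norm_num
  by_cases h1 : t = 1
  · rw [h1, C.ed1, smul_smul, gba_vx_inl]
    norm_num
  constructor
  · rintro (h | ⟨e', t', he, ht, h⟩ | ⟨e', t', he, ht, h⟩)
    · exact absurd h (C.gba_ed_ne h0 h1)
    · obtain ⟨rfl, rfl, rfl⟩ := C.gba_ed_eq h0 h1 h
      exact Or.inl ⟨ht, Prod.ext rfl he.symm⟩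
    · obtain ⟨rfl, rfl, rfl⟩ := C.gba_ed_eq h0 h1 h
      exact Or.inr ⟨ht, Prod.ext (inv_mul_cancel_right _ _).symm he.symm⟩
  · rintro (⟨ht, rfl⟩ | ⟨ht, rfl⟩)
    · exact Or.inr (Or.inl ⟨e, t, rfl, ht, rfl⟩)
    · exact Or.inr (Or.inr ⟨e, t, rfl, ht, by rw [mul_inv_cancel_right]⟩)

theorem gba_ed_inr {g : G} {e : C.S} {t : I} {p : G × C.S} :
    g • C.ed e t ∈ C.U (.inr p) ↔ t ≠ 0 ∧ t ≠ 1 ∧ p = (g, e) := by
  constructor
  · rintro ⟨t', h0, h1, h⟩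
    obtain ⟨h2, h3, rfl⟩ := C.gba_ed_eq h0 h1 h.symm
    exact ⟨h0, h1, Prod.ext h2 h3⟩
  · rintro ⟨h0, h1, rfl⟩
    exact ⟨t, h0, h1, rfl⟩

theorem smul_mem_sk1 (g : G) {y : E} (hy : y ∈ C.sk1) : g • y ∈ C.sk1 := by
  rcases hy with ⟨g', v, rfl⟩ | ⟨g', e, t, rfl⟩
  · exact Or.inl ⟨g * g', v, (mul_smul _ _ _).symm⟩
  · exact Or.inr ⟨g * g', e, t, (mul_smul _ _ _).symm⟩

theorem bd_mem (c : C.R) (s : I) : C.bd c s ∈ C.sk1 := by
  obtain ⟨A, B, h⟩ := C.fc_fin c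
  rcases h s with ⟨v, -, h⟩ | ⟨e, -, t, h⟩
  · exact Or.inl ⟨v.1, v.2, h⟩
  · exact Or.inr ⟨e.1, e.2, t, h⟩

theorem exists_U {y : E} (hy : y ∈ C.sk1) : ∃ i, y ∈ C.U i := by
  rcases hy with ⟨g, v, rfl⟩ | ⟨g, e, t, rfl⟩
  · exact ⟨.inl (g, v), C.gba_vx_inl.2 rfl⟩
  · by_cases h0 : t = 0
    · exact ⟨.inl _, C.gba_ed_inl.2 (Or.inl ⟨by rw [h0]; norm_num, rfl⟩)⟩
    by_cases h1 : t = 1
    · exact ⟨.inl _, C.gba_ed_inl.2 (Or.inr ⟨by rw [h1]; norm_num, rfl⟩)⟩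
    exact ⟨.inr _, C.gba_ed_inr.2 ⟨h0, h1, rfl⟩⟩

theorem U_subset (i : (G × C.V) ⊕ (G × C.S)) : C.U i ⊆ C.sk1 := by
  rcases i with p | p
  · rintro y (h | ⟨e, t, -, -, h⟩ | ⟨e, t, -, -, h⟩)
    · exact Or.inl ⟨_, _, h⟩
    · exact Or.inr ⟨_, _, _, h⟩
    · exact Or.inr ⟨_, _, _, h⟩
  · rintro y ⟨t, -, -, h⟩
    exact Or.inr ⟨_, _, _, h⟩

theorem U_inl_eq {p q : G × C.V} {y : E} (hp : y ∈ C.U (.inl p)) (hq : y ∈ C.U (.inl q)) :
    p = q := by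
  rcases C.U_subset _ hp with ⟨g, v, rfl⟩ | ⟨g, e, t, rfl⟩
  · rw [C.gba_vx_inl.1 hp, C.gba_vx_inl.1 hq]
  · rcases C.gba_ed_inl.1 hp with ⟨h1, rfl⟩ | ⟨h1, rfl⟩ <;>
      rcases C.gba_ed_inl.1 hq with ⟨h2, rfl⟩ | ⟨h2, rfl⟩
    · rfl
    · exact absurd h1 h2.not_gt
    · exact absurd h1 h2.not_gt
    · rfl

theorem U_inr_eq {p q : G × C.S} {y : E} (hp : y ∈ C.U (.inr p)) (hq : y ∈ C.U (.inr q)) :
    p = q := by
  obtain ⟨t, -, -, rfl⟩ := hp
  exact (C.gba_ed_inr.1 hq).2.2.symm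

/-- The preimage of a star or an open edge under an edge is open. -/
theorem isOpen_ed_U (g : G) (e : C.S) (i : (G × C.V) ⊕ (G × C.S)) :
    IsOpen {t : I | g • C.ed e t ∈ C.U i} := by
  rcases i with p | p
  · simp only [C.gba_ed_inl]
    exact ((isOpen_lt continuous_subtype_val continuous_const).inter isOpen_const).union
      ((isOpen_lt continuous_const continuous_subtype_val).inter isOpen_const)
  · simp only [C.gba_ed_inr]
    exact isOpen_ne.inter (isOpen_ne.inter isOpen_const)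

theorem k_ed (g : G) (e : C.S) {t : I} (h0 : t ≠ 0) (h1 : t ≠ 1) :
    C.k (.inr (g, e)) (g • C.ed e t) = if 1 / 2 < (t : ℝ) then (FreeGroup.of e)⁻¹ else 1 := by
  classical
  simp only [k]
  refine if_congr ⟨?_, fun h => ⟨t, h, h1, rfl⟩⟩ rfl rfl
  rintro ⟨t', h, -, h'⟩
  obtain ⟨-, -, rfl⟩ := C.gba_ed_eq h0 h1 h'
  exact h

theorem pos_inl {p : G × C.V} {y : E} (h : y ∈ C.U (.inl p)) : C.pos y = p.1 := by
  have h' : ∃ p : G × C.V, y ∈ C.U (.inl p) := ⟨p, h⟩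
  rw [pos, dif_pos h', C.U_inl_eq h'.choose_spec h]

theorem gba_pos_ed (g : G) (e : C.S) (t : I) :
    C.pos (g • C.ed e t) = if 1 / 2 < (t : ℝ) then g * C.lab e else g := by
  rcases lt_trichotomy (t : ℝ) (1 / 2) with h | h | h
  · rw [if_neg h.not_gt, C.pos_inl (C.gba_ed_inl.2 (Or.inl ⟨h, rfl⟩))]
  · have h1 : ¬ ∃ p : G × C.V, g • C.ed e t ∈ C.U (.inl p) := by
      rintro ⟨p, hp⟩
      rcases C.gba_ed_inl.1 hp with ⟨h1, -⟩ | ⟨h1, -⟩
      · exact h1.ne h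
      · exact h1.ne' h
    have h2 : g • C.ed e t ∈ C.U (.inr (g, e)) := by
      refine C.gba_ed_inr.2 ⟨?_, ?_, rfl⟩ <;> rintro rfl <;> norm_num at h
    have h3 : ∃ p : G × C.S, g • C.ed e t ∈ C.U (.inr p) := ⟨_, h2⟩
    rw [if_neg h.not_gt, pos, dif_neg h1, dif_pos h3, C.U_inr_eq h3.choose_spec h2]
  · rw [if_pos h, C.pos_inl (C.gba_ed_inl.2 (Or.inr ⟨h, rfl⟩))]

theorem pos_inr {p : G × C.S} {y : E} (h : y ∈ C.U (.inr p)) :
    C.pos y * C.π (C.k (.inr p) y) = p.1 := by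
  obtain ⟨g, e⟩ := p
  obtain ⟨t, h0, h1, rfl⟩ := h
  rw [C.gba_pos_ed, C.k_ed g e h0 h1]
  split_ifs <;> simp [π]

theorem pos_vx (g : G) (v : C.V) : C.pos (g • C.vx v) = g := by
  exact C.pos_inl (C.gba_vx_inl.2 rfl)

theorem pos_smul (g : G) {y : E} (hy : y ∈ C.sk1) : C.pos (g • y) = g * C.pos y := by
  rcases hy with ⟨g', v, rfl⟩ | ⟨g', e, t, rfl⟩
  · rw [smul_smul, C.pos_vx, C.pos_vx]
  · rw [smul_smul, C.gba_pos_ed, C.gba_pos_ed]
    split_ifs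
    · rw [mul_assoc]
    · rfl

variable [T2Space E] [ContinuousConstSMul G E]

omit [T2Space E] [ContinuousConstSMul G E] in
theorem gbB_eq_one {g : G} {c : C.R} {s r : I} (h : g • C.fc c (s, r) ∈ C.sk1) : r = 1 := by
  by_contra hr
  rcases h with ⟨g', v, h⟩ | ⟨g', e, t, h⟩
  · exact (C.fc_ne c s r (g⁻¹ * g') hr).1 v (by rw [mul_smul, ← h, inv_smul_smul])
  · exact (C.fc_ne c s r (g⁻¹ * g') hr).2 e t (by rw [mul_smul, ← h, inv_smul_smul])

omit [T2Space E] [ContinuousConstSMul G E] in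
theorem gbB_ed_mem (g : G) (e : C.S) (t : I) : g • C.ed e t ∈ C.sk1 := Or.inr ⟨g, e, t, rfl⟩

omit [T2Space E] [ContinuousConstSMul G E] in
theorem gbB_ed_inj {g g' : G} {e e' : C.S} {t t' : I} (h0 : t ≠ 0) (h1 : t ≠ 1)
    (h : g • C.ed e t = g' • C.ed e' t') : g = g' ∧ e = e' ∧ t = t' := by
  have h2 : C.ed e t = (g⁻¹ * g') • C.ed e' t' := by rw [mul_smul, ← h, inv_smul_smul]
  obtain ⟨rfl, rfl⟩ := C.ed_inj _ _ _ _ _ h0 h1 h2
  exact ⟨inv_mul_eq_one.1 (C.free _ _ h2.symm), rfl, rfl⟩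

omit [T2Space E] [ContinuousConstSMul G E] in
theorem gbB_fc_inj {g g' : G} {c c' : C.R} {s r s' r' : I} (h1 : r ≠ 1)
    (h : g • C.fc c (s, r) = g' • C.fc c' (s', r')) : g = g' ∧ c = c' ∧ r = r' ∧
      (r = 0 ∨ s = s' ∨ (s = 0 ∧ s' = 1) ∨ (s = 1 ∧ s' = 0)) := by
  have h2 : C.fc c (s, r) = (g⁻¹ * g') • C.fc c' (s', r') := by rw [mul_smul, ← h, inv_smul_smul]
  obtain ⟨rfl, rfl, h3⟩ := C.fc_inj _ _ _ _ _ _ _ h1 h2
  refine ⟨inv_mul_eq_one.1 (C.free _ (C.fc c (s', r)) (h2.symm.trans ?_)), rfl, rfl, h3⟩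
  rcases h3 with rfl | rfl | ⟨rfl, rfl⟩ | ⟨rfl, rfl⟩
  · rw [C.fc_zero c s, C.fc_zero c s']
  · rfl
  · exact C.fc_per c r
  · exact (C.fc_per c r).symm

/-- The weak topology of the 1-skeleton (`fc_fin`: on the boundary of a face `A` is a finite union
of compact sets). -/
theorem weak1 {A : Set E} (hA : A ⊆ C.sk1) (h : ∀ (g : G) e, IsClosed {t | g • C.ed e t ∈ A}) :
    IsClosed A := by
  classical
  refine C.weak A h fun g c => ?_
  obtain ⟨A₀, B, hAB⟩ := C.fc_fin c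
  let K : Set E := ((fun v : G × C.V => (g * v.1) • C.vx v.2) '' A₀ ∩ A) ∪
    ⋃ e ∈ B, (fun t => (g * e.1) • C.ed e.2 t) '' {t | (g * e.1) • C.ed e.2 t ∈ A}
  have hK : IsClosed K := by
    refine IsClosed.union ((A₀.finite_toSet.image _).inter_of_left _).isClosed ?_
    refine isClosed_biUnion_finset fun e _ => IsCompact.isClosed ?_
    exact (h _ _).isCompact.image ((C.ed e.2).continuous.const_smul _)
  have hKA : K ⊆ A := by
    rintro y (hy | hy)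
    · exact hy.2
    · simp only [Set.mem_iUnion] at hy
      obtain ⟨e, -, t, ht, rfl⟩ := hy
      exact ht
  have e : {z | g • C.fc c z ∈ A} = (fun z => g • C.fc c z) ⁻¹' K := by
    refine Set.Subset.antisymm ?_ fun z hz => hKA hz
    rintro ⟨s, r⟩ hz
    obtain rfl : r = 1 := C.gbB_eq_one (hA hz)
    change g • C.fc c (s, 1) ∈ A at hz
    change g • C.fc c (s, 1) ∈ K
    rcases hAB s with ⟨v, hv, e⟩ | ⟨e, he, t, ht⟩
    · exact Or.inl ⟨⟨v, hv, by rw [e]; exact mul_smul _ _ _⟩, hz⟩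
    · rw [ht, ← mul_smul] at hz ⊢
      exact Or.inr (Set.mem_biUnion he ⟨t, hz, rfl⟩)
  rw [e]
  exact hK.preimage ((C.fc c).continuous.const_smul g)

theorem isClosed_sk1 : IsClosed C.sk1 := by
  refine C.weak1 subset_rfl fun g e => ?_
  rw [Set.eq_univ_of_forall (s := {t | g • C.ed e t ∈ C.sk1}) fun t => C.gbB_ed_mem g e t]
  exact isClosed_univ

/-- Open sets of the 1-skeleton. -/
theorem open1 {B : Set E} (h : ∀ (g : G) e, IsOpen {t | g • C.ed e t ∈ B}) :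
    IsOpen (B ∪ C.sk1ᶜ) := by
  rw [← isClosed_compl_iff, Set.compl_union, compl_compl]
  refine C.weak1 Set.inter_subset_right fun g e => ?_
  have : {t | g • C.ed e t ∈ Bᶜ ∩ C.sk1} = {t | g • C.ed e t ∈ B}ᶜ :=
    Set.ext fun t => ⟨fun h => h.1, fun h => ⟨h, C.gbB_ed_mem g e t⟩⟩
  rw [this]
  exact (h g e).isClosed_compl

theorem contOn1 {Z : Type} [TopologicalSpace Z] {B : Set E} {f : E → Z}
    (h : ∀ (g : G) e, IsOpen {t | g • C.ed e t ∈ B})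
    (hf : ∀ (g : G) e, ContinuousOn (fun t => f (g • C.ed e t)) {t | g • C.ed e t ∈ B}) :
    ContinuousOn f (B ∩ C.sk1) := by
  refine continuousOn_iff'.2 fun W hW => ⟨(B ∩ f ⁻¹' W) ∪ C.sk1ᶜ, C.open1 fun g e => ?_, ?_⟩
  · exact (hf g e).isOpen_inter_preimage (h g e) hW
  · ext y
    simp only [Set.mem_inter_iff, Set.mem_union, Set.mem_compl_iff]
    tauto

theorem contOn2 {Z : Type} [TopologicalSpace Z] {B : Set E} {f : E → Z} (hB : IsOpen B)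
    (hf : ∀ (g : G) e, ContinuousOn (fun t => f (g • C.ed e t)) {t | g • C.ed e t ∈ B})
    (hf' : ∀ (g : G) c, ContinuousOn (fun z => f (g • C.fc c z)) {z | g • C.fc c z ∈ B}) :
    ContinuousOn f B := by
  refine (continuousOn_open_iff hB).2 fun W hW => ?_
  rw [← isClosed_compl_iff]
  refine C.weak _ (fun g e => ?_) fun g c => ?_
  · exact ((hf g e).isOpen_inter_preimage
      (hB.preimage ((C.ed e).continuous.const_smul g)) hW).isClosed_compl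
  · exact ((hf' g c).isOpen_inter_preimage
      (hB.preimage ((C.fc c).continuous.const_smul g)) hW).isClosed_compl

theorem gbB_open {Z : Type} [TopologicalSpace Z] {f : Z → E} (hf : Continuous f)
    (h : ∀ z, f z ∈ C.sk1) {B : Set E} (hB : ∀ (g : G) e, IsOpen {t | g • C.ed e t ∈ B}) :
    IsOpen (f ⁻¹' B) := by
  have : f ⁻¹' B = f ⁻¹' (B ∪ C.sk1ᶜ) :=
    Set.ext fun z => ⟨Or.inl, fun hz => hz.resolve_right fun h' => h' (h z)⟩
  rw [this]
  exact (C.open1 hB).preimage hf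

theorem gbB_open_ed {Z : Type} [TopologicalSpace Z] {f : Z → E} (hf : Continuous f)
    (h : ∀ z, f z ∈ C.sk1) (g : G) (e : C.S) {O : Set I} (hO : IsOpen O)
    (h0 : ∀ t ∈ O, t ≠ 0 ∧ t ≠ 1) : IsOpen (f ⁻¹' ((fun t => g • C.ed e t) '' O)) := by
  refine C.gbB_open hf h fun g' e' => ?_
  have : {t | g' • C.ed e' t ∈ (fun t => g • C.ed e t) '' O} = {_t | g = g' ∧ e = e'} ∩ O := by
    ext t
    constructor
    · rintro ⟨t', ht', h'⟩
      obtain ⟨rfl, rfl, rfl⟩ := C.gbB_ed_inj (h0 _ ht').1 (h0 _ ht').2 h'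
      exact ⟨⟨rfl, rfl⟩, ht'⟩
    · rintro ⟨⟨rfl, rfl⟩, ht⟩
      exact ⟨t, ht, rfl⟩
  rw [this]
  exact isOpen_const.inter hO

theorem gbB_k_ev {Z : Type} [TopologicalSpace Z] {f : Z → E} (hf : Continuous f)
    (h : ∀ z, f z ∈ C.sk1) {p : G × C.V} {q : G × C.S} {z : Z} (hp : f z ∈ C.U (.inl p))
    (hq : f z ∈ C.U (.inr q)) : ∀ᶠ z' in 𝓝 z, C.k (.inr q) (f z') = C.k (.inr q) (f z) := by
  obtain ⟨g, e⟩ := q
  obtain ⟨t, h0, h1, ht⟩ := hq
  change f z = g • C.ed e t at ht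
  have hne : (t : ℝ) ≠ 1 / 2 := by
    rcases hp with hp | ⟨e', t', -, h2, hp⟩ | ⟨e', t', -, h2, hp⟩
    · exact absurd (by rw [mul_smul, ← hp, ht, inv_smul_smul])
        (C.ed_ne e t (g⁻¹ * p.1) p.2 h0 h1)
    · obtain ⟨-, -, rfl⟩ := C.gbB_ed_inj h0 h1 (ht.symm.trans hp)
      exact h2.ne
    · obtain ⟨-, -, rfl⟩ := C.gbB_ed_inj h0 h1 (ht.symm.trans hp)
      exact h2.ne'
  have hO : IsOpen {t : I | t ≠ 0 ∧ t ≠ 1} := isOpen_ne.inter isOpen_ne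
  rcases hne.lt_or_gt with hlt | hlt
  · have := C.gbB_open_ed hf h g e (O := {t : I | t ≠ 0 ∧ t ≠ 1} ∩ {t | (t : ℝ) < 1 / 2})
      (hO.inter (isOpen_lt continuous_subtype_val continuous_const)) fun t ht => ht.1
    filter_upwards [this.mem_nhds ⟨t, ⟨⟨h0, h1⟩, hlt⟩, ht.symm⟩]
    rintro z' ⟨t', ⟨⟨h0', h1'⟩, hlt'⟩, ht'⟩
    rw [← ht', ht, C.k_ed g e h0 h1, C.k_ed g e h0' h1', if_neg (not_lt.2 hlt.le),
      if_neg (not_lt.2 (le_of_lt hlt'))]
  · have := C.gbB_open_ed hf h g e (O := {t : I | t ≠ 0 ∧ t ≠ 1} ∩ {t | 1 / 2 < (t : ℝ)})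
      (hO.inter (isOpen_lt continuous_const continuous_subtype_val)) fun t ht => ht.1
    filter_upwards [this.mem_nhds ⟨t, ⟨⟨h0, h1⟩, hlt⟩, ht.symm⟩]
    rintro z' ⟨t', ⟨⟨h0', h1'⟩, hlt'⟩, ht'⟩
    rw [← ht', ht, C.k_ed g e h0 h1, C.k_ed g e h0' h1', if_pos hlt,
      if_pos (show 1 / 2 < (t' : ℝ) from hlt')]

/-- The pull-back of the tautological data along a map into the 1-skeleton. -/
theorem cocyc1 {Z : Type} [TopologicalSpace Z] {f : Z → E} (hf : Continuous f)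
    (h : ∀ z, f z ∈ C.sk1) : Cocyc (fun i => f ⁻¹' C.U i) fun i z => C.k i (f z) := by
  refine ⟨fun i => C.gbB_open hf h fun g e => C.isOpen_ed_U g e i, fun z => C.exists_U (h z), ?_⟩
  rintro (p | p) (q | q) z hp hq
  · exact Filter.Eventually.of_forall fun _ => rfl
  · filter_upwards [C.gbB_k_ev hf h hp hq] with z' hz'
    rw [hz']
    rfl
  · filter_upwards [C.gbB_k_ev hf h hq hp] with z' hz'
    rw [hz']
    rfl
  · obtain rfl := C.U_inr_eq hp hq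
    exact Filter.Eventually.of_forall fun _ => by rw [inv_mul_cancel, inv_mul_cancel]

theorem exists_fr {γ : C(I, E)} (h : ∀ t, γ t ∈ C.sk1) : ∃ F, C.Fr γ F := by
  obtain ⟨F, h1, h2⟩ := exists_frame_I (C.cocyc1 γ.continuous h)
  exact ⟨F, h, h2, h1⟩

/-- The colour class of a union of path components of the 1-skeleton. -/
def gbB_col (P : Set E) : Set E :=
  P ∪ {y | ∃ (g : G) (c : C.R) (z : I × I), y = g • C.fc c z ∧ g • C.bd c 0 ∈ P}

omit [T2Space E] [ContinuousConstSMul G E] in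
theorem gbB_joined {γ : I → E} (hγ : Continuous γ) (h : ∀ t, γ t ∈ C.sk1) (s t : I) :
    JoinedIn C.sk1 (γ s) (γ t) := by
  have : PathConnectedSpace I := isPathConnected_iff_pathConnectedSpace.1
    ((convex_Icc (0 : ℝ) 1).isPathConnected ⟨0, by simp⟩)
  exact ((isPathConnected_range hγ).joinedIn _ ⟨s, rfl⟩ _ ⟨t, rfl⟩).mono
    (Set.range_subset_iff.2 h)

omit [T2Space E] in
theorem gbB_joined_bd (g : G) (c : C.R) (s t : I) :
    JoinedIn C.sk1 (g • C.bd c s) (g • C.bd c t) :=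
  C.gbB_joined (γ := fun s => g • C.bd c s) ((C.bd c).continuous.const_smul g)
    (fun s => C.smul_mem_sk1 g (C.bd_mem c s)) s t

omit [T2Space E] in
theorem gbB_col_sk1 {P : Set E} (hPs : ∀ a ∈ P, ∀ b, JoinedIn C.sk1 a b → b ∈ P) {y : E}
    (hy : y ∈ C.sk1) : y ∈ C.gbB_col P ↔ y ∈ P := by
  refine ⟨?_, Or.inl⟩
  rintro (h | ⟨g, c, ⟨s, r⟩, rfl, h⟩)
  · exact h
  · obtain rfl := C.gbB_eq_one hy
    exact hPs _ h _ (C.gbB_joined_bd g c 0 s)

omit [T2Space E] in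
theorem gbB_col_fc {P : Set E} (hP : P ⊆ C.sk1)
    (hPs : ∀ a ∈ P, ∀ b, JoinedIn C.sk1 a b → b ∈ P) (g : G) (c : C.R) (z : I × I) :
    g • C.fc c z ∈ C.gbB_col P ↔ g • C.bd c 0 ∈ P := by
  refine ⟨fun h => ?_, fun h => Or.inr ⟨g, c, z, rfl, h⟩⟩
  obtain ⟨s, r⟩ := z
  by_cases hr : r = 1
  · subst hr
    exact hPs _ ((C.gbB_col_sk1 hPs (C.smul_mem_sk1 g (C.bd_mem c s))).1 h) _
      (C.gbB_joined_bd g c s 0)
  · rcases h with h | ⟨g', c', ⟨s', r'⟩, h, h'⟩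
    · exact absurd (C.gbB_eq_one (hP h)) hr
    · obtain ⟨rfl, rfl, -⟩ := C.gbB_fc_inj hr h
      exact h'

omit [T2Space E] in
theorem gbB_col_closed {P : Set E} (hP : P ⊆ C.sk1)
    (hPs : ∀ a ∈ P, ∀ b, JoinedIn C.sk1 a b → b ∈ P) : IsClosed (C.gbB_col P) := by
  refine C.weak _ (fun g e => ?_) fun g c => ?_
  · have hj := C.gbB_joined (γ := fun t => g • C.ed e t) ((C.ed e).continuous.const_smul g)
      (C.gbB_ed_mem g e)
    have : {t | g • C.ed e t ∈ C.gbB_col P} = {_t | g • C.ed e 0 ∈ P} := by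
      ext t
      rw [Set.mem_ofPred_eq, C.gbB_col_sk1 hPs (C.gbB_ed_mem g e t)]
      exact ⟨fun h => hPs _ h _ (hj t 0), fun h => hPs _ h _ (hj 0 t)⟩
    rw [this]
    exact isClosed_const
  · have : {z | g • C.fc c z ∈ C.gbB_col P} = {_z | g • C.bd c 0 ∈ P} :=
      Set.ext fun z => C.gbB_col_fc hP hPs g c z
    rw [this]
    exact isClosed_const

/-- Colour every point by the path component in `sk1` of the point (for `y ∈ sk1`), or of the
boundary of its face; colour classes are closed and open by `weak`. -/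
theorem sk1_joined [PathConnectedSpace E] {y y' : E} (hy : y ∈ C.sk1) (hy' : y' ∈ C.sk1) :
    JoinedIn C.sk1 y y' := by
  let P : Set E := {z | JoinedIn C.sk1 y z}
  have hP : P ⊆ C.sk1 := fun z hz => JoinedIn.target_mem hz
  have hPs : ∀ a ∈ P, ∀ b, JoinedIn C.sk1 a b → b ∈ P := fun a ha b hb => JoinedIn.trans ha hb
  have hQs : ∀ a ∈ C.sk1 \ P, ∀ b, JoinedIn C.sk1 a b → b ∈ C.sk1 \ P := fun a ha b hb =>
    ⟨hb.target_mem, fun h => ha.2 (hPs b h a hb.symm)⟩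
  have hc : (C.gbB_col P)ᶜ = C.gbB_col (C.sk1 \ P) := by
    ext z
    rw [Set.mem_compl_iff]
    by_cases hz : z ∈ C.sk1
    · rw [C.gbB_col_sk1 hPs hz, C.gbB_col_sk1 hQs hz]
      exact ⟨fun h => ⟨hz, h⟩, fun h => h.2⟩
    · rcases C.cover z with h | h | ⟨g, c, w, rfl⟩
      · exact absurd (Or.inl h) hz
      · exact absurd (Or.inr h) hz
      · rw [C.gbB_col_fc hP hPs, C.gbB_col_fc Set.sdiff_subset hQs]
        exact ⟨fun h => ⟨C.smul_mem_sk1 g (C.bd_mem c 0), h⟩, fun h => h.2⟩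
  have hcl : IsClopen (C.gbB_col P) := by
    refine ⟨C.gbB_col_closed hP hPs, ?_⟩
    rw [← isClosed_compl_iff, hc]
    exact C.gbB_col_closed Set.sdiff_subset hQs
  have := hcl.eq_univ ⟨y, Or.inl (JoinedIn.refl hy)⟩
  exact (C.gbB_col_sk1 hPs hy').1 (this ▸ Set.mem_univ _)

omit [T2Space E] [ContinuousConstSMul G E] in
theorem nonempty_V [Nonempty E] : Nonempty C.V := by
  obtain ⟨y⟩ : Nonempty E := inferInstance
  rcases C.cover y with ⟨-, v, -⟩ | ⟨-, e, -⟩ | ⟨-, c, -⟩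
  · exact ⟨v⟩
  · exact ⟨C.src e⟩
  · rcases C.bd_mem c 0 with ⟨-, v, -⟩ | ⟨-, e, -⟩
    · exact ⟨v⟩
    · exact ⟨C.src e⟩

variable {C}

omit [T2Space E] in
theorem Fr.sm {γ : C(I, E)} {F : I → FreeGroup C.S} (h : C.Fr γ F) (g : G) :
    C.Fr (sm g γ) F := by
  refine ⟨fun t => C.smul_mem_sk1 g (h.1 t), h.2.1, fun i t ht => ?_⟩
  change g • γ t ∈ C.U i at ht
  change ∀ᶠ t' in 𝓝 t, F t' * C.k i (g • γ t') = F t * C.k i (g • γ t)
  rcases i with ⟨a, v⟩ | ⟨a, e⟩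
  · refine h.2.2 (.inl (g⁻¹ * a, v)) t ?_
    change γ t ∈ C.U (.inl (g⁻¹ * a, v))
    rcases ht with ht | ⟨e, s, he, hs, ht⟩ | ⟨e, s, he, hs, ht⟩
    · exact Or.inl (by rw [mul_smul, ← ht, inv_smul_smul])
    · exact Or.inr (Or.inl ⟨e, s, he, hs, by rw [mul_smul, ← ht, inv_smul_smul]⟩)
    · exact Or.inr (Or.inr ⟨e, s, he, hs, by rw [mul_assoc, mul_smul, ← ht, inv_smul_smul]⟩)
  · have hk : ∀ y, C.k (.inr (a, e)) (g • y) = C.k (.inr (g⁻¹ * a, e)) y := by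
      intro y
      classical
      simp only [k]
      refine if_congr (exists_congr fun s => ?_) rfl rfl
      rw [mul_smul, eq_inv_smul_iff]
    simp only [hk]
    refine h.2.2 (.inr (g⁻¹ * a, e)) t ?_
    obtain ⟨s, h0, h1, ht⟩ := ht
    exact ⟨s, h0, h1, by rw [mul_smul, ← ht, inv_smul_smul]⟩

/-- `t ↦ pos (γ t) * (π (F t))⁻¹` is locally constant (`cocyc1`, `pos_inl`, `pos_inr`). -/
theorem Fr.pos {γ : C(I, E)} {F : I → FreeGroup C.S} (h : C.Fr γ F) (t : I) :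
    C.pos (γ t) = C.pos (γ 0) * C.π (F t) := by
  have hc := C.cocyc1 γ.continuous h.1
  have key : ∀ i, ∃ g, ∀ y ∈ C.U i, C.pos y * C.π (C.k i y) = g := by
    rintro (p | p)
    · exact ⟨p.1, fun y hy => by
        rw [C.pos_inl hy]
        change _ * C.π 1 = _
        rw [map_one, mul_one]⟩
    · exact ⟨p.1, fun y hy => C.pos_inr hy⟩
  have := const_of_eventually (f := fun t => C.pos (γ t) * (C.π (F t))⁻¹) (fun z => ?_) t 0
  · simp only [h.2.1, map_one, inv_one, mul_one] at this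
    rw [← this, inv_mul_cancel_right]
  · obtain ⟨i, hi⟩ := hc.2.1 z
    obtain ⟨g, hg⟩ := key i
    filter_upwards [h.2.2 i z hi, (hc.1 i).mem_nhds hi] with w h1 h2
    calc C.pos (γ w) * (C.π (F w))⁻¹
        = (C.pos (γ w) * C.π (C.k i (γ w))) * (C.π (F w * C.k i (γ w)))⁻¹ := by
          rw [map_mul]; group
      _ = (C.pos (γ z) * C.π (C.k i (γ z))) * (C.π (F z * C.k i (γ z)))⁻¹ := by
          rw [hg _ h2, hg _ hi, h1]
      _ = _ := by rw [map_mul]; group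

omit [T2Space E] [ContinuousConstSMul G E] in
/-- `F t = if 1/2 < t then of e else 1`; at `t = 1/2` the only chart is the open edge. -/
theorem fr_ed (e : C.S) : ∃ F, C.Fr (C.ed e) F ∧ F 1 = FreeGroup.of e := by
  refine ⟨fun t => if 1 / 2 < (t : ℝ) then FreeGroup.of e else 1,
    ⟨fun t => Or.inr ⟨1, e, t, (one_smul _ _).symm⟩, by norm_num, fun i t ht => ?_⟩, by norm_num⟩
  have ht' : (1 : G) • C.ed e t ∈ C.U i := by rwa [one_smul]
  rcases i with p | p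
  · rcases C.gba_ed_inl.1 ht' with ⟨h, -⟩ | ⟨h, -⟩
    · filter_upwards [(isOpen_lt continuous_subtype_val continuous_const).mem_nhds h] with s hs
      simp only [k, if_neg h.not_gt, if_neg (lt_asymm hs)]
    · filter_upwards [(isOpen_lt continuous_const continuous_subtype_val).mem_nhds h] with s hs
      simp only [k, if_pos h, if_pos hs]
  · obtain ⟨h0, h1, rfl⟩ := C.gba_ed_inr.1 ht'
    have key : ∀ s : I, s ≠ 0 → s ≠ 1 → (if 1 / 2 < (s : ℝ) then FreeGroup.of e else 1) *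
        C.k (.inr (1, e)) (C.ed e s) = 1 := by
      intro s h0 h1
      have := C.k_ed 1 e h0 h1
      rw [one_smul] at this
      rw [this]
      split_ifs <;> simp
    filter_upwards [isOpen_ne.mem_nhds h0, isOpen_ne.mem_nhds h1] with s hs0 hs1
    rw [key s hs0 hs1, key t h0 h1]

end GCx

end Crest.Agent.R197
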