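import Crest.Agent.R197.Centre

/-! Row 197: far apart 2-cells in the scaled triangles. -/

set_option autoImplicit false

namespace Crest.Agent.R197

open scoped Quaternion

/-- The vector `x a + y b + z c`. -/
def geomVec {Γ : SimpleGraph V} (t : Tri Γ) (x y z : ℤ) : V → ℤ :=
  Pi.single t.a x + Pi.single t.b y + Pi.single t.c z

theorem geom_vec_a {Γ : SimpleGraph V} (t : Tri Γ) (x y z : ℤ) : geomVec t x y z t.a = x := by
  simp [geomVec, t.ab.ne, t.ac.ne]

theorem geom_vec_b {Γ : SimpleGraph V} (t : Tri Γ) (x y z : ℤ) : geomVec t x y z t.b = y := by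
  simp [geomVec, t.ab.ne', t.bc.ne]

theorem geom_vec_c {Γ : SimpleGraph V} (t : Tri Γ) (x y z : ℤ) : geomVec t x y z t.c = z := by
  simp [geomVec, t.ac.ne', t.bc.ne']

theorem geom_vec_ne {Γ : SimpleGraph V} (t : Tri Γ) (x y z : ℤ) (v : V)
    (h : geomVec t x y z v ≠ 0) : v = t.a ∨ v = t.b ∨ v = t.c := by
  by_contra hc
  push Not at hc
  apply h
  simp [geomVec, hc.1, hc.2.1, hc.2.2]

theorem geom_match {Γ : SimpleGraph V} (t t' : Tri Γ) (x y z x' y' z' N : ℤ) (hx : N < x')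
    (hy : N < y') (hz : N < z')
    (h : ∀ v, |geomVec t x y z v - geomVec t' x' y' z' v| ≤ N) :
    t = t' ∧ |y - y'| ≤ N ∧ |z - z'| ≤ N := by
  have key : ∀ v, N < geomVec t' x' y' z' v → v = t.a ∨ v = t.b ∨ v = t.c := by
    intro v hv
    refine geom_vec_ne t x y z v fun h0 => ?_
    have := h v
    rw [h0, abs_le] at this
    omega
  have h1 := key t'.a (by rwa [geom_vec_a])
  have h2 := key t'.b (by rwa [geom_vec_b])
  have h3 := key t'.c (by rwa [geom_vec_c])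
  have e : t = t' := by
    have a1 := t.ab
    have a2 := t.bc
    have a3 := t'.ab
    have a4 := t'.bc
    have : t.a = t'.a ∧ t.b = t'.b ∧ t.c = t'.c := by
      simp only [Fin.ext_iff, Fin.lt_def] at *
      omega
    exact Subtype.ext (Prod.ext this.1 (Prod.ext this.2.1 this.2.2))
  subst e
  refine ⟨rfl, ?_, ?_⟩
  · have := h t.b
    rwa [geom_vec_b, geom_vec_b] at this
  · have := h t.c
    rwa [geom_vec_c, geom_vec_c] at this

theorem geom_pos {L : LData} {G : Type} [Group G] (B : BB L G) (s : ℕ) (t : Tri L.Γ) (i k : ℕ)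
    (x : G) (v : V) :
    Multiplicative.toAdd (B.θ (B.P s t.a * B.q t.a t.b ^ i * B.q t.a t.c ^ k * x)) v +
        (Pi.single L.root (s : ℤ) : V → ℤ) v =
      geomVec t (s - i - k) i k v + Multiplicative.toAdd (B.θ x) v := by
  simp only [map_mul, map_pow, toAdd_mul, toAdd_pow, B.θP, B.θq, geomVec, Pi.add_apply,
    Pi.sub_apply, Pi.smul_apply, Pi.single_apply]
  simp only [nsmul_eq_mul]
  split_ifs <;> ring

theorem geom_bound {ι G R : Type} [Fintype ι] (f : G → V → ℤ) (K : ι → Finset (G × R)) :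
    ∃ N : ℕ, ∀ t, ∀ c ∈ K t, ∀ v, |f c.1 v| ≤ N := by
  refine ⟨Finset.univ.sup fun t => (K t).sup fun c => Finset.univ.sup fun v => (f c.1 v).natAbs,
    fun t c hc v => ?_⟩
  rw [← Int.natCast_natAbs]
  exact_mod_cast (Finset.le_sup (f := fun v => (f c.1 v).natAbs) (Finset.mem_univ v)).trans
    ((Finset.le_sup (f := fun c : G × R => Finset.univ.sup fun v => (f c.1 v).natAbs) hc).trans
      (Finset.le_sup (f := fun t => (K t).sup fun c => Finset.univ.sup
        fun v => (f c.1 v).natAbs) (Finset.mem_univ t)))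

theorem geom_conj (y x : U) : ‖((y * x * y⁻¹ : U) : ℍ) - 1‖ = ‖(x : ℍ) - 1‖ := by
  have h1 : ((y * x * y⁻¹ : U) : ℍ) - 1 = (y : ℍ) * ((x : ℍ) - 1) * ((y⁻¹ : U) : ℍ) := by
    have h2 : (y : ℍ) * ((y⁻¹ : U) : ℍ) = 1 := by
      rw [← Metric.unitSphere.coe_mul, mul_inv_cancel, Metric.unitSphere.coe_one]
    rw [Metric.unitSphere.coe_mul, Metric.unitSphere.coe_mul, mul_sub, sub_mul, mul_one, h2]
  rw [h1, norm_mul, norm_mul, norm_eq_of_mem_sphere y, norm_eq_of_mem_sphere y⁻¹, one_mul,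
    mul_one]

theorem geom_shift {G : Type} [Group G] (P : Pres G) {Q : Type} [Group Q] (σ : G → P.S → Q)
    (x : G) (w : FreeGroup P.S) : hol P.π σ x w = hol P.π (fun y => σ (x * y)) 1 w := by
  rw [← hol_shift, mul_one]

theorem geom_curv {G : Type} [Group G] (P : Pres G) {Q : Type} [Group Q] (σ : G → P.S → Q)
    (x : G) (c : G × P.R) : P.curv (fun y => σ (x * y)) c = P.curv σ (x * c.1, c.2) :=
  (hol_shift P.π σ x c.1 _).symm

/-- Notation: `s = (M+1) R`; the triangle `t` is read from `B.P s t.a`, with sides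
`α = e a b`, `β = e a c`, `γ = e b c`; box `j` is the `R × R` square at `B.P s t.a * (π α)^(jR)`.

Proof.  Constants (maxima over the finitely many `t`): `N₀` from `centre`; `N₁` bounds `θ` on the
cells of fillings (`exists_fills`) of `rect α β 1 1` and `tri α β γ 1`; `m > N₀ + N₁`;
`(K₂, κ₂, C)` fills `rect α β (2m) (2m)`, `h t ∈ K₂` from `centre`; `N₃` bounds `θ` on `K₂`;
`H > N₃ + N₀ + N₁`, `R = 2H + 2m`.  Put `g t j = B.P s t.a * (π α)^(jR+H) * (π β)^H` and
`d (t, j) = (g t j * (h t).1, (h t).2)`.  The vector `θ (d (t,j)).1 + s • single root 1` is within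
`N₀` of `(s - (j+1) R) a + (jR + H + m) b + (H + m) c`, all three coefficients `≥ R/2`; the unit
piece at `(i,k)` of `t'` sits at `(s - i - k) a' + i b' + k c'`.  So translated fillings of unit
pieces of `t'` outside the patches `[jR+H, jR+H+2m) × [H, H+2m)` avoid all `d`, and
`g t j • K₂` contains no `d (t', j')` other than `d (t, j)`.  `K` is the union of all these
translates.  Use `tri_strip`, `patch`, `hol_shift`, `Fills.add`, `Fills.lin`, `norm_cw`
(`1 ≤ |κ₂ (h t)|`). -/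
theorem geom (L : LData) {G : Type} [Group G] (B : BB L G) (P : Pres G)
    (e : V → V → FreeGroup P.S) (he : ∀ a b, P.π (e a b) = B.q a b) :
    ∃ (R : ℕ) (C : ℝ), 0 ≤ C ∧ ∀ M : ℕ, ∃ (d : Tri L.Γ × Fin M → G × P.R)
      (K : Finset (G × P.R)), Function.Injective d ∧
      (∀ (Q : Type) [Group Q] (σ : G → P.S → Q),
        (∀ c ∈ K, c ∉ Set.range d → P.curv σ c = 1) → ∀ t : Tri L.Γ,
          hol P.π σ (B.P ((M + 1) * R) t.a) (tri (e t.a t.b) (e t.a t.c) (e t.b t.c) ((M + 1) * R))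
            = hol P.π σ (B.P ((M + 1) * R) t.a) (rect (e t.a t.b) (e t.a t.c) (M * R) R)) ∧
      (∀ ξ : G → P.S → ℝ, (∀ c ∈ K, c ∉ Set.range d → P.acurv ξ c = 0) →
        ∀ (t : Tri L.Γ) (j : Fin M),
          ahol P.π ξ (B.P ((M + 1) * R) t.a * B.q t.a t.b ^ (j.val * R))
            (rect (e t.a t.b) (e t.a t.c) R R) = 0 → P.acurv ξ (d (t, j)) = 0) ∧
      (∀ σ : G → P.S → U, (∀ c ∈ K, c ∉ Set.range d → P.curv σ c = 1) →
        ∀ (t : Tri L.Γ) (j : Fin M), ‖((P.curv σ (d (t, j)) : U) : ℍ) - 1‖ ≤ 1 →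
          ‖((P.curv σ (d (t, j)) : U) : ℍ) - 1‖ ≤
            ‖((hol P.π σ (B.P ((M + 1) * R) t.a * B.q t.a t.b ^ (j.val * R))
              (rect (e t.a t.b) (e t.a t.c) R R) : U) : ℍ) - 1‖ +
            C * ‖((P.curv σ (d (t, j)) : U) : ℍ) - 1‖ ^ 2) := by
  classical
  obtain ⟨z, hz⟩ : ∃ z : G → FreeGroup P.S, ∀ h, P.π (z h) = h := ⟨_, fun h => (P.surj h).choose_spec⟩
  have hc : ∀ t : Tri L.Γ, Commute (P.π (e t.a t.b)) (P.π (e t.a t.c)) := fun t => by
    rw [he, he]; exact B.comm t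
  have hγ : ∀ t : Tri L.Γ, P.π (e t.a t.b) * P.π (e t.b t.c) = P.π (e t.a t.c) := fun t => by
    rw [he, he, he]; exact B.tri t
  -- unit fillings
  choose Kr κr Cr hKr using fun t : Tri L.Γ =>
    P.exists_fills z hz _ (π_rect P.π (e t.a t.b) (e t.a t.c) (hc t) 1 1)
  choose Kt κt Ct hKt using fun t : Tri L.Γ =>
    P.exists_fills z hz _ (π_tri P.π (e t.a t.b) (e t.a t.c) (e t.b t.c) (hc t) (hγ t) 1)
  choose Nc hNc using fun t : Tri L.Γ =>
    centre P B.θ t.ab.ne t.ac.ne t.bc.ne (e t.a t.b) (e t.a t.c) (hc t)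
      (by rw [he, B.θq]) (by rw [he, B.θq])
  obtain ⟨N0, hN0⟩ : ∃ N0 : ℕ, ∀ t, Nc t ≤ N0 :=
    ⟨Finset.univ.sup Nc, fun t => Finset.le_sup (Finset.mem_univ t)⟩
  obtain ⟨N1, hN1⟩ := geom_bound (fun x => Multiplicative.toAdd (B.θ x)) fun t => Kr t ∪ Kt t
  obtain ⟨m, hm⟩ : ∃ m : ℕ, m = N0 + N1 + 1 := ⟨_, rfl⟩
  choose K2 κ2 C2 hK2 using fun t : Tri L.Γ =>
    P.exists_fills z hz _ (π_rect P.π (e t.a t.b) (e t.a t.c) (hc t) (2 * m) (2 * m))
  choose h hh1 hh2 hh3 using fun t : Tri L.Γ =>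
    hNc t m (by have := hN0 t; omega) (K2 t) (κ2 t) (hK2 t).add
  obtain ⟨N3, hN3⟩ := geom_bound (fun x => Multiplicative.toAdd (B.θ x)) K2
  obtain ⟨H, hH⟩ : ∃ H : ℕ, H = N3 + N0 + N1 + 1 := ⟨_, rfl⟩
  obtain ⟨R, hR⟩ : ∃ R : ℕ, R = 2 * H + 2 * m := ⟨_, rfl⟩
  refine ⟨R, ∑ t, C2 t, Finset.sum_nonneg fun t _ => (hK2 t).nonneg, fun M => ?_⟩
  obtain ⟨s, hs⟩ : ∃ s : ℕ, s = (M + 1) * R := ⟨_, rfl⟩
  rw [← hs]
  have hs' : s = M * R + R := by rw [hs]; ring
  let p : Tri L.Γ → ℕ → ℕ → G := fun t i k => B.P s t.a * B.q t.a t.b ^ i * B.q t.a t.c ^ k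
  let d : Tri L.Γ × Fin M → G × P.R := fun x =>
    (p x.1 (x.2.val * R + H) H * (h x.1).1, (h x.1).2)
  obtain ⟨K, hK1, hK2'⟩ : ∃ K : Finset (G × P.R),
      (∀ t i k, i ≤ s → k ≤ s → ∀ c ∈ Kr t ∪ Kt t, (p t i k * c.1, c.2) ∈ K) ∧
      ∀ t (j : Fin M), ∀ c ∈ K2 t, (p t (j.val * R + H) H * c.1, c.2) ∈ K := by
    refine ⟨(Finset.univ.biUnion fun t => (Finset.range (s + 1) ×ˢ Finset.range (s + 1)).biUnion
      fun x => (Kr t ∪ Kt t).image fun c => (p t x.1 x.2 * c.1, c.2)) ∪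
      (Finset.univ.biUnion fun x : Tri L.Γ × Fin M =>
        (K2 x.1).image fun c => (p x.1 (x.2.val * R + H) H * c.1, c.2)), ?_, ?_⟩
    · intro t i k hi hk c hc
      refine Finset.mem_union_left _ (Finset.mem_biUnion.2 ⟨t, Finset.mem_univ _,
        Finset.mem_biUnion.2 ⟨(i, k), ?_, Finset.mem_image.2 ⟨c, hc, rfl⟩⟩⟩)
      simp only [Finset.mem_product, Finset.mem_range]
      omega
    · intro t j c hc
      exact Finset.mem_union_right _ (Finset.mem_biUnion.2 ⟨(t, j), Finset.mem_univ _,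
        Finset.mem_image.2 ⟨c, hc, rfl⟩⟩)
  have hjR : ∀ j : Fin M, j.val * R + R ≤ M * R := fun j => by
    have : (j.val + 1) * R ≤ M * R := Nat.mul_le_mul_right _ j.2
    rwa [add_mul, one_mul] at this
  -- position of `d`
  have hd : ∀ (t : Tri L.Γ) (j : Fin M) (v : V),
      |Multiplicative.toAdd (B.θ (d (t, j)).1) v + (Pi.single L.root (s : ℤ) : V → ℤ) v -
        geomVec t (s - (j.val * R + H + m : ℕ) - (H + m : ℕ)) (j.val * R + H + m : ℕ)
          (H + m : ℕ) v| ≤ N0 := by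
    intro t j v
    have h1 := geom_pos B s t (j.val * R + H) H (h t).1 v
    have h2 := geom_pos B s t (j.val * R + H) H (P.π (e t.a t.b) ^ m * P.π (e t.a t.c) ^ m) v
    have h3 := geom_pos B s t (j.val * R + H + m) (H + m) 1 v
    have h4 : B.P s t.a * B.q t.a t.b ^ (j.val * R + H) * B.q t.a t.c ^ H *
        (P.π (e t.a t.b) ^ m * P.π (e t.a t.c) ^ m) =
        B.P s t.a * B.q t.a t.b ^ (j.val * R + H + m) * B.q t.a t.c ^ (H + m) * 1 := by
      rw [he, he, pow_add _ _ m, pow_add _ _ m]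
      simp only [mul_assoc, mul_one]
      congr 2
      rw [← mul_assoc, ← mul_assoc, ((B.comm t).pow_pow m H).eq]
    rw [h4, h3] at h2
    have h5 := hh3 t v
    have h6 : (Nc t : ℤ) ≤ N0 := by exact_mod_cast hN0 t
    simp only [map_one, toAdd_one, Pi.zero_apply, add_zero] at h2
    change |Multiplicative.toAdd (B.θ (B.P s t.a * B.q t.a t.b ^ (j.val * R + H) *
      B.q t.a t.c ^ H * (h t).1)) v + _ - _| ≤ _
    rw [h1, h2, add_sub_add_left_eq_sub]
    exact h5.trans h6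
  have hnear : ∀ (t' : Tri L.Γ) (i k : ℕ) (x : G) (N : ℕ) (t : Tri L.Γ) (j : Fin M),
      (∀ v, |Multiplicative.toAdd (B.θ x) v| ≤ N) → N + N0 < H + m →
      p t' i k * x = (d (t, j)).1 →
      t' = t ∧ |(i : ℤ) - (j.val * R + H + m : ℕ)| ≤ (N + N0 : ℕ) ∧
        |(k : ℤ) - (H + m : ℕ)| ≤ (N + N0 : ℕ) := by
    intro t' i k x N t j hx hN hp
    have hj := hjR j
    refine geom_match t' t (s - i - k) i k (s - (j.val * R + H + m : ℕ) - (H + m : ℕ)) _ _ _
      (by omega) (by omega) (by omega) fun v => ?_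
    have h1 := geom_pos B s t' i k x v
    have h2 := hd t j v
    have h3 := hx v
    rw [← hp] at h2
    change |Multiplicative.toAdd (B.θ (B.P s t'.a * B.q t'.a t'.b ^ i *
      B.q t'.a t'.c ^ k * x)) v + _ - _| ≤ _ at h2
    rw [h1] at h2
    rw [abs_le] at h2 h3 ⊢
    push_cast at h2 h3 ⊢
    constructor <;> linarith [h2.1, h2.2, h3.1, h3.2]
  -- avoidance
  have hA : ∀ (t : Tri L.Γ) (i k : ℕ),
      (∀ j : Fin M, ¬ (j.val * R + H ≤ i ∧ i < j.val * R + H + 2 * m ∧ H ≤ k ∧ k < H + 2 * m)) →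
      ∀ c ∈ Kr t ∪ Kt t, (p t i k * c.1, c.2) ∉ Set.range d := by
    rintro t i k hik c hc ⟨⟨t', j⟩, hx⟩
    obtain ⟨-, h2, h3⟩ := hnear t i k c.1 N1 t' j (hN1 t c hc) (by omega) (by rw [hx])
    rw [abs_le] at h2 h3
    exact hik j (by omega)
  have hB : ∀ (t : Tri L.Γ) (j : Fin M), ∀ c ∈ K2 t, ∀ x,
      d x = (p t (j.val * R + H) H * c.1, c.2) → x = (t, j) ∧ c = h t := by
    rintro t j c hc ⟨t', j'⟩ hx
    obtain ⟨rfl, h2, -⟩ := hnear t _ H c.1 N3 t' j' (hN3 t c hc) (by omega) (by rw [hx])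
    rw [abs_le] at h2
    have hj : j' = j := by
      apply Fin.ext
      rcases lt_trichotomy j'.val j.val with h3 | h3 | h3
      · have : (j'.val + 1) * R ≤ j.val * R := Nat.mul_le_mul_right _ h3
        rw [add_mul, one_mul] at this
        omega
      · exact h3
      · have : (j.val + 1) * R ≤ j'.val * R := Nat.mul_le_mul_right _ h3
        rw [add_mul, one_mul] at this
        omega
    subst hj
    refine ⟨rfl, ?_⟩
    have h4 := Prod.ext_iff.1 hx
    exact Prod.ext (mul_left_cancel h4.1).symm h4.2.symm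
  have hunit : ∀ (Q : Type) [Group Q] (σ : G → P.S → Q),
      (∀ c ∈ K, c ∉ Set.range d → P.curv σ c = 1) → ∀ (t : Tri L.Γ) (i k : ℕ), i ≤ s → k ≤ s →
      (∀ j : Fin M, ¬ (j.val * R + H ≤ i ∧ i < j.val * R + H + 2 * m ∧ H ≤ k ∧ k < H + 2 * m)) →
      hol P.π σ (p t i k) (rect (e t.a t.b) (e t.a t.c) 1 1) = 1 ∧
        hol P.π σ (p t i k) (tri (e t.a t.b) (e t.a t.c) (e t.b t.c) 1) = 1 := by
    intro Q _ σ hσ t i k hi hk hik
    have key : ∀ c ∈ Kr t ∪ Kt t, P.curv (fun y => σ (p t i k * y)) c = 1 := fun c hc => by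
      rw [geom_curv]
      exact hσ _ (hK1 t i k hi hk c hc) (hA t i k hik c hc)
    rw [geom_shift P σ, geom_shift P σ (p t i k)]
    exact ⟨(hKr t).flat Q _ fun c hc => key c (Finset.mem_union_left _ hc),
      (hKt t).flat Q _ fun c hc => key c (Finset.mem_union_right _ hc)⟩
  have hpatch : ∀ (Q : Type) [Group Q] (σ : G → P.S → Q),
      (∀ c ∈ K, c ∉ Set.range d → P.curv σ c = 1) → ∀ (t : Tri L.Γ) (j : Fin M), ∃ y : Q,
      hol P.π σ (B.P s t.a * B.q t.a t.b ^ (j.val * R)) (rect (e t.a t.b) (e t.a t.c) R R) =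
        y * hol P.π (fun x => σ (p t (j.val * R + H) H * x)) 1
          (rect (e t.a t.b) (e t.a t.c) (2 * m) (2 * m)) * y⁻¹ := by
    intro Q _ σ hσ t j
    have hj := hjR j
    have e1 : ∀ i k, B.P s t.a * B.q t.a t.b ^ (j.val * R) * P.π (e t.a t.b) ^ i *
        P.π (e t.a t.c) ^ k = p t (j.val * R + i) k := fun i k => by
      rw [he, he, mul_assoc (B.P s t.a), ← pow_add]
    obtain ⟨y, hy⟩ := patch P.π σ (B.P s t.a * B.q t.a t.b ^ (j.val * R)) (e t.a t.b) (e t.a t.c)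
      (hc t) H (2 * m) fun i k hi hk hik => by
        rw [e1]
        refine (hunit Q σ hσ t _ k (by omega) (by omega) fun j' hj' => hik ?_).1
        have hjj : j'.val = j.val := by
          rcases lt_trichotomy j'.val j.val with h3 | h3 | h3
          · have : (j'.val + 1) * R ≤ j.val * R := Nat.mul_le_mul_right _ h3
            rw [add_mul, one_mul] at this
            omega
          · exact h3
          · have : (j.val + 1) * R ≤ j'.val * R := Nat.mul_le_mul_right _ h3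
            rw [add_mul, one_mul] at this
            omega
        rw [hjj] at hj'
        omega
    rw [← hR, e1, geom_shift P σ (p t _ _)] at hy
    exact ⟨y, hy⟩
  have hoth : ∀ (Q : Type) [Group Q] (σ : G → P.S → Q),
      (∀ c ∈ K, c ∉ Set.range d → P.curv σ c = 1) → ∀ (t : Tri L.Γ) (j : Fin M), ∀ c ∈ K2 t,
      c ≠ h t → P.curv (fun x => σ (p t (j.val * R + H) H * x)) c = 1 := by
    intro Q _ σ hσ t j c hc hne
    rw [geom_curv]
    refine hσ _ (hK2' t j c hc) ?_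
    rintro ⟨x, hx⟩
    exact hne (hB t j c hc x hx).2
  refine ⟨d, K, ?_, ?_, ?_, ?_⟩
  · rintro x ⟨t, j⟩ hx
    exact (hB t j (h t) (hh1 t) x hx).1
  · intro Q _ σ hσ t
    have e1 : ∀ i k, B.P s t.a * P.π (e t.a t.b) ^ i * P.π (e t.a t.c) ^ k = p t i k :=
      fun i k => by rw [he, he]
    have := tri_strip P.π σ (B.P s t.a) (e t.a t.b) (e t.a t.c) (e t.b t.c) (hc t) (hγ t)
      (M * R) R (fun i k hik h1 => by
        rw [e1]
        refine (hunit Q σ hσ t i k (by omega) (by omega) fun j hj => ?_).1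
        have := hjR j
        omega) (fun i k hik => by
        rw [e1]
        refine (hunit Q σ hσ t i k (by omega) (by omega) fun j hj => ?_).2
        have := hjR j
        omega)
    rwa [← hs'] at this
  · intro ξ hξ t j h0
    have hσ : ∀ c ∈ K, c ∉ Set.range d →
        P.curv (fun x s => Multiplicative.ofAdd (ξ x s)) c = 1 := fun c hc hc' =>
      toAdd_eq_zero.1 (hξ c hc hc')
    obtain ⟨y, hy⟩ := hpatch _ _ hσ t j
    rw [mul_inv_cancel_comm] at hy
    have h1 := (hK2 t).add fun x => ξ (p t (j.val * R + H) H * x)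
    have h2 : ahol P.π (fun x => ξ (p t (j.val * R + H) H * x)) 1
        (rect (e t.a t.b) (e t.a t.c) (2 * m) (2 * m)) = 0 :=
      (congrArg Multiplicative.toAdd hy).symm.trans h0
    rw [h2, Finset.sum_eq_single (h t) (fun c hc hne => by
      have : P.acurv (fun x => ξ (p t (j.val * R + H) H * x)) c = 0 :=
        congrArg Multiplicative.toAdd (hoth _ _ hσ t j c hc hne)
      rw [this, mul_zero]) (fun hn => absurd (hh1 t) hn)] at h1
    have h3 : P.acurv (fun x => ξ (p t (j.val * R + H) H * x)) (h t) = P.acurv ξ (d (t, j)) :=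
      congrArg Multiplicative.toAdd
        (geom_curv P (fun x s => Multiplicative.ofAdd (ξ x s)) (p t (j.val * R + H) H) (h t))
    rw [h3] at h1
    exact (mul_eq_zero.1 h1.symm).resolve_left (by exact_mod_cast hh2 t)
  · intro σ hσ t j hε
    obtain ⟨y, hy⟩ := hpatch _ _ hσ t j
    rw [hy, geom_conj]
    have h3 : P.curv (fun x => σ (p t (j.val * R + H) H * x)) (h t) = P.curv σ (d (t, j)) :=
      geom_curv P σ _ (h t)
    have h1 := (hK2 t).lin (fun x => σ (p t (j.val * R + H) H * x)) _ (norm_nonneg _) hε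
      fun c hc => by
        by_cases hne : c = h t
        · rw [hne, h3]
        · rw [hoth _ _ hσ t j c hc hne, Metric.unitSphere.coe_one, sub_self, norm_zero]
          exact norm_nonneg _
    rw [Finset.sum_eq_single (h t) (fun c hc hne => by
      have h4 := P.norm_cw z hz (fun x => σ (p t (j.val * R + H) H * x)) c
      rw [hoth _ _ hσ t j c hc hne, Metric.unitSphere.coe_one, sub_self, norm_zero,
        norm_eq_zero] at h4
      rw [h4, smul_zero]) (fun hn => absurd (hh1 t) hn)] at h1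
    have h4 := P.norm_cw z hz (fun x => σ (p t (j.val * R + H) H * x)) (h t)
    rw [h3] at h4
    have h5 : (1 : ℝ) ≤ ‖(κ2 t (h t) : ℝ)‖ := by
      rw [Real.norm_eq_abs]
      exact_mod_cast Int.one_le_abs (hh2 t)
    have h6 : C2 t ≤ ∑ t, C2 t :=
      Finset.single_le_sum (fun t _ => (hK2 t).nonneg) (Finset.mem_univ t)
    generalize ((hol P.π (fun x => σ (p t (j.val * R + H) H * x)) 1
      (rect (e t.a t.b) (e t.a t.c) (2 * m) (2 * m)) : U) : ℍ) - 1 = u at h1 ⊢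
    generalize ((hol P.π (fun x => σ (p t (j.val * R + H) H * x)) 1
      (P.cw z (h t)) : U) : ℍ) - 1 = u' at h1 h4
    rw [← h4] at h1 ⊢
    have h7 : ‖(κ2 t (h t) : ℝ) • u'‖ ≤ ‖u‖ + ‖u - (κ2 t (h t) : ℝ) • u'‖ := by
      have := norm_sub_le u (u - (κ2 t (h t) : ℝ) • u')
      rwa [sub_sub_cancel] at this
    rw [norm_smul] at h7
    have h8 : C2 t * ‖u'‖ ^ 2 ≤ (∑ t, C2 t) * ‖u'‖ ^ 2 :=
      mul_le_mul_of_nonneg_right h6 (sq_nonneg _)
    have h9 : 1 * ‖u'‖ ≤ ‖(κ2 t (h t) : ℝ)‖ * ‖u'‖ := mul_le_mul_of_nonneg_right h5 (norm_nonneg _)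
    linarith

end Crest.Agent.R197
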