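import Crest.Agent.R197.GB

/-! Row 197: edge words modulo the face words extend over the simply connected complex. -/

set_option autoImplicit false

namespace Crest.Agent.R197

open scoped Topology unitInterval

namespace GCx
variable {G E : Type} [Group G] [TopologicalSpace E] [MulAction G E] (C : GCx G E)
  [T2Space E] [ContinuousConstSMul G E]

/-- The complement of the centres of the faces. -/
def punct : Set E := {y | ∀ (g : G) (c : C.R), y ≠ g • C.fc c (0, 0)}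

omit [T2Space E] [ContinuousConstSMul G E] in
theorem holx_not_sk1 (g : G) (c : C.R) (s : I) {r : I} (hr : r ≠ 1) :
    g • C.fc c (s, r) ∉ C.sk1 := by
  rintro (⟨g', v, h⟩ | ⟨g', e, t, h⟩)
  · exact (C.fc_ne c s r (g⁻¹ * g') hr).1 v (by rw [mul_smul, ← h, inv_smul_smul])
  · exact (C.fc_ne c s r (g⁻¹ * g') hr).2 e t (by rw [mul_smul, ← h, inv_smul_smul])

omit [T2Space E] [ContinuousConstSMul G E] in
theorem holx_ed_mem (g : G) (e : C.S) (t : I) : g • C.ed e t ∈ C.sk1 := Or.inr ⟨g, e, t, rfl⟩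

omit [T2Space E] [ContinuousConstSMul G E] in
theorem holx_inj {g g' : G} {c c' : C.R} {s r s' r' : I} (hr : r ≠ 1)
    (h : g • C.fc c (s, r) = g' • C.fc c' (s', r')) :
    g = g' ∧ c = c' ∧ r = r' ∧ (r = 0 ∨ s = s' ∨ (s = 0 ∧ s' = 1) ∨ (s = 1 ∧ s' = 0)) := by
  have h1 : C.fc c (s, r) = (g⁻¹ * g') • C.fc c' (s', r') := by
    rw [mul_smul, ← h, inv_smul_smul]
  obtain ⟨rfl, rfl, h2⟩ := C.fc_inj c s r _ c' s' r' hr h1
  refine ⟨?_, rfl, rfl, h2⟩
  have h3 : C.fc c (s, r) = C.fc c (s', r) := by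
    rcases h2 with rfl | rfl | ⟨rfl, rfl⟩ | ⟨rfl, rfl⟩
    · rw [C.fc_zero c s, C.fc_zero c s']
    · rfl
    · exact C.fc_per c r
    · exact (C.fc_per c r).symm
  have h4 := C.free (g⁻¹ * g') _ (h1.symm.trans h3)
  rw [inv_mul_eq_one] at h4
  exact h4

omit [T2Space E] [ContinuousConstSMul G E] in
theorem holx_open {B : Set E} (h1 : ∀ (g : G) e, IsOpen {t | g • C.ed e t ∈ B})
    (h2 : ∀ (g : G) c, IsOpen {z | g • C.fc c z ∈ B}) : IsOpen B := by
  rw [← isClosed_compl_iff]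
  exact C.weak _ (fun g e => (h1 g e).isClosed_compl) fun g c => (h2 g c).isClosed_compl

omit [T2Space E] [ContinuousConstSMul G E] in
theorem holx_sk1_punct {y : E} (hy : y ∈ C.sk1) : y ∈ C.punct := by
  rintro g c rfl
  exact C.holx_not_sk1 g c 0 zero_ne_one hy

omit [T2Space E] [ContinuousConstSMul G E] in
theorem holx_fc_punct (g : G) (c : C.R) (z : I × I) : g • C.fc c z ∈ C.punct ↔ z.2 ≠ 0 := by
  obtain ⟨s, r⟩ := z
  constructor
  · rintro h (rfl : r = 0)
    exact h g c (by rw [C.fc_zero c s])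
  · intro h g' c' h'
    exact h (C.holx_inj zero_ne_one h'.symm).2.2.1.symm

omit [T2Space E] in
/-- local constancy inside the faces -/
theorem holx_locConst {A : Type} {B : Set E} {f : E → A} (hB : IsOpen B)
    (h1 : ∀ (g : G) e t, g • C.ed e t ∉ B)
    (h2 : ∀ (g : G) c z, g • C.fc c z ∈ B →
      ∀ᶠ z' in 𝓝 z, g • C.fc c z' ∈ B → f (g • C.fc c z') = f (g • C.fc c z))
    {y : E} (hy : y ∈ B) : ∀ᶠ y' in 𝓝 y, f y' = f y := by
  have hO : IsOpen {y' | y' ∈ B ∧ f y' = f y} := by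
    refine C.holx_open (fun g e => ?_) fun g c => ?_
    · convert isOpen_empty
      exact Set.eq_empty_of_forall_notMem fun t ht => h1 g e t ht.1
    · rw [isOpen_iff_mem_nhds]
      rintro z ⟨hz1, hz2⟩
      have hc : Continuous fun z => g • C.fc c z := (C.fc c).continuous.const_smul g
      filter_upwards [h2 g c z hz1, hc.continuousAt.eventually (hB.mem_nhds hz1)] with z' a b
      exact ⟨b, (a b).trans hz2⟩
  filter_upwards [hO.mem_nhds ⟨hy, rfl⟩] with y' h using h.2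

theorem isOpen_punct : IsOpen C.punct := by
  refine C.holx_open (fun g e => ?_) fun g c => ?_
  · convert isOpen_univ
    exact Set.eq_univ_of_forall fun t => C.holx_sk1_punct (C.holx_ed_mem g e t)
  · simp only [C.holx_fc_punct]
    exact isOpen_ne_fun continuous_snd continuous_const

theorem isOpen_face (g : G) (c : C.R) : IsOpen {y | ∃ s r : I, r ≠ 1 ∧ y = g • C.fc c (s, r)} := by
  refine C.holx_open (fun g' e => ?_) fun g' c' => ?_
  · convert isOpen_empty
    refine Set.eq_empty_of_forall_notMem ?_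
    rintro t ⟨s, r, hr, h⟩
    exact C.holx_not_sk1 g c s hr (h ▸ C.holx_ed_mem g' e t)
  · by_cases hgc : g = g' ∧ c = c'
    · obtain ⟨rfl, rfl⟩ := hgc
      have : {z : I × I | g • C.fc c z ∈ {y | ∃ s r : I, r ≠ 1 ∧ y = g • C.fc c (s, r)}} =
          {z | z.2 ≠ 1} := by
        ext ⟨s, r⟩
        constructor
        · rintro ⟨s', r', hr, h⟩
          exact (C.holx_inj hr h.symm).2.2.1 ▸ hr
        · intro h
          exact ⟨s, r, h, rfl⟩
      rw [this]
      exact isOpen_ne_fun continuous_snd continuous_const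
    · convert isOpen_empty
      refine Set.eq_empty_of_forall_notMem ?_
      rintro ⟨s', r'⟩ ⟨s, r, hr, h⟩
      have := C.holx_inj hr h.symm
      exact hgc ⟨this.1, this.2.1⟩

/-- Radial retraction (`contOn2`). -/
theorem exists_retr : ∃ ρ : E → E, ContinuousOn ρ C.punct ∧ (∀ y, ρ y ∈ C.sk1) ∧
    (∀ y ∈ C.sk1, ρ y = y) ∧
    ∀ (g : G) (c : C.R) (s r : I), r ≠ 0 → ρ (g • C.fc c (s, r)) = g • C.fc c (s, 1) := by
  have key : ∀ y : E, ∃ y', y' ∈ C.sk1 ∧ (y ∈ C.sk1 → y' = y) ∧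
      ∀ (g : G) (c : C.R) (s r : I), r ≠ 0 → y = g • C.fc c (s, r) → y' = g • C.fc c (s, 1) := by
    intro y
    by_cases hy : y ∈ C.sk1
    · refine ⟨y, hy, fun _ => rfl, fun g c s r _ h => ?_⟩
      by_cases hr : r = 1
      · rw [h, hr]
      · exact absurd (h ▸ hy) (C.holx_not_sk1 g c s hr)
    · rcases C.cover y with h | h | ⟨g, c, ⟨s, r⟩, rfl⟩
      · exact absurd (Or.inl h) hy
      · exact absurd (Or.inr h) hy
      · have hm : g • C.fc c (s, 1) ∈ C.sk1 := C.smul_mem_sk1 g (C.bd_mem c s)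
        have hr : r ≠ 1 := by
          rintro rfl
          exact hy hm
        refine ⟨_, hm, fun h => absurd h hy, fun g' c' s' r' hr' h => ?_⟩
        obtain ⟨rfl, rfl, rfl, h2⟩ := C.holx_inj hr h
        rcases h2 with rfl | rfl | ⟨rfl, rfl⟩ | ⟨rfl, rfl⟩
        · exact absurd rfl hr'
        · rfl
        · rw [C.fc_per c 1]
        · rw [C.fc_per c 1]
  choose ρ h1 h2 h3 using key
  refine ⟨ρ, ?_, h1, h2, fun g c s r hr => h3 _ g c s r hr rfl⟩
  refine C.contOn2 C.isOpen_punct (fun g e => ?_) fun g c => ?_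
  · have : (fun t => ρ (g • C.ed e t)) = fun t => g • C.ed e t :=
      funext fun t => h2 _ (C.holx_ed_mem g e t)
    rw [this]
    exact ((C.ed e).continuous.const_smul g).continuousOn
  · have hc : Continuous fun z : I × I => g • C.fc c (z.1, 1) :=
      ((C.fc c).continuous.comp (continuous_fst.prodMk continuous_const)).const_smul g
    refine hc.continuousOn.congr fun z hz => ?_
    exact h3 _ g c z.1 z.2 ((C.holx_fc_punct g c z).1 hz) rfl

/-- Cover `E` by the sets `punct ∩ ρ ⁻¹' U i` with functions `φ (k i (ρ y))` (`cocyc1` on the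
subtype `punct`), and by the open faces with functions `g • fc c (s, r) ↦ (φ (Fc c s))⁻¹` (well
defined off the centre since `φ (Fc c 1) = 1 = φ (Fc c 0)`; local constancy on overlaps from the
frame property of `Fc c`, `Fr.sm`, and `weak`).  Apply `exists_frame_path` and `Frame.unique`. -/
theorem exists_pot [SimplyConnectedSpace E] {Q : Type} [Group Q] (φ : FreeGroup C.S →* Q)
    (Fc : C.R → I → FreeGroup C.S) (hF : ∀ c, C.Fr (C.bd c) (Fc c)) (h1 : ∀ c, φ (Fc c 1) = 1) :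
    ∃ Φ : E → Q, ∀ (γ : C(I, E)) (F : I → FreeGroup C.S), C.Fr γ F →
      Φ (γ 1) = Φ (γ 0) * φ (F 1) := by
  obtain ⟨ρ, hρc, hρm, hρ1, hρ⟩ := C.exists_retr
  have key : ∀ y : E, ∃ q : Q, ∀ (g : G) (c : C.R) (s r : I), r ≠ 0 → r ≠ 1 →
      y = g • C.fc c (s, r) → q = (φ (Fc c s))⁻¹ := by
    intro y
    by_cases hy : ∃ (g : G) (c : C.R) (s r : I), r ≠ 0 ∧ r ≠ 1 ∧ y = g • C.fc c (s, r)
    · obtain ⟨g, c, s, r, h0, hr, rfl⟩ := hy
      refine ⟨(φ (Fc c s))⁻¹, fun g' c' s' r' _ _ h => ?_⟩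
      obtain ⟨rfl, rfl, rfl, h2⟩ := C.holx_inj hr h
      rcases h2 with rfl | rfl | ⟨rfl, rfl⟩ | ⟨rfl, rfl⟩
      · exact absurd rfl h0
      · rfl
      · rw [h1, (hF c).2.1, map_one]
      · rw [h1, (hF c).2.1, map_one]
    · exact ⟨1, fun g c s r h0 hr h => absurd ⟨g, c, s, r, h0, hr, h⟩ hy⟩
  choose a ha using key
  let W : ((G × C.V) ⊕ (G × C.S)) ⊕ (G × C.R) → Set E := fun i =>
    Sum.elim (fun i => C.punct ∩ ρ ⁻¹' C.U i)
      (fun p : G × C.R => {y | ∃ s r : I, r ≠ 1 ∧ y = p.1 • C.fc p.2 (s, r)}) i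
  let κ : ((G × C.V) ⊕ (G × C.S)) ⊕ (G × C.R) → E → Q := fun i =>
    Sum.elim (fun i y => φ (C.k i (ρ y))) (fun _ => a) i
  have hc1 := C.cocyc1 (f := fun z : C.punct => ρ z) hρc.domRestrict fun z => hρm z
  have hemb := C.isOpen_punct.isOpenEmbedding_subtypeVal
  have hWo : ∀ i, IsOpen (W i) := by
    rintro (i | ⟨g, c⟩)
    · have := hemb.isOpenMap _ (hc1.1 i)
      convert this using 1
      ext y
      constructor
      · rintro ⟨h1, h2⟩
        exact ⟨⟨y, h1⟩, h2, rfl⟩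
      · rintro ⟨z, hz, rfl⟩
        exact ⟨z.2, hz⟩
    · exact C.isOpen_face g c
  have hmix : ∀ i (p : G × C.R) y, y ∈ W (.inl i) → y ∈ W (.inr p) →
      ∀ᶠ y' in 𝓝 y, (φ (C.k i (ρ y')))⁻¹ * a y' = (φ (C.k i (ρ y)))⁻¹ * a y := by
    rintro i ⟨g, c⟩ y hy1 hy2
    refine C.holx_locConst (f := fun y => (φ (C.k i (ρ y)))⁻¹ * a y)
      ((hWo (.inl i)).inter (hWo (.inr (g, c)))) ?_ ?_ ⟨hy1, hy2⟩
    · rintro g' e t ⟨-, s, r, hr, h⟩
      exact C.holx_not_sk1 g c s hr (h ▸ C.holx_ed_mem g' e t)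
    · have val : ∀ (g' : G) (c' : C.R) (z : I × I), g' • C.fc c' z ∈ W (.inl i) ∩ W (.inr (g, c)) →
          g' • C.fc c' (z.1, 1) ∈ C.U i ∧
          (φ (C.k i (ρ (g' • C.fc c' z))))⁻¹ * a (g' • C.fc c' z) =
            (φ (Fc c' z.1 * C.k i (g' • C.fc c' (z.1, 1))))⁻¹ := by
        rintro g' c' ⟨s', r'⟩ ⟨⟨hp, hU⟩, s, r, hr, h⟩
        have h0 : r' ≠ 0 := (C.holx_fc_punct g' c' _).1 hp
        have hr' : r' ≠ 1 := (C.holx_inj hr h.symm).2.2.1 ▸ hr
        have e1 := hρ g' c' s' r' h0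
        refine ⟨e1 ▸ hU, ?_⟩
        rw [e1, ha _ g' c' s' r' h0 hr' rfl, map_mul, mul_inv_rev]
      intro g' c' z hz
      obtain ⟨hU, e1⟩ := val g' c' z hz
      have hfr := ((hF c').sm g').2.2 i z.1 hU
      filter_upwards [continuous_fst.continuousAt.eventually hfr] with z' h hz'
      rw [e1, (val g' c' z' hz').2]
      exact congrArg (fun w => (φ w)⁻¹) h
  have hco : Cocyc W κ := by
    refine ⟨hWo, fun y => ?_, ?_⟩
    · by_cases hy : y ∈ C.punct
      · obtain ⟨i, hi⟩ := C.exists_U (hρm y)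
        exact ⟨.inl i, hy, hi⟩
      · simp only [punct, Set.mem_ofPred_eq, not_forall, not_not] at hy
        obtain ⟨g, c, h⟩ := hy
        exact ⟨.inr (g, c), 0, 0, zero_ne_one, h⟩
    · rintro (i | p) (j | q) y hi hj
      · have h := hc1.2.2 i j ⟨y, hi.1⟩ hi.2 hj.2
        have h' : ∀ᶠ y' in Filter.map Subtype.val (𝓝 (⟨y, hi.1⟩ : C.punct)),
            (C.k i (ρ y'))⁻¹ * C.k j (ρ y') = (C.k i (ρ y))⁻¹ * C.k j (ρ y) := h
        rw [hemb.map_nhds_eq] at h'
        filter_upwards [h'] with y' hy'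
        have := congrArg φ hy'
        simpa only [κ, Sum.elim_inl, map_mul, map_inv] using this
      · exact hmix i q y hi hj
      · filter_upwards [hmix j p y hj hi] with y' hy'
        have := congrArg (fun w => w⁻¹) hy'
        simpa only [κ, Sum.elim_inl, Sum.elim_inr, mul_inv_rev, inv_inv] using this
      · exact Filter.Eventually.of_forall fun y' => by simp [κ]
  obtain ⟨Φ, hΦ⟩ := exists_frame_path hco
  refine ⟨Φ, fun γ F hγ => ?_⟩
  have f1 : Frame (fun i => γ ⁻¹' C.U i) (fun i t => φ (C.k i (γ t))) fun t => Φ (γ t) := by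
    intro i t ht
    have h := hΦ γ (.inl i) t ⟨C.holx_sk1_punct (hγ.1 t), by
      change ρ (γ t) ∈ C.U i
      rw [hρ1 _ (hγ.1 t)]; exact ht⟩
    simpa only [κ, Sum.elim_inl, hρ1 _ (hγ.1 _)] using h
  have f2 := hγ.2.2.map φ
  have := Frame.unique (U := fun i => γ ⁻¹' C.U i) (fun t => C.exists_U (hγ.1 t)) f2 f1 1 0
  rw [hγ.2.1, map_one φ, inv_one, mul_one] at this
  rw [← this, inv_mul_cancel_right]

end GCx

end Crest.Agent.R197
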