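import Crest.Agent.R197.Defs

/-! Row 197: sections of the pulled-back Hopf line bundle, and logarithms along paths. -/

set_option autoImplicit false

namespace Crest.Agent.R197

open scoped Topology unitInterval Quaternion

/-- The quaternion `i`. -/
def qi : ℍ := ⟨0, 1, 0, 0⟩

/-- Let `H` contract `E` to a point.  On `K` subdivide time so that consecutive values `n, n'` of
`n ∘ H` have `n' ≠ -n` (uniform continuity of `t ↦ (n ∘ H t)|_K`); then
`n' * (1 - n' * n) = (1 - n' * n) * n` and `1 - n' * n ≠ 0`.  Start from a non-zero `v₀` with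
`n₀ * v₀ = v₀ * qi` (`1 - n₀ * qi`, or `j` if `n₀ = -qi`). -/
theorem exists_section {E : Type} [TopologicalSpace E] [ContractibleSpace E] (n : C(E, ℍ))
    (hn : ∀ y, n y * n y = -1) {K : Set E} (hK : IsCompact K) :
    ∃ v : C(E, ℍ), (∀ y, n y * v y = v y * qi) ∧ ∀ y ∈ K, v y ≠ 0 := by
  obtain ⟨x₀, ⟨H⟩⟩ := id_nullhomotopic E
  let T : I → Prop := fun t =>
    ∃ v : C(E, ℍ), (∀ y, n (H (t, y)) * v y = v y * qi) ∧ ∀ y ∈ K, v y ≠ 0
  have step : ∀ t t', (∀ y ∈ K, 1 - n (H (t', y)) * n (H (t, y)) ≠ 0) → T t → T t' := by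
    rintro t t' h ⟨v, h1, h2⟩
    refine ⟨⟨fun y => (1 - n (H (t', y)) * n (H (t, y))) * v y, by fun_prop⟩, fun y => ?_,
      fun y hy => mul_ne_zero (h y hy) (h2 y hy)⟩
    change n (H (t', y)) * ((1 - n (H (t', y)) * n (H (t, y))) * v y) =
      (1 - n (H (t', y)) * n (H (t, y))) * v y * qi
    rw [mul_assoc _ (v y), ← h1 y, ← mul_assoc, ← mul_assoc]
    congr 1
    rw [mul_sub, sub_mul, ← mul_assoc, hn, mul_assoc, hn]
    simp [add_comm]
  have h2 : ∀ z, (1 : ℍ) - n z * n z ≠ 0 := fun z h => by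
    rw [hn] at h
    have := congrArg (fun x : ℍ => x.re) h
    simp only [Quaternion.re_sub, Quaternion.re_neg, Quaternion.re_one, Quaternion.re_zero] at this
    norm_num at this
  have c1 : Continuous fun z : I × E => n (H z) := n.continuous.comp H.continuous
  have c2 : ∀ t₀ : I, Continuous fun z : I × E => n (H (t₀, z.2)) := fun t₀ =>
    c1.comp (continuous_const.prodMk continuous_snd)
  have hloc : IsLocallyConstant T := by
    refine (IsLocallyConstant.iff_eventually_eq T).2 fun t₀ => ?_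
    have e1 : ∀ᶠ t in 𝓝 t₀, ∀ y ∈ K, 1 - n (H (t, y)) * n (H (t₀, y)) ≠ 0 :=
      hK.eventually_forall_of_forall_eventually
        (P := fun t y => 1 - n (H (t, y)) * n (H (t₀, y)) ≠ 0) fun y _ =>
        ContinuousAt.eventually_ne (g := fun z : I × E => 1 - n (H (z.1, z.2)) * n (H (t₀, z.2)))
          (continuous_const.sub (c1.mul (c2 t₀))).continuousAt (h2 _)
    have e2 : ∀ᶠ t in 𝓝 t₀, ∀ y ∈ K, 1 - n (H (t₀, y)) * n (H (t, y)) ≠ 0 :=
      hK.eventually_forall_of_forall_eventually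
        (P := fun t y => 1 - n (H (t₀, y)) * n (H (t, y)) ≠ 0) fun y _ =>
        ContinuousAt.eventually_ne (g := fun z : I × E => 1 - n (H (t₀, z.2)) * n (H (z.1, z.2)))
          (continuous_const.sub ((c2 t₀).mul c1)).continuousAt (h2 _)
    filter_upwards [e1, e2] with t h1 h2
    exact propext ⟨step t t₀ h2, step t₀ t h1⟩
  have hq : qi * qi = -1 := by ext <;> simp [qi]
  have h1 : T 1 := by
    by_cases h : n x₀ = -qi
    · refine ⟨ContinuousMap.const _ ⟨0, 0, 1, 0⟩, fun y => ?_, fun y _ h' => ?_⟩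
      · rw [H.apply_one, ContinuousMap.const_apply, ContinuousMap.const_apply, h]
        ext <;> simp [qi]
      · have := congrArg (fun x : ℍ => x.imJ) h'
        simp at this
    · refine ⟨ContinuousMap.const _ (1 - n x₀ * qi), fun y => ?_, fun y _ h' => h ?_⟩
      · rw [H.apply_one, ContinuousMap.const_apply, ContinuousMap.const_apply, mul_sub, sub_mul,
          ← mul_assoc, hn, mul_assoc, hq]
        simp [add_comm]
      · rw [ContinuousMap.const_apply, sub_eq_zero] at h'
        calc n x₀ = -(n x₀ * qi * qi) := by rw [mul_assoc, hq]; simp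
          _ = -qi := by rw [← h', one_mul]
  have h0 : T 0 := (hloc.apply_eq_of_preconnectedSpace 1 0) ▸ h1
  obtain ⟨v, hv, hv'⟩ := h0
  exact ⟨v, fun y => by simpa using hv y, hv'⟩

theorem exists_log (f : C(I, ℂ)) (hf : ∀ t, f t ≠ 0) :
    ∃ l : C(I, ℂ), ∀ t, Complex.exp (l t) = f t := by
  obtain ⟨l, hl, -⟩ := Complex.isCoveringMap_exp.exists_path_lifts
    (⟨fun t => ⟨f t, hf t⟩, f.continuous.subtype_mk _⟩ : C(I, {z : ℂ // z ≠ 0}))
    (Complex.log (f 0)) (Subtype.ext (Complex.exp_log (hf 0)).symm)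
  exact ⟨l, fun t => congrArg Subtype.val (congrFun hl t)⟩

/-- Two continuous logarithms differ by a locally constant function. -/
theorem log_eventually {Z : Type} [TopologicalSpace Z] {l l' : Z → ℂ} {z : Z} {s : Set Z}
    (hz : z ∈ s) (h : ContinuousWithinAt l s z) (h' : ContinuousWithinAt l' s z)
    (he : ∀ w ∈ s, Complex.exp (l w) = Complex.exp (l' w)) :
    ∀ᶠ w in 𝓝[s] z, l w - l' w = l z - l' z := by
  have hc : ContinuousWithinAt (fun w => ‖l w - l' w - (l z - l' z)‖) s z :=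
    ((h.sub h').sub continuousWithinAt_const).norm
  have h1 : ∀ᶠ w in 𝓝[s] z, ‖l w - l' w - (l z - l' z)‖ < 1 :=
    hc.tendsto.eventually (gt_mem_nhds (by simp))
  filter_upwards [h1, self_mem_nhdsWithin] with w hw hws
  have h2 : Complex.exp (l w - l' w - (l z - l' z)) = 1 := by
    rw [Complex.exp_sub, Complex.exp_sub, Complex.exp_sub, he w hws, he z hz,
      div_self (Complex.exp_ne_zero _), div_self (Complex.exp_ne_zero _), div_one]
  obtain ⟨k, hk⟩ := Complex.exp_eq_one_iff.1 h2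
  rw [hk] at hw
  have hk0 : k = 0 := by
    by_contra hne
    have h3 : (1 : ℝ) ≤ |(k : ℝ)| := by exact_mod_cast Int.one_le_abs hne
    have h4 : ‖(k : ℂ) * (2 * Real.pi * Complex.I)‖ = |(k : ℝ)| * (2 * Real.pi) := by
      simp [abs_of_pos Real.pi_pos]
    rw [h4] at hw
    nlinarith [Real.pi_gt_three]
  rw [hk0] at hk
  simpa [sub_eq_zero] using hk

/-- A loop that bounds a polar disc has winding number zero (lift over `I × I` through
`Complex.isCoveringMap_exp`). -/
theorem wind_zero (f : C(I × I, ℂ)) (hf : ∀ z, f z ≠ 0) (h0 : ∀ s, f (s, 0) = f (0, 0))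
    (hp : ∀ r, f (0, r) = f (1, r)) (l : C(I, ℂ)) (hl : ∀ s, Complex.exp (l s) = f (s, 1)) :
    l 1 = l 0 := by
  have cov := Complex.isCoveringMap_exp
  let H : C(I × I, {z : ℂ // z ≠ 0}) := ⟨fun z => ⟨f z, hf z⟩, f.continuous.subtype_mk _⟩
  obtain ⟨g, hg⟩ := exists_log ⟨fun r => f (0, r), by fun_prop⟩ fun r => hf _
  have H0 : ∀ a, H (0, a) = (fun z : ℂ => (⟨_, z.exp_ne_zero⟩ : {z : ℂ // z ≠ 0})) (g a) :=
    fun a => Subtype.ext (hg a).symm
  let F : C(I × I, ℂ) := cov.liftHomotopy H g H0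
  have hF : ∀ z, Complex.exp (F z) = f z := fun z =>
    congrArg Subtype.val (congrFun (cov.liftHomotopy_lifts H g H0) z)
  have e1 : F (0, 0) = F (1, 0) :=
    cov.const_of_comp (g := fun s : I => F (s, 0)) (by fun_prop)
      (fun a a' => Subtype.ext (by
        change Complex.exp (F (a, 0)) = Complex.exp (F (a', 0))
        rw [hF, hF, h0 a, h0 a'])) 0 1
  have e2 : (fun r : I => F (0, r)) = fun r : I => F (1, r) :=
    cov.eq_of_comp_eq (by fun_prop) (by fun_prop) (funext fun r => Subtype.ext (by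
      change Complex.exp (F (0, r)) = Complex.exp (F (1, r))
      rw [hF, hF, hp])) 0 e1
  have e3 : l 0 - F (0, 1) = l 1 - F (1, 1) :=
    cov.const_of_comp (g := fun s : I => l s - F (s, 1)) (by fun_prop)
      (fun a a' => Subtype.ext (by
        change Complex.exp (l a - F (a, 1)) = Complex.exp (l a' - F (a', 1))
        rw [Complex.exp_sub, Complex.exp_sub, hl, hl, hF, hF, div_self (hf _), div_self (hf _)])) 0 1
  have e4 : F (0, 1) = F (1, 1) := congrFun e2 1
  rw [e4] at e3
  exact (sub_left_inj.1 e3).symm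

end Crest.Agent.R197
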