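import Crest.Agent.R197.HolX
import Crest.Agent.R197.Hopf

/-! Row 197: dual functionals for the faces. -/

set_option autoImplicit false

namespace Crest.Agent.R197

open scoped Topology unitInterval Quaternion

namespace GCx
variable {G E : Type} [Group G] [TopologicalSpace E] [MulAction G E] (C : GCx G E)
  [T2Space E] [ContinuousConstSMul G E]

omit [T2Space E] [ContinuousConstSMul G E] in
theorem fr_cob_ed_inj {g g' : G} {e e' : C.S} {t t' : I} (h0 : t ≠ 0) (h1 : t ≠ 1)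
    (h : g • C.ed e t = g' • C.ed e' t') : g = g' ∧ e = e' ∧ t = t' := by
  have h2 : C.ed e t = (g⁻¹ * g') • C.ed e' t' := by rw [mul_smul, ← h, inv_smul_smul]
  obtain ⟨rfl, rfl⟩ := C.ed_inj _ _ _ _ _ h0 h1 h2
  exact ⟨inv_mul_eq_one.1 (C.free _ _ h2.symm), rfl, rfl⟩

omit [T2Space E] [ContinuousConstSMul G E] in
theorem fr_cob_ed_ne {g g' : G} {e : C.S} {t : I} {v : C.V} (h0 : t ≠ 0) (h1 : t ≠ 1) :
    g • C.ed e t ≠ g' • C.vx v := fun h =>
  C.ed_ne e t (g⁻¹ * g') v h0 h1 (by rw [mul_smul, ← h, inv_smul_smul])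

omit [T2Space E] [ContinuousConstSMul G E] in
/-- Definition of a function cell by cell. -/
theorem fr_cob_cell0 {Z : Type} [Inhabited Z] (a : G × C.V → Z) (b : G → C.S → I → Z) :
    ∃ f : E → Z, (∀ g v, f (g • C.vx v) = a (g, v)) ∧
      ∀ g e t, t ≠ 0 → t ≠ 1 → f (g • C.ed e t) = b g e t := by
  classical
  refine ⟨fun y => if h : ∃ q : G × C.S × I, q.2.2 ≠ 0 ∧ q.2.2 ≠ 1 ∧ y = q.1 • C.ed q.2.1 q.2.2
    then b h.choose.1 h.choose.2.1 h.choose.2.2
    else if h : ∃ p : G × C.V, y = p.1 • C.vx p.2 then a h.choose else default, ?_, ?_⟩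
  · intro g v
    have h1 : ¬ ∃ q : G × C.S × I, q.2.2 ≠ 0 ∧ q.2.2 ≠ 1 ∧
        g • C.vx v = q.1 • C.ed q.2.1 q.2.2 := by
      rintro ⟨q, h0, h1, h⟩
      exact C.fr_cob_ed_ne h0 h1 h.symm
    have h2 : ∃ p : G × C.V, g • C.vx v = p.1 • C.vx p.2 := ⟨(g, v), rfl⟩
    simp only [dif_neg h1, dif_pos h2]
    have h3 := h2.choose_spec
    generalize h2.choose = p at h3
    obtain ⟨g', v'⟩ := p
    have h4 : C.vx v = (g⁻¹ * g') • C.vx v' := by
      rw [mul_smul]
      exact eq_inv_smul_iff.2 h3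
    obtain rfl := C.vx_inj _ _ _ h4
    rw [inv_mul_eq_one.1 (C.free _ _ h4.symm)]
  · intro g e t h0 h1
    have h2 : ∃ q : G × C.S × I, q.2.2 ≠ 0 ∧ q.2.2 ≠ 1 ∧
        g • C.ed e t = q.1 • C.ed q.2.1 q.2.2 := ⟨(g, e, t), h0, h1, rfl⟩
    simp only [dif_pos h2]
    obtain ⟨h3, h4, h5⟩ := C.fr_cob_ed_inj h0 h1 h2.choose_spec.2.2
    rw [← h3, ← h4, ← h5]

omit [T2Space E] [ContinuousConstSMul G E] in
theorem fr_cob_cell {Z : Type} [Inhabited Z] (a : G × C.V → Z) (b : G → C.S → I → Z)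
    (h0 : ∀ g e, b g e 0 = a (g, C.src e)) (h1 : ∀ g e, b g e 1 = a (g * C.lab e, C.tgt e)) :
    ∃ f : E → Z, (∀ g v, f (g • C.vx v) = a (g, v)) ∧ ∀ g e t, f (g • C.ed e t) = b g e t := by
  obtain ⟨f, hf, hf'⟩ := C.fr_cob_cell0 a b
  refine ⟨f, hf, fun g e t => ?_⟩
  by_cases ht0 : t = 0
  · rw [ht0, C.ed0, hf, h0]
  by_cases ht1 : t = 1
  · rw [ht1, C.ed1, smul_smul, hf, h1]
  exact hf' g e t ht0 ht1

omit [T2Space E] [ContinuousConstSMul G E] in
theorem fr_cob_kinr (α : G → C.S → ℝ) (g : G) (e : C.S) {t : I} (h0 : t ≠ 0) (h1 : t ≠ 1) :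
    ahol C.π α (C.pos (g • C.ed e t)) (C.k (.inr (g, e)) (g • C.ed e t)) =
      if 1 / 2 < (t : ℝ) then -α g e else 0 := by
  have h := C.pos_inr (p := (g, e)) (y := g • C.ed e t) ⟨t, h0, h1, rfl⟩
  rw [C.k_ed g e h0 h1] at h ⊢
  split_ifs at h ⊢ with ht
  · rw [ahol_inv, ← map_inv, h, ahol_of]
  · rw [ahol_one]

theorem fr_cob_key (α : G → C.S → ℝ) {γ : C(I, E)} {F : I → FreeGroup C.S} (h : C.Fr γ F)
    (φ : I → ℝ) (hφ : ∀ i t₀, γ t₀ ∈ C.U i → ∀ᶠ t in 𝓝[γ ⁻¹' C.U i] t₀,
      φ t + ahol C.π α (C.pos (γ t)) (C.k i (γ t)) =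
        φ t₀ + ahol C.π α (C.pos (γ t₀)) (C.k i (γ t₀))) :
    ahol C.π α (C.pos (γ 0)) (F 1) = φ 1 - φ 0 := by
  have key := const_of_eventually (f := fun t => ahol C.π α (C.pos (γ 0)) (F t) - φ t)
    (fun t₀ => ?_) 1 0
  · simp only [h.2.1, ahol_one] at key
    linarith
  · obtain ⟨i, hi⟩ := C.exists_U (h.1 t₀)
    have h1 := hφ i t₀ hi
    rw [((C.cocyc1 γ.continuous h.1).1 i).nhdsWithin_eq hi] at h1
    filter_upwards [h1, h.2.2 i t₀ hi] with t h2 h3
    have h4 := congrArg (ahol C.π α (C.pos (γ 0))) h3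
    rw [ahol_mul, ahol_mul, ← h.pos, ← h.pos] at h4
    linarith

/-- Coboundaries of functions on the vertices.  `Ψ y = ψ p` on `U (inl p)`, and `ψ (g, src e)` at
the midpoint of `g • ed e`; `t ↦ ahol α (pos (γ 0)) (F t) - Ψ (γ t)` is locally constant
(`Fr.pos`, `pos_inr`, `k_ed`). -/
theorem fr_cob (ψ : G × C.V → ℝ) : ∃ Ψ : E → ℝ, (∀ g v, Ψ (g • C.vx v) = ψ (g, v)) ∧
    ∀ (γ : C(I, E)) (F : I → FreeGroup C.S), C.Fr γ F →
      ahol C.π (fun x e => ψ (x * C.lab e, C.tgt e) - ψ (x, C.src e)) (C.pos (γ 0)) (F 1) =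
        Ψ (γ 1) - Ψ (γ 0) := by
  obtain ⟨Ψ, hv, he⟩ := C.fr_cob_cell ψ
    (fun g e t => if 1 / 2 < (t : ℝ) then ψ (g * C.lab e, C.tgt e) else ψ (g, C.src e))
    (fun g e => if_neg (by norm_num)) (fun g e => if_pos (by norm_num))
  refine ⟨Ψ, hv, fun γ F h => C.fr_cob_key _ h (fun t => Ψ (γ t)) fun i t₀ hi => ?_⟩
  have key : ∃ c : ℝ, ∀ y ∈ C.U i, Ψ y + ahol C.π
      (fun x e => ψ (x * C.lab e, C.tgt e) - ψ (x, C.src e)) (C.pos y) (C.k i y) = c := by
    rcases i with p | ⟨g, e⟩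
    · refine ⟨ψ p, fun y hy => ?_⟩
      change Ψ y + ahol _ _ _ 1 = _
      rw [ahol_one, add_zero]
      rcases hy with rfl | ⟨e, t, h1, h2, rfl⟩ | ⟨e, t, h1, h2, rfl⟩
      · exact hv _ _
      · rw [he, if_neg (by linarith), h1]
      · rw [he, if_pos h2, h1, inv_mul_cancel_right]
    · refine ⟨ψ (g, C.src e), ?_⟩
      rintro y ⟨t, h0, h1, rfl⟩
      rw [C.fr_cob_kinr _ g e h0 h1, he]
      split_ifs <;> ring
  obtain ⟨c, hc⟩ := key
  filter_upwards [self_mem_nhdsWithin] with t ht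
  rw [hc _ ht, hc _ hi]

omit [T2Space E] [ContinuousConstSMul G E] in
theorem fr_log_mid {g : G} {e : C.S} {t : I} {p : G × C.V} (h : g • C.ed e t ∈ C.U (.inl p)) :
    (t : ℝ) ≠ 1 / 2 := by
  intro ht
  have h0 : t ≠ 0 := fun h => by rw [h] at ht; norm_num at ht
  have h1 : t ≠ 1 := fun h => by rw [h] at ht; norm_num at ht
  rcases h with h | ⟨e', t', -, h2, h⟩ | ⟨e', t', -, h2, h⟩
  · exact C.fr_cob_ed_ne h0 h1 h
  · obtain ⟨-, -, rfl⟩ := C.fr_cob_ed_inj h0 h1 h
    linarith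
  · obtain ⟨-, -, rfl⟩ := C.fr_cob_ed_inj h0 h1 h
    linarith

/-- Winding numbers are read off the edge word.  Choose logarithms `L g e` along the edges
(`exists_log`), `α g e = (L g e 1 - L g e 0).im`, and `Ψ (g • ed e t) = L g e t - L g e 0` for
`t ≤ 1/2`, `L g e t - L g e 1` for `t > 1/2` (`0` at vertices).  On `U (inl p)` the function
`Ψ + log f (p)` is a continuous logarithm of `f` (`contOn1`), so
`t ↦ (l t - Ψ (γ t)).im - ahol α (pos (γ 0)) (F t)` is locally constant (`log_eventually`). -/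
theorem fr_log (f : E → ℂ) (hf : ContinuousOn f C.sk1) (h0 : ∀ y ∈ C.sk1, f y ≠ 0) :
    ∃ α : G → C.S → ℝ, ∀ (γ : C(I, E)) (F : I → FreeGroup C.S) (l : C(I, ℂ)), C.Fr γ F →
      γ 1 = γ 0 → (∀ t, Complex.exp (l t) = f (γ t)) →
      ahol C.π α (C.pos (γ 0)) (F 1) = (l 1 - l 0).im := by
  have hm : ∀ (g : G) e t, g • C.ed e t ∈ C.sk1 := fun g e t => Or.inr ⟨g, e, t, rfl⟩
  choose L hL using fun (g : G) (e : C.S) => exists_log
    ⟨fun t => f (g • C.ed e t), hf.comp_continuous ((C.ed e).continuous.const_smul g) (hm g e)⟩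
    fun t => h0 _ (hm g e t)
  replace hL : ∀ (g : G) e t, Complex.exp (L g e t) = f (g • C.ed e t) := hL
  obtain ⟨Ψ, hv, he⟩ := C.fr_cob_cell (fun _ => (0 : ℂ))
    (fun g e t => if 1 / 2 < (t : ℝ) then L g e t - L g e 1 else L g e t - L g e 0)
    (fun g e => by rw [if_neg (by norm_num), sub_self])
    (fun g e => by rw [if_pos (by norm_num), sub_self])
  obtain ⟨Λ, -, hΛ⟩ := C.fr_cob_cell0 (fun _ => (0 : ℂ)) fun g e t => L g e t
  refine ⟨fun g e => (L g e 1 - L g e 0).im, fun γ F l h hγ hl => ?_⟩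
  rw [C.fr_cob_key _ h (fun t => (l t - Ψ (γ t)).im) fun i t₀ hi => ?_]
  · simp only [hγ, Complex.sub_im]
    ring
  have key : ∃ (M : E → ℂ) (c : ℝ), ContinuousOn M (C.U i ∩ C.sk1) ∧
      (∀ y ∈ C.U i, Complex.exp (M y) = f y) ∧ ∀ y ∈ C.U i,
        (M y - Ψ y).im + ahol C.π (fun g e => (L g e 1 - L g e 0).im) (C.pos y) (C.k i y) = c := by
    rcases i with p | ⟨g, e⟩
    · have hp : f (p.1 • C.vx p.2) ≠ 0 := h0 _ (Or.inl ⟨_, _, rfl⟩)
      refine ⟨fun y => Ψ y + Complex.log (f (p.1 • C.vx p.2)),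
        (Complex.log (f (p.1 • C.vx p.2))).im, ?_, fun y hy => ?_, fun y _ => ?_⟩
      · refine ContinuousOn.add (C.contOn1 (fun g e => C.isOpen_ed_U g e _) fun g e => ?_)
          continuousOn_const
        intro t ht
        refine ContinuousAt.continuousWithinAt ?_
        simp only [he]
        rcases lt_or_gt_of_ne (C.fr_log_mid ht) with h1 | h1
        · refine ((L g e).continuous.sub continuous_const).continuousAt.congr
            (g := fun t : I => if 1 / 2 < (t : ℝ) then L g e t - L g e 1 else L g e t - L g e 0)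
            (f := fun t => L g e t - L g e 0) ?_
          filter_upwards [(isOpen_lt continuous_subtype_val continuous_const).mem_nhds h1] with s hs
          rw [if_neg (not_lt.2 (le_of_lt hs))]
        · refine ((L g e).continuous.sub continuous_const).continuousAt.congr
            (g := fun t : I => if 1 / 2 < (t : ℝ) then L g e t - L g e 1 else L g e t - L g e 0)
            (f := fun t => L g e t - L g e 1) ?_
          filter_upwards [(isOpen_lt continuous_const continuous_subtype_val).mem_nhds h1] with s hs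
          rw [if_pos hs]
      · rw [Complex.exp_add, Complex.exp_log hp]
        rcases hy with rfl | ⟨e, t, h1, h2, rfl⟩ | ⟨e, t, h1, h2, rfl⟩
        · rw [hv, Complex.exp_zero, one_mul]
        · rw [he, if_neg (by linarith), Complex.exp_sub, hL, hL, C.ed0, h1,
            div_mul_cancel₀ _ hp]
        · rw [he, if_pos h2, Complex.exp_sub, hL, hL, C.ed1, smul_smul, inv_mul_cancel_right, h1,
            div_mul_cancel₀ _ hp]
      · change _ + ahol _ _ _ 1 = _
        rw [ahol_one, add_zero, add_sub_cancel_left]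
    · refine ⟨Λ, (L g e 0).im, C.contOn1 (fun g e => C.isOpen_ed_U g e _) fun g' e' => ?_, ?_, ?_⟩
      · refine (L g' e').continuous.continuousOn.congr ?_
        rintro t ⟨t', h0', h1', ht⟩
        obtain ⟨-, -, rfl⟩ := C.fr_cob_ed_inj h0' h1' ht.symm
        exact hΛ g' e' t' h0' h1'
      · rintro y ⟨t, h0', h1', rfl⟩
        rw [hΛ _ _ _ h0' h1', hL]
      · rintro y ⟨t, h0', h1', rfl⟩
        rw [C.fr_cob_kinr _ g e h0' h1', he, hΛ _ _ _ h0' h1']
        split_ifs <;> simp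
  obtain ⟨M, c, hM, hMf, hc⟩ := key
  have h1 := log_eventually (l := l) (l' := fun t => M (γ t)) (s := γ ⁻¹' C.U i) hi
    l.continuous.continuousWithinAt
    (hM.comp γ.continuous.continuousOn (fun t ht => ⟨ht, h.1 t⟩) t₀ hi)
    fun t ht => by rw [hl, hMf _ ht]
  filter_upwards [h1, self_mem_nhdsWithin] with t h2 ht
  have h3 := congrArg Complex.im h2
  have h4 := hc _ ht
  have h5 := hc _ hi
  simp only [Complex.sub_im] at h3 h4 h5 ⊢
  linarith

/-- Extension from a finite subgraph: keep `v` on the vertices where it is non-zero (`1` on the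
others) and on the edges where it has no zero; on the other edges interpolate logarithms of the
end values. -/
theorem exists_ext (v : C(E, ℂ)) : ∃ f : E → ℂ, ContinuousOn f C.sk1 ∧ (∀ y ∈ C.sk1, f y ≠ 0) ∧
    (∀ (g : G) u, v (g • C.vx u) ≠ 0 → f (g • C.vx u) = v (g • C.vx u)) ∧
    ∀ (g : G) e, (∀ t, v (g • C.ed e t) ≠ 0) → ∀ t, f (g • C.ed e t) = v (g • C.ed e t) := by
  classical
  let a : G × C.V → ℂ := fun p => if v (p.1 • C.vx p.2) ≠ 0 then v (p.1 • C.vx p.2) else 1
  have ha : ∀ p, a p ≠ 0 := fun p => by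
    simp only [a]
    split_ifs with h
    · exact h
    · exact one_ne_zero
  have ha' : ∀ (g : G) u, v (g • C.vx u) ≠ 0 → a (g, u) = v (g • C.vx u) := fun g u h => if_pos h
  obtain ⟨f, hv, he⟩ := C.fr_cob_cell a
    (fun g e t => if ∀ t, v (g • C.ed e t) ≠ 0 then v (g • C.ed e t) else
      Complex.exp ((1 - ((t : ℝ) : ℂ)) * Complex.log (a (g, C.src e)) +
        ((t : ℝ) : ℂ) * Complex.log (a (g * C.lab e, C.tgt e))))
    (fun g e => by
      split_ifs with h
      · have := h 0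
        rw [C.ed0] at this ⊢
        exact (ha' _ _ this).symm
      · simp [Complex.exp_log (ha _)])
    (fun g e => by
      split_ifs with h
      · have := h 1
        rw [C.ed1, smul_smul] at this ⊢
        exact (ha' _ _ this).symm
      · simp [Complex.exp_log (ha _)])
  refine ⟨f, ?_, ?_, fun g u h => by rw [hv, ha' g u h], fun g e h t => by rw [he, if_pos h]⟩
  · have := C.contOn1 (B := Set.univ) (f := f) (fun g e => isOpen_univ) fun g e => by
      refine Continuous.continuousOn ?_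
      simp only [he]
      split_ifs with h
      · exact v.continuous.comp ((C.ed e).continuous.const_smul g)
      · fun_prop
    rwa [Set.univ_inter] at this
  · rintro y (⟨g, u, rfl⟩ | ⟨g, e, t, rfl⟩)
    · rw [hv]; exact ha _
    · rw [he]
      split_ifs with h
      · exact h t
      · exact Complex.exp_ne_zero _

/-- The complex part of a quaternion. -/
noncomputable def windCp (x : ℍ) : ℂ := (x.re : ℂ) + (x.imI : ℂ) * Complex.I

theorem windCp_continuous : Continuous windCp :=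
  (Complex.continuous_ofReal.comp Quaternion.continuous_re).add
    ((Complex.continuous_ofReal.comp Quaternion.continuous_imI).mul continuous_const)

theorem windCp_comm {x : ℍ} (h : qi * x = x * qi) : x.imJ = 0 ∧ x.imK = 0 := by
  have h1 := congrArg (fun y : ℍ => y.imJ) h
  have h2 := congrArg (fun y : ℍ => y.imK) h
  simp [qi] at h1 h2
  constructor <;> linarith

theorem windCp_ne {x : ℍ} (h : qi * x = x * qi) (h0 : x ≠ 0) : windCp x ≠ 0 := fun h1 => by
  have h2 := congrArg Complex.re h1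
  have h3 := congrArg Complex.im h1
  simp [windCp] at h2 h3
  exact h0 (Quaternion.ext _ _ h2 h3 (windCp_comm h).1 (windCp_comm h).2)

/-- The quaternion `j`. -/
def windJ : ℍ := ⟨0, 0, 1, 0⟩

/-- The clutching function. -/
noncomputable def windQ (z : I × I) : ℍ :=
  ((z.2 : ℝ) * Real.cos (2 * Real.pi * z.1)) • (1 : ℍ) +
    ((z.2 : ℝ) * Real.sin (2 * Real.pi * z.1)) • qi + (1 - (z.2 : ℝ)) • windJ

theorem windQ_continuous : Continuous windQ := by
  unfold windQ
  fun_prop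

theorem windQ_ne (z : I × I) : windQ z ≠ 0 := fun h => by
  have h1 := congrArg (fun y : ℍ => y.re) h
  have h2 := congrArg (fun y : ℍ => y.imI) h
  have h3 := congrArg (fun y : ℍ => y.imJ) h
  simp only [windQ, qi, windJ, Quaternion.re_add, Quaternion.re_smul, Quaternion.imI_add,
    Quaternion.imI_smul, Quaternion.imJ_add, Quaternion.imJ_smul, Quaternion.re_one,
    Quaternion.imI_one, Quaternion.imJ_one, Quaternion.re_zero, Quaternion.imI_zero,
    Quaternion.imJ_zero, smul_eq_mul, mul_zero, mul_one, add_zero, zero_add] at h1 h2 h3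
  have h4 : (z.2 : ℝ) = 1 := by linarith
  rw [h4, one_mul] at h1 h2
  have := Real.sin_sq_add_cos_sq (2 * Real.pi * z.1)
  rw [h1, h2] at this
  norm_num at this

theorem windQ_zero (s s' : I) : windQ (s, 0) = windQ (s', 0) := by
  simp [windQ]

theorem windQ_per (r : I) : windQ (0, r) = windQ (1, r) := by
  simp [windQ]

theorem windQ_one (s : I) : windQ (s, 1) * qi * (windQ (s, 1))⁻¹ = qi := by
  have : windQ (s, 1) * qi = qi * windQ (s, 1) := by
    ext <;> simp [windQ, qi]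
  rw [this, mul_inv_cancel_right₀ (windQ_ne _)]

theorem windCp_mul (s : I) {x : ℍ} (h : qi * x = x * qi) : windCp (windQ (s, 1) * x) =
    Complex.exp (((2 * Real.pi * s : ℝ) : ℂ) * Complex.I) * windCp x := by
  obtain ⟨h1, h2⟩ := windCp_comm h
  rw [Complex.exp_mul_I, ← Complex.ofReal_cos, ← Complex.ofReal_sin]
  apply Complex.ext <;> simp [windCp, windQ, qi, h1, h2, -Complex.ofReal_cos, -Complex.ofReal_sin]

theorem wind_exists_n (d : G × C.R) : ∃ n : C(E, ℍ), (∀ y, n y * n y = -1) ∧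
    (∀ z, n (d.1 • C.fc d.2 z) = windQ z * qi * (windQ z)⁻¹) ∧ (∀ y ∈ C.sk1, n y = qi) ∧
    ∀ c : G × C.R, c ≠ d → ∀ z, n (c.1 • C.fc c.2 z) = qi := by
  classical
  let N : I × I → ℍ := fun z => windQ z * qi * (windQ z)⁻¹
  have hN : Continuous N :=
    (windQ_continuous.mul continuous_const).mul (windQ_continuous.inv₀ windQ_ne)
  have hq : qi * qi = -1 := by ext <;> simp [qi]
  let n : E → ℍ := fun y => if h : ∃ z, y = d.1 • C.fc d.2 z then N h.choose else qi
  have hex : ∀ y, n y = qi ∨ ∃ s r, r ≠ 1 ∧ y = d.1 • C.fc d.2 (s, r) ∧ n y = N (s, r) := by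
    intro y
    by_cases h : ∃ z, y = d.1 • C.fc d.2 z
    · have h1 : n y = N h.choose := dif_pos h
      have h2 := h.choose_spec
      generalize h.choose = z at h1 h2
      obtain ⟨s, r⟩ := z
      by_cases hr : r = 1
      · subst hr
        exact Or.inl (h1.trans (windQ_one s))
      · exact Or.inr ⟨s, r, hr, h2, h1⟩
    · exact Or.inl (dif_neg h)
  have h2 : ∀ y ∈ C.sk1, n y = qi := fun y hy => by
    rcases hex y with h | ⟨s, r, hr, h, -⟩
    · exact h
    · exact absurd (C.gbB_eq_one (h ▸ hy)) hr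
  have h3 : ∀ c : G × C.R, c ≠ d → ∀ z, n (c.1 • C.fc c.2 z) = qi := fun c hc z => by
    rcases hex (c.1 • C.fc c.2 z) with h | ⟨s, r, hr, h, -⟩
    · exact h
    · obtain ⟨h4, h5, -⟩ := C.gbB_fc_inj (s' := z.1) (r' := z.2) hr h.symm
      exact absurd (Prod.ext h4.symm h5.symm) hc
  have h1 : ∀ z, n (d.1 • C.fc d.2 z) = N z := by
    rintro ⟨s, r⟩
    by_cases hr : r = 1
    · subst hr
      exact (h2 _ (C.smul_mem_sk1 d.1 (C.bd_mem d.2 s))).trans (windQ_one s).symm
    · have h : ∃ z, d.1 • C.fc d.2 (s, r) = d.1 • C.fc d.2 z := ⟨_, rfl⟩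
      have h4 : n _ = N h.choose := dif_pos h
      have h5 := h.choose_spec
      generalize h.choose = z at h4 h5
      obtain ⟨s', r'⟩ := z
      obtain ⟨-, -, rfl, h6⟩ := C.gbB_fc_inj hr h5
      rw [h4]
      have : windQ (s', r) = windQ (s, r) := by
        rcases h6 with rfl | rfl | ⟨rfl, rfl⟩ | ⟨rfl, rfl⟩
        · exact windQ_zero _ _
        · rfl
        · exact (windQ_per r).symm
        · exact windQ_per r
      simp only [N, this]
  have hc : Continuous n := by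
    rw [← continuousOn_univ]
    refine C.contOn2 isOpen_univ (fun g e => ?_) fun g c => Continuous.continuousOn ?_
    · exact continuousOn_const.congr fun t _ => h2 _ (Or.inr ⟨g, e, t, rfl⟩)
    · by_cases h : (g, c) = d
      · subst h
        exact hN.congr fun z => (h1 z).symm
      · exact continuous_const.congr fun z => (h3 (g, c) h z).symm
  refine ⟨⟨n, hc⟩, fun y => ?_, h1, h2, h3⟩
  change n y * n y = -1
  rcases hex y with h | ⟨s, r, -, -, h⟩
  · rw [h, hq]
  · rw [h]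
    simp only [N]
    simp only [mul_assoc]
    rw [inv_mul_cancel_left₀ (windQ_ne _), ← mul_assoc qi, hq, neg_one_mul, mul_neg,
      mul_inv_cancel₀ (windQ_ne _)]

/-- With `q (s, r) = r e^{2πis} + (1 - r) j ≠ 0`, let `n = q * qi * q⁻¹` on the face `d` and
`n = qi` elsewhere (continuous by `contOn2`).  Take `v` from `exists_section` on the compact union
of the faces of `insert d K` and of the vertices and edges from `fc_fin`.  Where `n = qi` the value
`v` is complex; on the face `d`, `q⁻¹ * v` is complex.  Use `exists_ext` (for the complex part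
of `v`), `exists_log`, `wind_zero`. -/
theorem exists_wind [ContractibleSpace E] (K : Finset (G × C.R)) (d : G × C.R) :
    ∃ f : E → ℂ, ContinuousOn f C.sk1 ∧ (∀ y ∈ C.sk1, f y ≠ 0) ∧
      (∃ l : C(I, ℂ), (∀ s, Complex.exp (l s) = f (d.1 • C.bd d.2 s)) ∧
        (l 1 - l 0).im = 2 * Real.pi) ∧
      ∀ c ∈ K, c ≠ d → ∃ l : C(I, ℂ), (∀ s, Complex.exp (l s) = f (c.1 • C.bd c.2 s)) ∧
        l 1 = l 0 := by
  classical
  obtain ⟨n, hn, hn1, hn2, hn3⟩ := C.wind_exists_n d
  choose A B hAB using C.fc_fin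
  let L : G × C.R → Set E := fun c => Set.range (fun z => c.1 • C.fc c.2 z) ∪
    ⋃ e ∈ B c.2, Set.range fun t => (c.1 * e.1) • C.ed e.2 t
  have hL : IsCompact (⋃ c ∈ insert d K, L c) := by
    refine (insert d K).isCompact_biUnion fun c _ => IsCompact.union ?_ ?_
    · exact isCompact_range ((C.fc c.2).continuous.const_smul _)
    · exact (B c.2).isCompact_biUnion fun e _ =>
        isCompact_range ((C.ed e.2).continuous.const_smul _)
  obtain ⟨v, hv, hv0⟩ := exists_section n hn hL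
  have hvf : ∀ c ∈ insert d K, ∀ z, v (c.1 • C.fc c.2 z) ≠ 0 := fun c hc z =>
    hv0 _ (Set.mem_biUnion hc (Or.inl ⟨z, rfl⟩))
  let w : C(E, ℂ) := ⟨fun y => windCp (v y), windCp_continuous.comp v.continuous⟩
  have hw : ∀ y, n y = qi → v y ≠ 0 → w y ≠ 0 := fun y h1 h2 =>
    windCp_ne (by rw [← hv, h1]) h2
  obtain ⟨f, hf, hf0, hfv, hfe⟩ := C.exists_ext w
  have hfw : ∀ c ∈ insert d K, ∀ s, f (c.1 • C.bd c.2 s) = w (c.1 • C.fc c.2 (s, 1)) := by
    intro c hc s
    have h1 := hw _ (hn2 _ (C.smul_mem_sk1 c.1 (C.bd_mem c.2 s))) (hvf c hc (s, 1))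
    change f (c.1 • C.fc c.2 (s, 1)) = _
    change w (c.1 • C.fc c.2 (s, 1)) ≠ 0 at h1
    rcases hAB c.2 s with ⟨u, -, e⟩ | ⟨e, he, t, ht⟩
    · rw [e, ← mul_smul] at h1 ⊢
      exact hfv _ _ h1
    · rw [ht, ← mul_smul]
      refine hfe _ _ (fun t' => hw _ (hn2 _ (Or.inr ⟨_, _, _, rfl⟩)) (hv0 _ ?_)) t
      exact Set.mem_biUnion hc (Or.inr (Set.mem_biUnion he ⟨t', rfl⟩))
  refine ⟨f, hf, hf0, ?_, fun c hc hcd => ?_⟩
  · have hd : d ∈ insert d K := Finset.mem_insert_self _ _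
    have hcomm : ∀ z, qi * ((windQ z)⁻¹ * v (d.1 • C.fc d.2 z)) =
        (windQ z)⁻¹ * v (d.1 • C.fc d.2 z) * qi := fun z => by
      rw [mul_assoc, ← hv, hn1, mul_assoc, mul_assoc, inv_mul_cancel_left₀ (windQ_ne z)]
    let F : C(I × I, ℂ) := ⟨fun z => windCp ((windQ z)⁻¹ * v (d.1 • C.fc d.2 z)),
      windCp_continuous.comp ((windQ_continuous.inv₀ windQ_ne).mul
        (v.continuous.comp ((C.fc d.2).continuous.const_smul _)))⟩
    have hF : ∀ z, F z ≠ 0 := fun z =>
      windCp_ne (hcomm z) (mul_ne_zero (inv_ne_zero (windQ_ne z)) (hvf d hd z))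
    obtain ⟨l, hl⟩ := exists_log ⟨fun s => F (s, 1), by fun_prop⟩ fun s => hF _
    have h10 := wind_zero F hF (fun s => by
      change windCp _ = windCp _
      rw [windQ_zero s 0, C.fc_zero]) (fun r => by
      change windCp _ = windCp _
      rw [windQ_per r, C.fc_per]) l hl
    refine ⟨⟨fun s => l s + ((2 * Real.pi * s : ℝ) : ℂ) * Complex.I, by fun_prop⟩, fun s => ?_, ?_⟩
    · rw [hfw d hd]
      change Complex.exp (l s + _) = windCp _
      rw [Complex.exp_add, hl, mul_comm, ← mul_inv_cancel_left₀ (windQ_ne (s, 1))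
        (v (d.1 • C.fc d.2 (s, 1))), windCp_mul s (hcomm _)]
      rfl
    · simp [h10]
  · have hc' : c ∈ insert d K := Finset.mem_insert_of_mem hc
    let F : C(I × I, ℂ) := ⟨fun z => w (c.1 • C.fc c.2 z),
      w.continuous.comp ((C.fc c.2).continuous.const_smul _)⟩
    have hF : ∀ z, F z ≠ 0 := fun z => hw _ (hn3 c hcd z) (hvf c hc' z)
    obtain ⟨l, hl⟩ := exists_log ⟨fun s => F (s, 1), by fun_prop⟩ fun s => hF _
    refine ⟨l, fun s => by rw [hfw c hc', hl]; rfl, wind_zero F hF (fun s => ?_) (fun r => ?_) l hl⟩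
    · change w _ = w _
      rw [C.fc_zero]
    · change w _ = w _
      rw [C.fc_per]

end GCx

end Crest.Agent.R197
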