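import Crest.Agent.R197.Raag

/-! Row 197: the crossing cocycle; hyperplanes are two-sided. -/

set_option autoImplicit false

namespace Crest.Agent.R197

variable {Γ : SimpleGraph V}

theorem kap_one : kap (1 : Raag Γ) = 0 := by
  simp [kap]

theorem kapW_g (x : Raag Γ) : (kapW Γ x).g = x := by
  have : Wr.gHom.comp (kapW Γ) = MonoidHom.id _ :=
    MonoidHom.eq_of_eqOn_dense closure_gen (by
      rintro _ ⟨v, rfl⟩
      simp [kapW, Wr.gHom])
  exact DFunLike.congr_fun this x

theorem kap_mul_lt (x : Raag Γ) (a : Letter) :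
    kap (x * lt Γ a) = kap x + Pi.single (eh x a) (sg a) := by
  obtain ⟨v, b⟩ := a
  have h1 : kapW Γ (gen Γ v) =
      ⟨fun x => Multiplicative.ofAdd (Pi.single (hyp x v) 1), gen Γ v⟩ := rlift_gen _ _ v
  cases b
  · simp [kap, lt, eh, lo, sg, h1, kapW_g, Pi.single_neg]
  · simp [kap, lt, eh, lo, sg, h1, kapW_g]

theorem kap_mul_smul_eh (g x : Raag Γ) (a : Letter) : g • eh x a = eh (g * x) a := by
  rw [eh, eh, smul_hyp, mul_assoc]

theorem kap_mul (g x : Raag Γ) (H : Hyp Γ) : kap (g * x) H = kap g H + kap x (g⁻¹ • H) := by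
  induction x using raag_ind with
  | h1 => simp [kap_one]
  | hs x a ih =>
    rw [← mul_assoc, kap_mul_lt, kap_mul_lt, Pi.add_apply, Pi.add_apply, ih, add_assoc,
      ← kap_mul_smul_eh, Pi.single_apply, Pi.single_apply]
    simp only [inv_smul_eq_iff]

theorem smul_eh (g x : Raag Γ) (a : Letter) : g • eh x a = eh (g * x) a := by
  exact kap_mul_smul_eh g x a

theorem kap_finite (x : Raag Γ) : (Function.support (kap x)).Finite := by
  induction x using raag_ind with
  | h1 => simp [kap_one]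
  | hs x a ih =>
    rw [kap_mul_lt]
    refine (ih.insert (eh x a)).subset fun H hH => ?_
    by_cases h : H = eh x a
    · exact Or.inl h
    · right
      rw [Function.mem_support, Pi.add_apply, Pi.single_eq_of_ne h, add_zero] at hH
      exact hH

/-- Elements of `Cen v` only cross hyperplanes whose type is adjacent to `v`. -/
theorem kap_cen {v : V} {x : Raag Γ} (hx : x ∈ Cen Γ v) {H : Hyp Γ} (h : kap x H ≠ 0) :
    Γ.Adj v H.1 := by
  induction hx using Subgroup.closure_induction generalizing H with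
  | mem x hx =>
    obtain ⟨w, hw, rfl⟩ := hx
    have h1 := kap_mul_lt (1 : Raag Γ) (w, true)
    rw [one_mul, kap_one, zero_add] at h1
    have h2 : kap (gen Γ w) = _ := h1
    rw [h2] at h
    have h3 : H = eh 1 (w, true) := by
      by_contra h3
      exact h (Pi.single_eq_of_ne h3 _)
    rw [h3]
    exact hw
  | one => exact absurd (by rw [kap_one]; rfl) h
  | mul x y _ _ ihx ihy =>
    rw [kap_mul] at h
    by_cases h1 : kap x H = 0
    · rw [h1, zero_add] at h
      exact ihy (H := x⁻¹ • H) h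
    · exact ihx h1
  | inv x _ ih =>
    have h1 := kap_mul x⁻¹ x H
    rw [inv_mul_cancel, kap_one, Pi.zero_apply] at h1
    exact ih (H := x⁻¹⁻¹ • H) (by omega)

theorem cen_comm {v : V} {x : Raag Γ} (hx : x ∈ Cen Γ v) : Commute x (gen Γ v) := by
  induction hx using Subgroup.closure_induction with
  | mem x hx =>
    obtain ⟨w, hw, rfl⟩ := hx
    exact (gen_comm hw).symm
  | one => exact Commute.one_left _
  | mul x y _ _ ihx ihy => exact ihx.mul_left ihy
  | inv x _ ih => exact ih.inv_left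

theorem th_cen {v : V} {x : Raag Γ} (hx : x ∈ Cen Γ v) :
    Multiplicative.toAdd (th Γ x) v = 0 := by
  induction hx using Subgroup.closure_induction with
  | mem x hx =>
    obtain ⟨w, hw, rfl⟩ := hx
    rw [th, rlift_gen, toAdd_ofAdd, Pi.single_eq_of_ne (SimpleGraph.Adj.ne hw)]
  | one => simp
  | mul x y _ _ ihx ihy => rw [map_mul, toAdd_mul, Pi.add_apply, ihx, ihy, add_zero]
  | inv x _ ih => rw [map_inv, toAdd_inv, Pi.neg_apply, ih, neg_zero]

theorem eh_inj (x : Raag Γ) {a b : Letter} (h : eh x a = eh x b) : a = b := by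
  obtain ⟨u, p⟩ := a
  obtain ⟨v, q⟩ := b
  obtain ⟨h1, h2⟩ := hyp_eq_iff.1 h
  obtain rfl : u = v := h1
  have h3 := th_cen h2
  cases p <;> cases q <;> simp [lo, th] at h3 ⊢

theorem lt_comm {a b : Letter} (h : Γ.Adj a.1 b.1) : Commute (lt Γ a) (lt Γ b) := by
  unfold lt
  split_ifs
  · exact gen_comm h
  · exact (gen_comm h).inv_right
  · exact (gen_comm h).inv_left
  · exact (gen_comm h).inv_inv

theorem eh_mul_lt (x : Raag Γ) {a b : Letter} (h : Γ.Adj a.1 b.1) :
    eh (x * lt Γ b) a = eh x a := by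
  have h1 : Commute (lt Γ b) (lo Γ a) := by
    unfold lo
    split_ifs
    · exact Commute.one_right _
    · exact lt_comm (a := b) (b := (a.1, false)) h.symm
  have h2 : lt Γ b ∈ Cen Γ a.1 := by
    have : gen Γ b.1 ∈ Cen Γ a.1 := Subgroup.subset_closure ⟨b.1, h, rfl⟩
    unfold lt
    split_ifs
    · exact this
    · exact (Cen Γ a.1).inv_mem this
  refine hyp_eq_iff.2 ⟨rfl, ?_⟩
  rw [mul_assoc x, h1.eq]
  convert (Cen Γ a.1).inv_mem h2 using 1
  group

theorem eh_back (x : Raag Γ) (a : Letter) : eh (x * lt Γ a) (a.1, !a.2) = eh x a := by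
  obtain ⟨v, b⟩ := a
  cases b <;> simp [eh, lt, lo]

theorem th_lt (a : Letter) :
    Multiplicative.toAdd (th Γ (lt Γ a)) = Pi.single a.1 (sg a) := by
  obtain ⟨v, b⟩ := a
  cases b <;> simp [lt, th, sg, Pi.single_neg]

/-- The crossings of type `v` add up to the exponent sum. -/
theorem sum_kap (x : Raag Γ) (v : V) :
    ∑ᶠ H : Hyp Γ, (if H.1 = v then kap x H else 0) = Multiplicative.toAdd (th Γ x) v := by
  induction x using raag_ind with
  | h1 => simp [kap_one]
  | hs x a ih =>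
    have h1 : ∀ H : Hyp Γ, (if H.1 = v then kap (x * lt Γ a) H else 0) =
        (if H.1 = v then kap x H else 0) +
          (if H.1 = v then (Pi.single (eh x a) (sg a) : Hyp Γ → ℤ) H else 0) := by
      intro H
      rw [kap_mul_lt]
      split_ifs <;> simp
    have h2 : ∀ H : Hyp Γ, H ≠ eh x a →
        (if H.1 = v then (Pi.single (eh x a) (sg a) : Hyp Γ → ℤ) H else 0) = 0 := by
      intro H hH
      rw [Pi.single_eq_of_ne hH, ite_self]
    rw [finsum_congr h1, finsum_add_distrib, ih, finsum_eq_single _ (eh x a) h2, map_mul,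
      toAdd_mul, Pi.add_apply, th_lt, Pi.single_eq_same, Pi.single_apply]
    · simp only [eq_comm]
      rfl
    · refine (kap_finite x).subset fun H hH => ?_
      rw [Function.mem_support] at hH ⊢
      intro h0
      rw [h0, ite_self] at hH
      exact hH rfl
    · refine (Set.finite_singleton (eh x a)).subset fun H hH => ?_
      by_contra h
      exact hH (h2 H h)

theorem sum_th (x : Raag Γ) :
    ∑ v, Multiplicative.toAdd (th Γ x) v = Multiplicative.toAdd (ht Γ x) := by
  induction x using raag_ind with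
  | h1 => simp
  | hs x a ih =>
    rw [map_mul (th Γ), map_mul (ht Γ), toAdd_mul, toAdd_mul, ← ih, th_lt]
    simp only [Pi.add_apply, Finset.sum_add_distrib, Finset.sum_pi_single', Finset.mem_univ,
      if_true]
    obtain ⟨v, b⟩ := a
    cases b <;> simp [lt, ht, sg]

open Classical in
/-- An edge of the Cayley tree of a free group has two sides. -/
theorem K0_side {Q : Type} (f₀ : FreeGroup Q) (s₀ : Q) :
    ∃ side : FreeGroup Q → ℤ, (∀ f, side f = 0 ∨ side f = 1) ∧
      ∀ f s, side (f * FreeGroup.of s) = side f + if f = f₀ ∧ s = s₀ then 1 else 0 := by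
  refine ⟨fun f => if (f⁻¹ * f₀).toWord.getLast? = some (s₀, false) then 1 else 0, fun f => ?_,
    fun f s => ?_⟩
  · dsimp only
    split_ifs <;> simp
  · dsimp only
    have h1 : (f * FreeGroup.of s)⁻¹ * f₀ = FreeGroup.mk [(s, false)] * (f⁻¹ * f₀) := by
      rw [mul_inv_rev, mul_assoc]; rfl
    have h2 : f = f₀ ↔ (f⁻¹ * f₀).toWord = [] := by
      rw [FreeGroup.toWord_eq_nil_iff, inv_mul_eq_one]
    rw [h1]
    simp only [h2]
    generalize f⁻¹ * f₀ = u
    have h3 : (FreeGroup.mk [(s, false)] * u).toWord = FreeGroup.reduce ((s, false) :: u.toWord) := by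
      conv_lhs => rw [← FreeGroup.mk_toWord (x := u), FreeGroup.mul_mk, FreeGroup.toWord_mk]
      rfl
    rw [h3, FreeGroup.reduce.cons, FreeGroup.reduce_toWord]
    rcases u.toWord with _ | ⟨hd, tl⟩
    · simp
    · dsimp only
      by_cases hc : s = hd.1 ∧ false = !hd.2
      · simp only [if_pos hc]
        rcases tl with _ | ⟨hd', tl⟩
        · obtain ⟨a, b⟩ := hd
          cases b
          · simp at hc
          · simp
        · simp [List.getLast?_cons_cons]
      · simp only [if_neg hc]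
        simp [List.getLast?_cons_cons]

variable (Γ) in
/-- The Bass–Serre cocycle at the vertex `v`. -/
noncomputable def K0Phi (v : V) :
    Raag Γ →* Wr (Raag Γ) (FreeGroup (Raag Γ ⧸ Cen Γ v)) :=
  rlift (fun w => if w = v then ⟨fun x => FreeGroup.of (QuotientGroup.mk x), 1⟩
      else ⟨fun _ => 1, gen Γ w⟩) fun a b h => by
    have key : ∀ w, Γ.Adj v w → Commute
        (⟨fun x => FreeGroup.of (QuotientGroup.mk x), 1⟩ :
          Wr (Raag Γ) (FreeGroup (Raag Γ ⧸ Cen Γ v))) ⟨fun _ => 1, gen Γ w⟩ := by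
      intro w hw
      refine Wr.ext (funext fun x => ?_) (by simp)
      have h1 : gen Γ w ∈ Cen Γ v := Subgroup.subset_closure ⟨w, hw, rfl⟩
      simp only [Wr.mul_f, mul_one, one_mul, QuotientGroup.mk_mul_of_mem x h1]
    by_cases ha : a = v
    · have hb : b ≠ v := fun hb => h.ne (ha.trans hb.symm)
      rw [if_pos ha, if_neg hb]
      exact key b (ha ▸ h)
    · by_cases hb : b = v
      · rw [if_neg ha, if_pos hb]
        exact (key a (hb ▸ h.symm)).symm
      · rw [if_neg ha, if_neg hb]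
        exact Wr.ext (funext fun x => by simp) (gen_comm h).eq

theorem K0Phi_self (v : V) :
    K0Phi Γ v (gen Γ v) = ⟨fun x => FreeGroup.of (QuotientGroup.mk x), 1⟩ := by
  rw [K0Phi, rlift_gen, if_pos rfl]

theorem K0Phi_ne {v w : V} (h : w ≠ v) : K0Phi Γ v (gen Γ w) = ⟨fun _ => 1, gen Γ w⟩ := by
  rw [K0Phi, rlift_gen, if_neg h]

theorem K0Phi_lt {v w : V} (h : w ≠ v) (b : Bool) :
    K0Phi Γ v (lt Γ (w, b)) = ⟨fun _ => 1, lt Γ (w, b)⟩ := by
  cases b
  · change K0Phi Γ v (gen Γ w)⁻¹ = _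
    rw [map_inv, K0Phi_ne h]
    exact Wr.ext (funext fun x => by simp) rfl
  · exact K0Phi_ne h

theorem K0Phi_f_gen (v : V) (g : Raag Γ) : (K0Phi Γ v (g * gen Γ v)).f 1 =
    (K0Phi Γ v g).f 1 * FreeGroup.of (QuotientGroup.mk (K0Phi Γ v g).g) := by
  rw [map_mul, K0Phi_self, Wr.mul_f, one_mul]

theorem K0Phi_cen {v : V} {c : Raag Γ} (hc : c ∈ Cen Γ v) : K0Phi Γ v c = ⟨fun _ => 1, c⟩ := by
  induction hc using Subgroup.closure_induction with
  | mem x hx =>
    obtain ⟨w, hw, rfl⟩ := hx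
    exact K0Phi_ne (SimpleGraph.Adj.ne hw).symm
  | one => rw [map_one]; rfl
  | mul x y _ _ ihx ihy =>
    rw [map_mul, ihx, ihy]
    exact Wr.ext (funext fun x => by simp) rfl
  | inv x _ ih =>
    rw [map_inv, ih]
    exact Wr.ext (funext fun x => by simp) rfl

theorem K0_decomp (v : V) : ∃ ι : FreeGroup (Raag Γ ⧸ Cen Γ v) →* Raag Γ,
    ∀ g : Raag Γ, ι ((K0Phi Γ v g).f 1) * (K0Phi Γ v g).g = g := by
  let ι : FreeGroup (Raag Γ ⧸ Cen Γ v) →* Raag Γ :=
    FreeGroup.lift fun q => q.out * gen Γ v * q.out⁻¹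
  have hι : ∀ x : Raag Γ, ι (FreeGroup.of (QuotientGroup.mk x)) = x * gen Γ v * x⁻¹ := by
    intro x
    obtain ⟨c, hc⟩ := QuotientGroup.mk_out_eq_mul (Cen Γ v) x
    simp only [ι, FreeGroup.lift_apply_of]
    rw [hc, mul_assoc x, (cen_comm c.2).eq]
    group
  refine ⟨ι, fun g => ?_⟩
  induction g using raag_ind with
  | h1 => simp
  | hs g a ih =>
    obtain ⟨w, b⟩ := a
    by_cases hw : w = v
    · subst hw
      cases b
      · change ι ((K0Phi Γ w (g * (gen Γ w)⁻¹)).f 1) * (K0Phi Γ w (g * (gen Γ w)⁻¹)).g =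
          g * (gen Γ w)⁻¹
        rw [map_mul, map_inv, K0Phi_self]
        simp only [Wr.mul_f, Wr.mul_g, Wr.inv_f, Wr.inv_g, inv_one, mul_one, one_mul, map_mul,
          map_inv, hι]
        conv_rhs => rw [← ih]
        group
      · change ι ((K0Phi Γ w (g * gen Γ w)).f 1) * (K0Phi Γ w (g * gen Γ w)).g = g * gen Γ w
        rw [map_mul, K0Phi_self]
        simp only [Wr.mul_f, Wr.mul_g, mul_one, one_mul, map_mul, hι]
        conv_rhs => rw [← ih]
        group
    · rw [map_mul, K0Phi_lt hw]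
      simp only [Wr.mul_f, Wr.mul_g, mul_one]
      rw [← mul_assoc, ih]

theorem K0_hyp_iff (v : V) (g x₀ : Raag Γ) : hyp g v = hyp x₀ v ↔
    (K0Phi Γ v g).f 1 = (K0Phi Γ v x₀).f 1 ∧
      (QuotientGroup.mk (K0Phi Γ v g).g : Raag Γ ⧸ Cen Γ v) =
        QuotientGroup.mk (K0Phi Γ v x₀).g := by
  rw [hyp_eq_iff]
  constructor
  · rintro ⟨-, h⟩
    have h1 : x₀ = g * (g⁻¹ * x₀) := by group
    rw [h1, map_mul, K0Phi_cen h]
    simp only [Wr.mul_f, Wr.mul_g, mul_one, QuotientGroup.mk_mul_of_mem _ h, and_self]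
  · rintro ⟨h1, h2⟩
    obtain ⟨ι, hι⟩ := K0_decomp (Γ := Γ) v
    refine ⟨rfl, ?_⟩
    have h3 := QuotientGroup.eq.1 h2
    rw [← hι g, ← hι x₀, h1]
    convert h3 using 1
    group

/-- Hyperplanes are two-sided.  Fix `H = hyp x₀ v`, `C = Cen v`.  Let `Φ : Raag →* Wr Raag
(FreeGroup (Raag ⧸ C))` send `gen v ↦ ⟨x ↦ of (mk x), 1⟩` and `gen w ↦ ⟨1, gen w⟩` (`w ≠ v`);
write `φ g = (Φ g).f 1`, `ret g = (Φ g).g`, so `φ (g * gen v) = φ g * of (mk (ret g))` and
`φ (g * gen w) = φ g`.  With `ι (of (mk x)) = x * gen v * x⁻¹` one has `g = ι (φ g) * ret g`, and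
`Φ c = ⟨1, c⟩` on `C`; hence `hyp g v = hyp x₀ v ↔ φ g = φ x₀ ∧ mk (ret g) = mk (ret x₀)`.  Let
`side f = 1` if the reduced word of `(φ x₀)⁻¹ * f` starts with `(mk (ret x₀), true)`, else `0`;
then `side (f * of s) - side f` is `1` for `(f, s) = (φ x₀, mk (ret x₀))` and `0` otherwise, so
`kap g H = side (φ g) - side 1`. -/
theorem K0 (H : Hyp Γ) : ∃ c : ℤ, ∀ x : Raag Γ, kap x H = c ∨ kap x H = c + 1 := by
  classical
  obtain ⟨x₀, hx₀⟩ := hyp_surj H
  set v := H.1 with hv
  obtain ⟨side, hs1, hs2⟩ := K0_side ((K0Phi Γ v x₀).f 1)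
    (QuotientGroup.mk (K0Phi Γ v x₀).g : Raag Γ ⧸ Cen Γ v)
  have hstep : ∀ g : Raag Γ, side ((K0Phi Γ v (g * gen Γ v)).f 1) =
      side ((K0Phi Γ v g).f 1) + (Pi.single (hyp g v) 1 : Hyp Γ → ℤ) H := by
    intro g
    rw [K0Phi_f_gen, hs2, Pi.single_apply, ← hx₀]
    by_cases h : hyp g v = hyp x₀ v
    · rw [if_pos h.symm, if_pos ((K0_hyp_iff v g x₀).1 h)]
    · rw [if_neg (fun h' => h ((K0_hyp_iff v g x₀).2 h')), if_neg (Ne.symm h)]
  have key : ∀ g : Raag Γ, kap g H = side ((K0Phi Γ v g).f 1) - side 1 := by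
    intro g
    induction g using raag_ind with
    | h1 => simp [kap_one]
    | hs g a ih =>
      rw [kap_mul_lt, Pi.add_apply, ih]
      obtain ⟨w, b⟩ := a
      by_cases hw : w = v
      · subst hw
        cases b
        · have h1 := hstep (g * (gen Γ v)⁻¹)
          rw [inv_mul_cancel_right] at h1
          have h2 : (Pi.single (eh g (v, false)) (sg (v, false)) : Hyp Γ → ℤ) H =
              -(Pi.single (hyp (g * (gen Γ v)⁻¹) v) 1 : Hyp Γ → ℤ) H := by
            rw [← Pi.neg_apply, ← Pi.single_neg]; rfl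
          have h3 : lt Γ (v, false) = (gen Γ v)⁻¹ := rfl
          rw [h2, h3]
          omega
        · have h1 := hstep g
          have h2 : (Pi.single (eh g (v, true)) (sg (v, true)) : Hyp Γ → ℤ) H =
              (Pi.single (hyp g v) 1 : Hyp Γ → ℤ) H := by
            simp [eh, lo, sg]
          have h3 : lt Γ (v, true) = gen Γ v := rfl
          rw [h2, h3]
          omega
      · have h1 : H ≠ eh g (w, b) := fun h => hw (congrArg Sigma.fst h).symm
        rw [Pi.single_eq_of_ne h1, add_zero, map_mul, K0Phi_lt hw]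
        simp
  refine ⟨-side 1, fun x => ?_⟩
  rw [key]
  rcases hs1 ((K0Phi Γ v x).f 1) with h | h <;> omega

end Crest.Agent.R197
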