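import Crest.Agent.R197.K0

/-! Row 197: geodesics and descending letters. -/

set_option autoImplicit false

namespace Crest.Agent.R197

variable {Γ : SimpleGraph V}

theorem sg_cases (a : Letter) : sg a = 1 ∨ sg a = -1 := by
  unfold sg; split_ifs <;> simp

theorem sep_iff (x y : Raag Γ) (a : Letter) :
    Sep x y a ↔ kap y (eh x a) = kap x (eh x a) + sg a := by
  obtain ⟨c, hc⟩ := K0 (eh x a)
  have h1 := hc x
  have h2 := hc y
  have h3 := hc (x * lt Γ a)
  rw [kap_mul_lt, Pi.add_apply, Pi.single_eq_same] at h3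
  have h4 := sg_cases a
  unfold Sep
  omega

theorem sep_smul (g x y : Raag Γ) (a : Letter) : Sep (g * x) (g * y) a ↔ Sep x y a := by
  unfold Sep
  rw [kap_mul, kap_mul, ← smul_eh, inv_smul_smul]
  simp

theorem desc_iff (x : Raag Γ) (a : Letter) : Desc x a ↔ Sep x 1 a := by
  unfold Sep Desc
  rw [kap_one, Pi.zero_apply, ne_comm]

theorem desc_iff' (x : Raag Γ) (a : Letter) : Desc x a ↔ kap x (eh x a) + sg a = 0 := by
  rw [desc_iff, sep_iff, kap_one, Pi.zero_apply, eq_comm]

theorem len_one : len (1 : Raag Γ) = 0 := by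
  simp [len, kap_one]

theorem len_desc {x : Raag Γ} {a : Letter} (h : Desc x a) : len (x * lt Γ a) + 1 = len x := by
  have h1 := (desc_iff' x a).1 h
  have h2 : Function.support (kap (x * lt Γ a)) = Function.support (kap x) \ {eh x a} := by
    ext H
    rw [kap_mul_lt]
    by_cases hH : H = eh x a
    · subst hH
      simp [h1]
    · simp [hH]
  unfold len
  rw [h2]
  exact Set.ncard_diff_singleton_add_one h (kap_finite x)

theorem len_asc {x : Raag Γ} {a : Letter} (h : ¬ Desc x a) : len (x * lt Γ a) = len x + 1 := by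
  have h1 : kap x (eh x a) = 0 := by simpa [Desc] using h
  have h2 : Function.support (kap (x * lt Γ a)) = insert (eh x a) (Function.support (kap x)) := by
    ext H
    rw [kap_mul_lt]
    by_cases hH : H = eh x a
    · subst hH
      have := sg_cases a
      simp [h1]
      omega
    · simp [hH]
  unfold len
  rw [h2]
  exact Set.ncard_insert_of_notMem (fun h' => h' h1) (kap_finite x)

theorem desc_back (x : Raag Γ) (a : Letter) : Desc (x * lt Γ a) (a.1, !a.2) ↔ ¬ Desc x a := by
  rw [desc_iff' x a]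
  unfold Desc
  rw [eh_back, kap_mul_lt, Pi.add_apply, Pi.single_eq_same]

theorem desc_mul_lt (x : Raag Γ) {a b : Letter} (h : Γ.Adj a.1 b.1) :
    Desc (x * lt Γ b) a ↔ Desc x a := by
  unfold Desc
  have h1 : eh x a ≠ eh x b := fun h1 => h.ne (congrArg Sigma.fst h1)
  rw [eh_mul_lt x h, kap_mul_lt, Pi.add_apply, Pi.single_eq_of_ne h1, add_zero]

/-- Crossing back over the first hyperplane. -/
theorem K1_back {y : Raag Γ} {a b : Letter} (h : eh y b = eh 1 a) (hs : sg a + sg b = 0) :
    (lt Γ a)⁻¹ * y ∈ Cen Γ a.1 ∧ y * lt Γ b = (lt Γ a)⁻¹ * y := by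
  obtain ⟨u, p⟩ := a
  obtain ⟨v, q⟩ := b
  obtain ⟨h1, h2⟩ := hyp_eq_iff.1 h
  obtain rfl : v = u := h1
  have h3 := (Cen Γ v).inv_mem h2
  have h4 := cen_comm h3
  cases p <;> cases q
  · simp [sg] at hs
  · have e : ((y * lo Γ (v, true))⁻¹ * (1 * lo Γ (v, false)))⁻¹ = gen Γ v * y := by simp [lo]
    rw [e] at h3 h4
    have e1 : (lt Γ (v, false))⁻¹ = gen Γ v := by simp [lt]
    rw [e1]
    refine ⟨h3, ?_⟩
    have h5 := h4.eq
    rw [mul_assoc] at h5
    exact mul_left_cancel h5
  · have e : ((y * lo Γ (v, false))⁻¹ * (1 * lo Γ (v, true)))⁻¹ = y * (gen Γ v)⁻¹ := by simp [lo]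
    rw [e] at h3 h4
    have h5 : y * (gen Γ v)⁻¹ = (gen Γ v)⁻¹ * y := by
      have h5 := h4.eq
      rw [inv_mul_cancel_right] at h5
      rw [eq_inv_mul_iff_mul_eq]
      exact h5.symm
    exact ⟨h5 ▸ h3, h5⟩
  · simp [sg] at hs

variable (Γ) in
/-- The element of a word. -/
def K1wd (l : List Letter) : Raag Γ := (l.map (lt Γ)).prod

theorem K1wd_append (l : List Letter) (a : Letter) : K1wd Γ (l ++ [a]) = K1wd Γ l * lt Γ a := by
  simp [K1wd]

theorem K1_step (a : Letter) (l : List Letter) :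
    kap (lt Γ a * K1wd Γ l) (eh 1 a) = sg a ∨
      ∃ l' : List Letter, l'.length < l.length ∧ K1wd Γ l' = lt Γ a * K1wd Γ l := by
  induction l using List.reverseRecOn with
  | nil =>
    left
    have := kap_mul_lt (1 : Raag Γ) a
    rw [one_mul, kap_one, zero_add] at this
    rw [show K1wd Γ [] = 1 from rfl, mul_one, this, Pi.single_eq_same]
  | append_singleton l b ih =>
    rw [K1wd_append, ← mul_assoc]
    rcases ih with h | ⟨l', h1, h2⟩
    · by_cases hE : eh (lt Γ a * K1wd Γ l) b = eh 1 a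
      · right
        obtain ⟨c, hc⟩ := K0 (eh (1 : Raag Γ) a)
        have h1 := hc 1
        have h2 := hc (lt Γ a * K1wd Γ l)
        have h3 := hc (lt Γ a * K1wd Γ l * lt Γ b)
        rw [kap_mul_lt, Pi.add_apply, hE, Pi.single_eq_same, h] at h3
        rw [kap_one, Pi.zero_apply] at h1
        have h4 := sg_cases a
        have h5 := sg_cases b
        refine ⟨l, by simp, ?_⟩
        rw [(K1_back hE (by omega)).2, inv_mul_cancel_left]
      · left
        rw [kap_mul_lt, Pi.add_apply, Pi.single_eq_of_ne (Ne.symm hE), add_zero, h]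
    · exact Or.inr ⟨l' ++ [b], by simpa using h1, by rw [K1wd_append, h2]⟩

/-- Reduce to `x = 1`; take a shortest word `a₁ ⋯ aₙ` for `y`.  If its first hyperplane were
crossed again, at the next crossing the sign is opposite (`K0`), the element in between lies in
`Cen`, commutes with the letter (`cen_comm`), and the two letters cancel. -/
theorem K1 {x y : Raag Γ} (h : x ≠ y) : ∃ a, Sep x y a := by
  have key : ∀ (n : ℕ) (l : List Letter), l.length = n → K1wd Γ l ≠ 1 →
      ∃ a, Sep 1 (K1wd Γ l) a := by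
    intro n
    induction n using Nat.strong_induction_on with
    | _ n ih =>
      intro l hl hne
      rcases l with _ | ⟨a, l⟩
      · exact absurd rfl hne
      · have e : K1wd Γ (a :: l) = lt Γ a * K1wd Γ l := by simp [K1wd]
        rcases K1_step (Γ := Γ) a l with h1 | ⟨l', h1, h2⟩
        · refine ⟨a, (sep_iff _ _ _).2 ?_⟩
          rw [e, h1, kap_one, Pi.zero_apply, zero_add]
        · rw [e, ← h2] at hne ⊢
          exact ih _ (by rw [← hl, List.length_cons]; omega) l' rfl hne
  have hw : ∀ z : Raag Γ, ∃ l, K1wd Γ l = z := by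
    intro z
    induction z using raag_ind with
    | h1 => exact ⟨[], rfl⟩
    | hs z a ih =>
      obtain ⟨l, rfl⟩ := ih
      exact ⟨l ++ [a], K1wd_append l a⟩
  obtain ⟨l, hl⟩ := hw (x⁻¹ * y)
  obtain ⟨a, ha⟩ := key _ l rfl (by rw [hl]; exact fun h' => h (inv_mul_eq_one.1 h'))
  refine ⟨a, ?_⟩
  rw [← sep_smul x, hl, mul_one, mul_inv_cancel_left] at ha
  exact ha

theorem K2_aux {y : Raag Γ} {a b a' : Letter} (ha : Sep 1 y a) (hb : Sep 1 y b) (ha' : Desc y a')
    (h : eh y a' = eh 1 a) (hab : a ≠ b) : Γ.Adj a.1 b.1 := by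
  rw [sep_iff, kap_one, Pi.zero_apply, zero_add] at ha
  rw [desc_iff', h, ha] at ha'
  obtain ⟨h1, h2⟩ := K1_back h ha'
  rw [← h2] at h1
  have h3 : eh (1 : Raag Γ) b ≠ eh y a' := fun h3 => hab (eh_inj 1 (h3.trans h)).symm
  refine kap_cen (H := eh 1 b) h1 ?_
  rw [kap_mul_lt, Pi.add_apply, Pi.single_eq_of_ne h3, add_zero]
  unfold Sep at hb
  rwa [kap_one] at hb

/-- Reduce to `x = 1` and induct on `len y`: `y = y₁ * lt a'` with `len y₁ < len y` (`K1`).  Either
both hyperplanes still separate `1` from `y₁`, or, say, `eh 1 a = eh y₁ a'`; then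
`y₁ ∈ Cen a.1` and `kap_cen` applies to `eh 1 b`. -/
theorem K2 {x y : Raag Γ} {a b : Letter} (ha : Sep x y a) (hb : Sep x y b) :
    a = b ∨ Γ.Adj a.1 b.1 := by
  have key : ∀ (n : ℕ) (y : Raag Γ), len y = n → Sep 1 y a → Sep 1 y b →
      a = b ∨ Γ.Adj a.1 b.1 := by
    intro n
    induction n using Nat.strong_induction_on with
    | _ n ih =>
      intro y hy ha hb
      have hy1 : y ≠ 1 := by
        rintro rfl
        exact ha rfl
      obtain ⟨a', ha'⟩ := K1 hy1
      rw [← desc_iff] at ha'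
      by_cases hab : a = b
      · exact Or.inl hab
      by_cases h1 : eh y a' = eh 1 a
      · exact Or.inr (K2_aux ha hb ha' h1 hab)
      by_cases h2 : eh y a' = eh 1 b
      · exact Or.inr (K2_aux hb ha ha' h2 (Ne.symm hab)).symm
      refine ih _ (by have := len_desc ha'; omega) (y * lt Γ a') rfl ?_ ?_
      · unfold Sep at ha ⊢
        rwa [kap_mul_lt, Pi.add_apply, Pi.single_eq_of_ne (Ne.symm h1), add_zero]
      · unfold Sep at hb ⊢
        rwa [kap_mul_lt, Pi.add_apply, Pi.single_eq_of_ne (Ne.symm h2), add_zero]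
  refine key _ (x⁻¹ * y) rfl ?_ ?_
  · rwa [← sep_smul x, mul_one, mul_inv_cancel_left]
  · rwa [← sep_smul x, mul_one, mul_inv_cancel_left]

theorem exists_desc {x : Raag Γ} (h : x ≠ 1) : ∃ a, Desc x a := by
  obtain ⟨a, ha⟩ := K1 h
  exact ⟨a, (desc_iff x a).2 ha⟩

theorem desc_adj {x : Raag Γ} {a b : Letter} (ha : Desc x a) (hb : Desc x b) :
    a = b ∨ Γ.Adj a.1 b.1 := by
  exact K2 ((desc_iff x a).1 ha) ((desc_iff x b).1 hb)

theorem kap_injective : Function.Injective (kap : Raag Γ → Hyp Γ → ℤ) := by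
  intro x y h
  by_contra hne
  obtain ⟨a, ha⟩ := K1 hne
  exact ha (by rw [h])

theorem finite_len_le (n : ℕ) : {x : Raag Γ | len x ≤ n}.Finite := by
  induction n with
  | zero =>
    refine (Set.finite_singleton 1).subset fun x hx => ?_
    by_contra hne
    obtain ⟨a, ha⟩ := exists_desc hne
    have := len_desc ha
    have hx' : len x ≤ 0 := hx
    omega
  | succ n ih =>
    refine ((ih.image2 (fun (x : Raag Γ) (a : Letter) => x * (lt Γ a)⁻¹)
      Set.finite_univ).insert 1).subset fun x hx => ?_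
    by_cases hne : x = 1
    · exact Or.inl hne
    obtain ⟨a, ha⟩ := exists_desc hne
    have := len_desc ha
    have hx' : len x ≤ n + 1 := hx
    exact Or.inr ⟨x * lt Γ a, (by change len _ ≤ n; omega), a, Set.mem_univ _,
      mul_inv_cancel_right _ _⟩

end Crest.Agent.R197
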