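import Crest.Agent.R197.Deck

/-! Row 197: the equivariant cell structure of the universal cover. -/

set_option autoImplicit false

namespace Crest.Agent.R197

open scoped Topology unitInterval

theorem exists_gcx_cont {X E A : Type} [TopologicalSpace X] [TopologicalSpace E]
    [TopologicalSpace A] [SimplyConnectedSpace A] [LocallyPathConnectedSpace A] {p : E → X}
    (hp : IsCoveringMap p) {G : Type} [Group G] [MulAction G E] (h1 : ∀ (g : G) y, p (g • y) = p y)
    (h4 : ∀ (g : G) (γ γ' : C(I, E)), (∀ t, p (γ' t) = p (γ t)) → γ' 0 = g • γ 0 → γ' 1 = g • γ 1)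
    (g : G) (ψ : C(A, E)) : Continuous fun a => g • ψ a := by
  obtain ⟨a₀⟩ : Nonempty A := inferInstance
  obtain ⟨ψ', ⟨h0, hl⟩, -⟩ := hp.existsUnique_continuousMap_lifts
    (ContinuousMap.comp ⟨p, hp.continuous⟩ ψ) a₀ (g • ψ a₀) (h1 _ _)
  refine ψ'.continuous.congr fun a => ?_
  let δ := PathConnectedSpace.somePath a₀ a
  have := h4 g (ψ.comp δ) (ψ'.comp δ) (fun t => congrFun hl (δ t)) (by simpa using h0)
  simpa using this

/-- Take the action from `exists_deck`.  Lift vertices, edges (from the lifted source) and faces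
(`I × I` is simply connected and locally path connected).  A translate `g • ψ` of a lifted cell is
the continuous lift through `g • ψ z₀` (last clause of `exists_deck`, along a segment); so
`weak_cover` gives `weak`, and then the continuity of `g • ·`.  `fc_fin` follows from
`proper_cover`. -/
theorem exists_gcx {X E : Type} [TopologicalSpace X] [TopologicalSpace E] [T2Space X]
    [SimplyConnectedSpace E] {p : E → X} (hp : IsCoveringMap p) (hs : Function.Surjective p)
    (x : X) {G : Type} [Group G] (φ : FundamentalGroup X x ≃* G) (C : Cx X) :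
    ∃ _ : MulAction G E, ContinuousConstSMul G E ∧ Nonempty (GCx G E) := by
  classical
  obtain ⟨act, h1, h2, h3, h4⟩ := exists_deck hp hs x φ
  have : ContractibleSpace I := (convex_Icc (0 : ℝ) 1).contractibleSpace ⟨0, by simp⟩
  have : LocallyPathConnectedSpace I := (convex_Icc (0 : ℝ) 1).locallyPathConnectedSpace
  choose sec hsec using hs
  let vx : C.V → E := fun v => sec (C.vx v)
  have hvx : ∀ v, p (vx v) = C.vx v := fun v => hsec _
  have he0 : ∀ e, C.ed e 0 = p (vx (C.src e)) := fun e => by rw [hvx, C.ed0]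
  let ed : C.S → C(I, E) := fun e => hp.liftPath (C.ed e) (vx (C.src e)) (he0 e)
  have hed : ∀ e t, p (ed e t) = C.ed e t := fun e t => congrFun (hp.liftPath_lifts _ _ (he0 e)) t
  have hlab : ∀ e, ∃ g : G, g • vx (C.tgt e) = ed e 1 := fun e =>
    h2 _ _ (by rw [hvx, hed, C.ed1])
  choose lab hlab using hlab
  have hfc : ∀ c, ∃ F : C(I × I, E), ∀ z, p (F z) = C.fc c z := fun c => by
    obtain ⟨F, ⟨-, hF⟩, -⟩ := hp.existsUnique_continuousMap_lifts (C.fc c) (0, 0)
      (sec (C.fc c (0, 0))) (hsec _)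
    exact ⟨F, congrFun hF⟩
  choose fc hfc using hfc
  have ce : ∀ (g : G) e, Continuous fun t => g • ed e t := fun g e =>
    exists_gcx_cont hp h1 h4 g (ed e)
  have cf : ∀ (g : G) c, Continuous fun z => g • fc c z := fun g c =>
    exists_gcx_cont hp h1 h4 g (fc c)
  have weak : ∀ A : Set E, (∀ (g : G) e, IsClosed {t | g • ed e t ∈ A}) →
      (∀ (g : G) c, IsClosed {z | g • fc c z ∈ A}) → IsClosed A := by
    intro A hA hA'
    refine weak_cover hp C.ed C.fc C.weak A (fun e t y hy => ?_) (fun c z y hy => ?_)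
    · obtain ⟨g, hg⟩ := h2 (ed e t) y (by rw [hed, hy])
      exact ⟨⟨_, ce g e⟩, fun w => (h1 _ _).trans (hed e w), hg, hA g e⟩
    · obtain ⟨g, hg⟩ := h2 (fc c z) y (by rw [hfc, hy])
      exact ⟨⟨_, cf g c⟩, fun w => (h1 _ _).trans (hfc c w), hg, hA' g c⟩
  have hcont : ContinuousConstSMul G E := ⟨fun g => continuous_iff_isClosed.mpr fun B hB => by
    refine weak _ (fun h e => ?_) (fun h c => ?_)
    · have := hB.preimage (ce (g * h) e)
      simp only [mul_smul] at this
      exact this
    · have := hB.preimage (cf (g * h) c)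
      simp only [mul_smul] at this
      exact this⟩
  have hz : ∀ c s, fc c (s, 0) = fc c (0, 0) := fun c s =>
    hp.const_of_comp (g := fun s : I => fc c (s, 0)) (by fun_prop)
      (fun a a' => by rw [hfc, hfc, C.fc_zero c a, C.fc_zero c a']) s 0
  refine ⟨act, hcont, ⟨
    { V := C.V
      S := C.S
      R := C.R
      vx := vx
      ed := ed
      fc := fc
      src := C.src
      tgt := C.tgt
      lab := lab
      ed0 := fun e => hp.liftPath_zero _ _ (he0 e)
      ed1 := fun e => (hlab e).symm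
      free := h3
      vx_inj := fun g v v' h => C.vx_inj (by rw [← hvx, h, h1, hvx])
      ed_ne := fun e s g v h0 h0' h => C.ed_ne e s v h0 h0' (by rw [← hed, h, h1, hvx])
      ed_inj := fun e s g e' s' h0 h0' h =>
        C.ed_inj e s e' s' h0 h0' (by rw [← hed, h, h1, hed])
      fc_zero := hz
      fc_per := fun c r => ?_
      fc_fin := fun c => ?_
      fc_ne := fun c s r g hr =>
        ⟨fun v h => (C.fc_ne c s r hr).1 v (by rw [← hfc, h, h1, hvx]),
          fun e t h => (C.fc_ne c s r hr).2 e t (by rw [← hfc, h, h1, hed])⟩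
      fc_inj := fun c s r g c' s' r' hr h =>
        C.fc_inj c s r c' s' r' hr (by rw [← hfc, h, h1, hfc])
      cover := fun y => ?_
      weak := weak }⟩⟩
  · exact congrFun (hp.eq_of_comp_eq (g₁ := fun r : I => fc c (0, r))
      (g₂ := fun r : I => fc c (1, r)) (by fun_prop) (by fun_prop)
      (funext fun r => by simp only [Function.comp_apply, hfc, C.fc_per]) 0 (hz c 1).symm) r
  · obtain ⟨A, B, hAB⟩ := C.fc_fin c
    have hK : IsCompact ((vx '' (A : Set C.V)) ∪ ⋃ e ∈ B, Set.range (ed e)) :=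
      (A.finite_toSet.image _).isCompact.union
        (B.isCompact_biUnion fun e _ => isCompact_range (ed e).continuous)
    have hL : IsCompact (Set.range (fc c)) := isCompact_range (fc c).continuous
    have hfin := proper_cover hp h1 h2 h3 hK hL
    refine ⟨hfin.toFinset ×ˢ A, hfin.toFinset ×ˢ B, fun s => ?_⟩
    rcases hAB s with ⟨v, hv, h⟩ | ⟨e, he, t, h⟩
    · obtain ⟨g, hg⟩ := h2 (vx v) (fc c (s, 1)) (by rw [hvx, hfc, h])
      exact Or.inl ⟨(g, v), Finset.mem_product.mpr ⟨hfin.mem_toFinset.mpr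
        ⟨vx v, Or.inl ⟨v, hv, rfl⟩, _, hg.symm⟩, hv⟩, hg.symm⟩
    · obtain ⟨g, hg⟩ := h2 (ed e t) (fc c (s, 1)) (by rw [hed, hfc, h])
      exact Or.inr ⟨(g, e), Finset.mem_product.mpr ⟨hfin.mem_toFinset.mpr
        ⟨ed e t, Or.inr (Set.mem_biUnion he ⟨t, rfl⟩), _, hg.symm⟩, he⟩, t, hg.symm⟩
  · rcases C.cover (p y) with ⟨v, h⟩ | ⟨e, t, h⟩ | ⟨c, z, h⟩
    · obtain ⟨g, hg⟩ := h2 (vx v) y (by rw [hvx, h])
      exact Or.inl ⟨g, v, hg.symm⟩
    · obtain ⟨g, hg⟩ := h2 (ed e t) y (by rw [hed, h])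
      exact Or.inr (Or.inl ⟨g, e, t, hg.symm⟩)
    · obtain ⟨g, hg⟩ := h2 (fc c z) y (by rw [hfc, h])
      exact Or.inr (Or.inr ⟨g, c, z, hg.symm⟩)

end Crest.Agent.R197
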