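import Crest.Agent.R197.Defs

/-! Row 197: fillings of null-homotopic words, with a first-order expansion of the holonomy. -/

set_option autoImplicit false

namespace Crest.Agent.R197

open scoped Quaternion

namespace Pres
variable {G : Type} [Group G] (P : Pres G)

/-- The based loop around a 2-cell. -/
def cw (z : G → FreeGroup P.S) (c : G × P.R) : FreeGroup P.S := z c.1 * P.r c.2 * (z c.1)⁻¹

/-- `(K, κ)` fills the word `w` read from `1`. -/
structure Fills (z : G → FreeGroup P.S) (w : FreeGroup P.S) (K : Finset (G × P.R))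
    (κ : G × P.R → ℤ) (C : ℝ) : Prop where
  nonneg : 0 ≤ C
  supp : ∀ c, c ∉ K → κ c = 0
  flat : ∀ (Q : Type) [Group Q] (σ : G → P.S → Q), (∀ c ∈ K, P.curv σ c = 1) → hol P.π σ 1 w = 1
  add : ∀ α : G → P.S → ℝ, ahol P.π α 1 w = ∑ c ∈ K, (κ c : ℝ) * P.acurv α c
  lin : ∀ (σ : G → P.S → U) (ε : ℝ), 0 ≤ ε → ε ≤ 1 →
    (∀ c ∈ K, ‖((P.curv σ c : U) : ℍ) - 1‖ ≤ ε) →
    ‖((hol P.π σ 1 w : U) : ℍ) - 1 -
      ∑ c ∈ K, (κ c : ℝ) • (((hol P.π σ 1 (P.cw z c) : U) : ℍ) - 1)‖ ≤ C * ε ^ 2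

theorem lin_norm (x : U) : ‖(x : ℍ)‖ = 1 := norm_eq_of_mem_sphere x

theorem lin_ne (x : U) : (x : ℍ) ≠ 0 := fun h => by simpa [h] using lin_norm x

theorem lin_norm_conj (y x : U) : ‖((y * x * y⁻¹ : U) : ℍ) - 1‖ = ‖(x : ℍ) - 1‖ := by
  have : ((y * x * y⁻¹ : U) : ℍ) - 1 = (y : ℍ) * ((x : ℍ) - 1) * ((y⁻¹ : U) : ℍ) := by
    simp [mul_sub, sub_mul, lin_ne y]
  rw [this, norm_mul, norm_mul, lin_norm, lin_norm, one_mul, mul_one]

theorem lin_norm_inv (x : U) : ‖((x⁻¹ : U) : ℍ) - 1‖ = ‖(x : ℍ) - 1‖ := by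
  have : ((x⁻¹ : U) : ℍ) - 1 = -(((x⁻¹ : U) : ℍ) * ((x : ℍ) - 1)) := by
    simp [mul_sub, lin_ne x]
  rw [this, norm_neg, norm_mul, lin_norm, one_mul]

theorem lin_norm_mul (x y : U) :
    ‖((x * y : U) : ℍ) - 1‖ ≤ ‖(x : ℍ) - 1‖ + ‖(y : ℍ) - 1‖ := by
  have : ((x * y : U) : ℍ) - 1 = ((x : ℍ) - 1) + (x : ℍ) * ((y : ℍ) - 1) := by
    simp [mul_sub]
  rw [this]
  refine (norm_add_le _ _).trans ?_
  rw [norm_mul, lin_norm, one_mul]

theorem lin_comm (u p : U) :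
    ‖((u * p * u⁻¹ : U) : ℍ) - p‖ ≤ 2 * (‖(u : ℍ) - 1‖ * ‖(p : ℍ) - 1‖) := by
  have : ((u * p * u⁻¹ : U) : ℍ) - p = (((u : ℍ) - 1) * ((p : ℍ) - 1) -
      ((p : ℍ) - 1) * ((u : ℍ) - 1)) * ((u⁻¹ : U) : ℍ) := by
    have h : ((u : ℍ) - 1) * ((p : ℍ) - 1) - ((p : ℍ) - 1) * ((u : ℍ) - 1) =
        (u : ℍ) * p - p * u := by noncomm_ring
    rw [h]
    simp [sub_mul, lin_ne u]
  rw [this, norm_mul, lin_norm, mul_one]
  refine (norm_sub_le _ _).trans ?_
  rw [norm_mul, norm_mul]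
  linarith

/-- The based loop has the same distance to `1` as the curvature (conjugate unit quaternions). -/
theorem norm_cw (z : G → FreeGroup P.S) (hz : ∀ h, P.π (z h) = h) (σ : G → P.S → U)
    (c : G × P.R) :
    ‖((hol P.π σ 1 (P.cw z c) : U) : ℍ) - 1‖ = ‖((P.curv σ c : U) : ℍ) - 1‖ := by
  rw [cw, hol_conj _ _ _ _ (P.π_r c.2), lin_norm_conj, one_mul, hz]
  rfl

/-- A filling stays a filling on a larger set of cells. -/
theorem Fills.mono {z : G → FreeGroup P.S} {w : FreeGroup P.S} {K K' : Finset (G × P.R)}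
    {κ : G × P.R → ℤ} {C C' : ℝ} (h : P.Fills z w K κ C) (hK : K ⊆ K') (hC : C ≤ C') :
    P.Fills z w K' κ C' := by
  refine ⟨h.nonneg.trans hC, fun c hc => h.supp c fun h' => hc (hK h'),
    fun Q _ σ hσ => h.flat Q σ fun c hc => hσ c (hK hc), fun α => ?_, fun σ ε h0 h1 hσ => ?_⟩
  · rw [h.add]
    exact Finset.sum_subset hK fun c _ hc => by simp [h.supp c hc]
  · rw [← Finset.sum_subset hK fun c _ hc => by simp [h.supp c hc]]
    exact (h.lin σ ε h0 h1 fun c hc => hσ c (hK hc)).trans (by gcongr)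

theorem lin_ind (Q : FreeGroup P.S → Prop) (h1 : ∀ y c, Q (y * P.r c * y⁻¹)) (h2 : Q 1)
    (h3 : ∀ a b, P.π a = 1 → P.π b = 1 → Q a → Q b → Q (a * b))
    (h4 : ∀ a, P.π a = 1 → Q a → Q a⁻¹) (w : FreeGroup P.S) (hw : P.π w = 1) : Q w := by
  have hk : ∀ w, w ∈ Subgroup.closure (Group.conjugatesOfSet (Set.range P.r)) ↔ P.π w = 1 :=
    fun w => by rw [← MonoidHom.mem_ker, P.ker_eq]; rfl
  rw [← hk] at hw
  induction hw using Subgroup.closure_induction with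
  | mem x hx =>
    obtain ⟨_, ⟨c, rfl⟩, hx⟩ := Group.mem_conjugatesOfSet_iff.1 hx
    obtain ⟨y, rfl⟩ := isConj_iff.1 hx
    exact h1 y c
  | one => exact h2
  | mul a b ha hb iha ihb => exact h3 a b ((hk a).1 ha) ((hk b).1 hb) iha ihb
  | inv a ha iha => exact h4 a ((hk a).1 ha) iha

theorem lin_lip (w : FreeGroup P.S) (hw : P.π w = 1) : ∃ (K : Finset (G × P.R)) (C : ℝ), 0 ≤ C ∧
    ∀ (σ : G → P.S → U) (ε : ℝ), 0 ≤ ε → (∀ c ∈ K, ‖((P.curv σ c : U) : ℍ) - 1‖ ≤ ε) →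
      ‖((hol P.π σ 1 w : U) : ℍ) - 1‖ ≤ C * ε := by
  classical
  refine P.lin_ind (fun w => ∃ (K : Finset (G × P.R)) (C : ℝ), 0 ≤ C ∧
    ∀ (σ : G → P.S → U) (ε : ℝ), 0 ≤ ε → (∀ c ∈ K, ‖((P.curv σ c : U) : ℍ) - 1‖ ≤ ε) →
      ‖((hol P.π σ 1 w : U) : ℍ) - 1‖ ≤ C * ε) ?_ ?_ ?_ ?_ w hw
  · intro y c
    refine ⟨{(P.π y, c)}, 1, zero_le_one, fun σ ε _ h => ?_⟩
    rw [hol_conj _ _ _ _ (P.π_r c), lin_norm_conj, one_mul, one_mul]
    exact h (P.π y, c) (Finset.mem_singleton_self _)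
  · exact ⟨∅, 0, le_rfl, fun _ _ _ _ => by simp⟩
  · rintro a b ha - ⟨K, C, hC, h⟩ ⟨K', C', hC', h'⟩
    refine ⟨K ∪ K', C + C', by positivity, fun σ ε h0 hσ => ?_⟩
    rw [hol_mul, ha, mul_one, add_mul]
    exact (lin_norm_mul _ _).trans (add_le_add
      (h σ ε h0 fun c hc => hσ c (Finset.mem_union_left _ hc))
      (h' σ ε h0 fun c hc => hσ c (Finset.mem_union_right _ hc)))
  · rintro a ha ⟨K, C, hC, h⟩
    refine ⟨K, C, hC, fun σ ε h0 hσ => ?_⟩
    rw [hol_inv, ha, inv_one, mul_one, lin_norm_inv]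
    exact h σ ε h0 hσ

/-- Every null-homotopic word has a filling.  Induct over the normal closure
(`Subgroup.closure_induction` on conjugates `y * r c * y⁻¹`).  First prove the Lipschitz version
(`∃ K C`, curvature within `ε` on `K` gives holonomy within `C ε` of `1`); the conjugators
`hol 1 y` and `hol 1 (z (π y))` differ by the holonomy of the null word `y * (z (π y))⁻¹`. -/
theorem exists_fills (z : G → FreeGroup P.S) (hz : ∀ h, P.π (z h) = h) (w : FreeGroup P.S)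
    (hw : P.π w = 1) : ∃ K κ C, P.Fills z w K κ C := by
  classical
  refine P.lin_ind (fun w => ∃ K κ C, P.Fills z w K κ C) ?_ ?_ ?_ ?_ w hw
  · intro y c
    obtain ⟨K, C, hC, hK⟩ := P.lin_lip (y * (z (P.π y))⁻¹) (by simp [hz])
    refine ⟨insert (P.π y, c) K, fun d => if d = (P.π y, c) then 1 else 0, 2 * C, by positivity,
      fun d hd => if_neg fun h : d = (P.π y, c) => hd (h ▸ Finset.mem_insert_self _ _), fun Q _ σ hσ => ?_,
      fun α => ?_, fun σ ε h0 h1 hσ => ?_⟩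
    · have := hσ _ (Finset.mem_insert_self _ _)
      rw [curv] at this
      rw [hol_conj _ _ _ _ (P.π_r c), one_mul, this]
      simp
    · simp [ahol, hol_conj _ _ _ _ (P.π_r c), acurv]
    · have h2 := hK σ ε h0 fun d hd => hσ d (Finset.mem_insert_of_mem hd)
      have h3 := hσ _ (Finset.mem_insert_self _ _)
      rw [← P.norm_cw z hz] at h3
      have e : hol P.π σ 1 (y * P.r c * y⁻¹) = hol P.π σ 1 (y * (z (P.π y))⁻¹) *
          hol P.π σ 1 (P.cw z (P.π y, c)) * (hol P.π σ 1 (y * (z (P.π y))⁻¹))⁻¹ := by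
        rw [cw, hol_conj _ _ _ _ (P.π_r c), hol_conj _ _ _ _ (P.π_r c), hol_mul, hol_inv]
        simp [hz, mul_assoc]
      rw [Finset.sum_eq_single (P.π y, c) (fun d _ hd => by simp [hd]) (by simp), if_pos rfl,
        Int.cast_one, one_smul, sub_sub_sub_cancel_right, e]
      refine (lin_comm _ _).trans ?_
      calc _ ≤ 2 * (C * ε * ε) := by gcongr
        _ = _ := by ring
  · exact ⟨∅, fun _ => 0, 0, le_rfl, fun _ _ => rfl, fun _ _ _ _ => by simp, fun _ => by simp,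
      fun _ _ _ _ _ => by simp⟩
  · rintro a b ha hb ⟨K, κ, C, h⟩ ⟨K', κ', C', h'⟩
    obtain ⟨K1, C1, hC1, h1⟩ := P.lin_lip a ha
    obtain ⟨K2, C2, hC2, h2⟩ := P.lin_lip b hb
    let T := (K ∪ K') ∪ (K1 ∪ K2)
    replace h := h.mono P (K' := T) (fun x hx => by simp [T, hx]) le_rfl
    replace h' := h'.mono P (K' := T) (fun x hx => by simp [T, hx]) le_rfl
    refine ⟨T, fun d => κ d + κ' d, C + C' + C1 * C2, by have := h.nonneg; have := h'.nonneg; positivity,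
      fun d hd => by rw [h.supp d hd, h'.supp d hd, add_zero], fun Q _ σ hσ => ?_,
      fun α => ?_, fun σ ε h0 hε hσ => ?_⟩
    · rw [hol_mul, ha, mul_one, h.flat Q σ hσ, h'.flat Q σ hσ, mul_one]
    · rw [ahol_mul, ha, mul_one, h.add, h'.add, ← Finset.sum_add_distrib]
      exact Finset.sum_congr rfl fun d _ => by push_cast; ring
    · have e1 := h.lin σ ε h0 hε hσ
      have e2 := h'.lin σ ε h0 hε hσ
      have e3 := h1 σ ε h0 fun d hd => hσ d (by simp [T, hd])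
      have e4 := h2 σ ε h0 fun d hd => hσ d (by simp [T, hd])
      rw [hol_mul, ha, mul_one]
      simp only [Int.cast_add, add_smul, Finset.sum_add_distrib, Metric.unitSphere.coe_mul]
      generalize (∑ c ∈ T, (κ c : ℝ) • (((hol P.π σ 1 (P.cw z c) : U) : ℍ) - 1)) = L at e1 ⊢
      generalize (∑ c ∈ T, (κ' c : ℝ) • (((hol P.π σ 1 (P.cw z c) : U) : ℍ) - 1)) = L' at e2 ⊢
      generalize ((hol P.π σ 1 a : U) : ℍ) = x at e1 e3 ⊢
      generalize ((hol P.π σ 1 b : U) : ℍ) = y at e2 e4 ⊢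
      have : x * y - 1 - (L + L') = (x - 1 - L) + (y - 1 - L') + (x - 1) * (y - 1) := by
        noncomm_ring
      rw [this]
      refine (norm_add_le _ _).trans ((add_le_add (norm_add_le _ _) (norm_mul_le _ _)).trans ?_)
      calc _ ≤ C * ε ^ 2 + C' * ε ^ 2 + C1 * ε * (C2 * ε) := by gcongr
        _ = _ := by ring
  · rintro a ha ⟨K, κ, C, h⟩
    obtain ⟨K1, C1, hC1, h1⟩ := P.lin_lip a ha
    replace h := h.mono P (K' := K ∪ K1) Finset.subset_union_left le_rfl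
    refine ⟨K ∪ K1, fun d => -κ d, C + C1 * C1, by have := h.nonneg; positivity,
      fun d hd => by rw [h.supp d hd, neg_zero], fun Q _ σ hσ => ?_,
      fun α => ?_, fun σ ε h0 hε hσ => ?_⟩
    · rw [hol_inv, ha, inv_one, mul_one, h.flat Q σ hσ, inv_one]
    · rw [ahol_inv, ha, inv_one, mul_one, h.add, ← Finset.sum_neg_distrib]
      exact Finset.sum_congr rfl fun d _ => by push_cast; ring
    · have e1 := h.lin σ ε h0 hε hσ
      have e3 := h1 σ ε h0 fun d hd => hσ d (Finset.mem_union_right _ hd)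
      rw [hol_inv, ha, inv_one, mul_one]
      simp only [Int.cast_neg, neg_smul, Finset.sum_neg_distrib]
      generalize (∑ c ∈ K ∪ K1, (κ c : ℝ) • (((hol P.π σ 1 (P.cw z c) : U) : ℍ) - 1)) = L at e1 ⊢
      generalize hol P.π σ 1 a = x at e1 e3 ⊢
      have : ((x⁻¹ : U) : ℍ) - 1 - -L =
          -((x : ℍ) - 1 - L) - (((x⁻¹ : U) : ℍ) - 1) * ((x : ℍ) - 1) := by
        have h : ((x⁻¹ : U) : ℍ) * x = 1 := by simp [lin_ne x]
        rw [sub_mul, mul_sub, h]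
        noncomm_ring
      rw [this]
      refine (norm_sub_le _ _).trans ?_
      rw [norm_neg, norm_mul, lin_norm_inv]
      calc _ ≤ C * ε ^ 2 + C1 * ε * (C1 * ε) := by gcongr
        _ = _ := by ring

end Pres

end Crest.Agent.R197
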