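import Crest.Agent.R197.Indep
import Crest.Agent.R197.Lift
import Crest.Agent.R197.CxOf
import Crest.Prelude.Def_ClassifyingComplex

/-! Row 197: a two-dimensional classifying complex gives an aspherical presentation. -/

set_option autoImplicit false

namespace Crest.Agent.R197

open scoped _root_.Topology unitInterval

theorem presOf_path {G E : Type} [Group G] [TopologicalSpace E] [MulAction G E] (C : GCx G E)
    [T2Space E] [ContinuousConstSMul G E] [PathConnectedSpace E] {y y' : E} (hy : y ∈ C.sk1)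
    (hy' : y' ∈ C.sk1) : ∃ (γ : C(I, E)) (F : I → FreeGroup C.S), C.Fr γ F ∧ γ 0 = y ∧ γ 1 = y' := by
  obtain ⟨γ, hγ⟩ := C.sk1_joined hy hy'
  obtain ⟨F, hF⟩ := C.exists_fr (γ := γ.toContinuousMap) hγ
  exact ⟨_, F, hF, γ.source, γ.target⟩

/-- Generators `C.S`, `π = C.π`.  Fix a vertex `v₀`.  Relators: the words `r c = Fc c 1` of the
boundary loops, and for `v ≠ v₀` the word `p v` of a path in `sk1` from `vx v₀` to `vx v`
(`sk1_joined`, `exists_fr`); `Fr.pos` shows `π` kills them and is onto.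
Kernel: with `N` their normal closure and `Φ` from `exists_pot`, `Φ (g • vx v) = Φ (g • vx v₀)`
(`Fr.sm`), so `Φ ((g * lab e) • vx v₀) = Φ (g • vx v₀) * [of e]` (`fr_ed`) and
`Φ ((g * π w) • vx v₀) = Φ (g • vx v₀) * [w]`.
Duality: the cell `(x, c)` is the face `(x * (pos (bd c 0))⁻¹, c)` (`pos_smul`).  For
`d = (x, p v)` use `fr_cob` with the indicator of `(x, v)`.  For a face use `exists_wind`,
`fr_log`, divide by `2π`, and subtract the coboundary of `ψ (x, v) = ahol α x (p v)`,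
`ψ (x, v₀) = 0`. -/
theorem GCx.pres {G E : Type} [Group G] [TopologicalSpace E] [MulAction G E] (C : GCx G E)
    [T2Space E] [ContinuousConstSMul G E] [ContractibleSpace E] : Nonempty (Pres G) := by
  classical
  obtain ⟨v₀⟩ := C.nonempty_V
  have hvx : ∀ (g : G) v, g • C.vx v ∈ C.sk1 := fun g v => Or.inl ⟨g, v, rfl⟩
  have hvx1 : ∀ v, C.vx v ∈ C.sk1 := fun v => by simpa using hvx 1 v
  have hpos1 : ∀ v, C.pos (C.vx v) = 1 := fun v => by simpa using C.pos_vx 1 v
  choose Fc hFc using fun c => C.exists_fr (C.bd_mem c)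
  choose γ Fv hFv hγ0 hγ1 using fun v => presOf_path C (hvx1 v₀) (hvx1 v)
  have hloop : ∀ c, C.bd c 1 = C.bd c 0 := fun c => (C.fc_per c 1).symm
  have hπc : ∀ c, C.π (Fc c 1) = 1 := by
    intro c
    have := (hFc c).pos 1
    rw [hloop] at this
    exact mul_eq_left.1 this.symm
  have hπv : ∀ v, C.π (Fv v 1) = 1 := by
    intro v
    have := (hFv v).pos 1
    rw [hγ0, hγ1, hpos1, hpos1, one_mul] at this
    exact this.symm
  let r : C.R ⊕ {v : C.V // v ≠ v₀} → FreeGroup C.S :=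
    Sum.elim (fun c => Fc c 1) fun v => Fv v 1
  have hsm : ∀ (g : G) (δ : C(I, E)) t, GCx.sm g δ t = g • δ t := fun _ _ _ => rfl
  have hposc : ∀ (x : G) c, C.pos (GCx.sm (x * (C.pos (C.bd c 0))⁻¹) (C.bd c) 0) = x := by
    intro x c
    rw [hsm, C.pos_smul _ (C.bd_mem c 0), inv_mul_cancel_right]
  have hcob : ∀ ψ : G × C.V → ℝ, ∃ β : G → C.S → ℝ, (∀ x c, ahol C.π β x (Fc c 1) = 0) ∧
      ∀ x v, ahol C.π β x (Fv v 1) = ψ (x, v) - ψ (x, v₀) := by
    intro ψ
    obtain ⟨Ψ, h1, h2⟩ := C.fr_cob ψ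
    refine ⟨fun x e => ψ (x * C.lab e, C.tgt e) - ψ (x, C.src e), fun x c => ?_, fun x v => ?_⟩
    · have := h2 _ _ ((hFc c).sm (x * (C.pos (C.bd c 0))⁻¹))
      rw [hposc, hsm, hsm, hloop, sub_self] at this
      exact this
    · have := h2 _ _ ((hFv v).sm x)
      rw [hsm, hsm, hγ0, hγ1, C.pos_vx, h1, h1] at this
      exact this
  refine ⟨⟨C.S, C.R ⊕ {v : C.V // v ≠ v₀}, C.π, r, fun g => ?_, le_antisymm ?_ ?_, ?_⟩⟩
  · obtain ⟨δ, F, hF, h0, h1⟩ := presOf_path C (hvx1 v₀) (hvx g v₀)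
    refine ⟨F 1, ?_⟩
    have := hF.pos 1
    rw [h0, h1, hpos1, C.pos_vx, one_mul] at this
    exact this.symm
  · set N := Subgroup.normalClosure (Set.range r) with hN
    have hr : ∀ i, QuotientGroup.mk' N (r i) = 1 := fun i =>
      (QuotientGroup.eq_one_iff _).2 (Subgroup.subset_normalClosure ⟨i, rfl⟩)
    obtain ⟨Φ, hΦ⟩ := C.exists_pot (QuotientGroup.mk' N) Fc hFc fun c => hr (.inl c)
    have h1 : ∀ (g : G) v, Φ (g • C.vx v) = Φ (g • C.vx v₀) := by
      intro g v
      by_cases hv : v = v₀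
      · rw [hv]
      · have := hΦ _ _ ((hFv v).sm g)
        rw [hsm, hsm, hγ0, hγ1, show QuotientGroup.mk' N (Fv v 1) = 1 from hr (.inr ⟨v, hv⟩),
          mul_one] at this
        exact this
    have h2 : ∀ (g : G) e, Φ ((g * C.π (FreeGroup.of e)) • C.vx v₀) =
        Φ (g • C.vx v₀) * QuotientGroup.mk' N (FreeGroup.of e) := by
      intro g e
      obtain ⟨F, hF, hF1⟩ := GCx.fr_ed (C := C) e
      have := hΦ _ _ (hF.sm g)
      rw [hsm, hsm, C.ed0, C.ed1, ← mul_smul, h1, h1 g, hF1] at this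
      rw [← this, GCx.π, FreeGroup.lift_apply_of]
    have h3 : ∀ (w : FreeGroup C.S) (g : G), Φ ((g * C.π w) • C.vx v₀) =
        Φ (g • C.vx v₀) * QuotientGroup.mk' N w := by
      intro w
      induction w using FreeGroup.induction_on with
      | C1 => intro g; simp
      | of s => intro g; exact h2 g s
      | inv_of s ih =>
        intro g
        have := ih (g * (C.π (FreeGroup.of s))⁻¹)
        rw [inv_mul_cancel_right] at this
        rw [map_inv, map_inv, this, mul_inv_cancel_right]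
      | mul a b iha ihb => intro g; rw [map_mul, map_mul, ← mul_assoc, ihb, iha, mul_assoc]
    intro w hw
    have := h3 w 1
    rw [MonoidHom.mem_ker.1 hw, mul_one] at this
    exact (QuotientGroup.eq_one_iff _).1 (mul_eq_left.1 this.symm)
  · refine Subgroup.normalClosure_le_normal ?_
    rintro _ ⟨c | v, rfl⟩
    · exact hπc c
    · exact hπv v
  · rintro K ⟨x₀, c₀ | v₁⟩
    · let τ : G × (C.R ⊕ {v : C.V // v ≠ v₀}) → G × C.R := fun z =>
        Sum.elim (fun c => (z.1 * (C.pos (C.bd c 0))⁻¹, c))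
          (fun _ => (x₀ * (C.pos (C.bd c₀ 0))⁻¹, c₀)) z.2
      obtain ⟨f, hf, hf0, ⟨l₀, hl₀, hl₀'⟩, hK⟩ :=
        C.exists_wind (K.image τ) (x₀ * (C.pos (C.bd c₀ 0))⁻¹, c₀)
      obtain ⟨α, hα⟩ := C.fr_log f hf hf0
      have hα' : ∀ (x : G) c (l : C(I, ℂ)),
          (∀ s, Complex.exp (l s) = f ((x * (C.pos (C.bd c 0))⁻¹) • C.bd c s)) →
          ahol C.π α x (Fc c 1) = (l 1 - l 0).im := by
        intro x c l hl
        have := hα _ _ l ((hFc c).sm (x * (C.pos (C.bd c 0))⁻¹)) (by rw [hsm, hsm, hloop]) hl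
        rwa [hposc] at this
      obtain ⟨β, hβ1, hβ2⟩ := hcob fun z => if z.2 = v₀ then 0 else ahol C.π α z.1 (Fv z.2 1)
      refine ⟨(2 * Real.pi)⁻¹ • (α + (-1 : ℝ) • β), ?_, ?_⟩
      · rw [ahol_smul, ahol_add, ahol_smul]
        change _ * (ahol C.π α x₀ (Fc c₀ 1) + -1 * ahol C.π β x₀ (Fc c₀ 1)) = 1
        rw [hβ1, hα' x₀ c₀ l₀ hl₀, hl₀', mul_zero, add_zero]
        exact inv_mul_cancel₀ (by positivity)
      · rintro ⟨x, c | v⟩ hc hne
        · rw [ahol_smul, ahol_add, ahol_smul]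
          change _ * (ahol C.π α x (Fc c 1) + -1 * ahol C.π β x (Fc c 1)) = 0
          obtain ⟨l, hl, hl'⟩ := hK (x * (C.pos (C.bd c 0))⁻¹, c)
            (Finset.mem_image.2 ⟨_, hc, rfl⟩) (by
              intro h
              obtain ⟨h1, h2⟩ := Prod.ext_iff.1 h
              simp only at h1 h2
              subst h2
              exact hne (by rw [mul_right_cancel h1]))
          rw [hβ1, hα' x c l hl, hl']
          simp
        · rw [ahol_smul, ahol_add, ahol_smul]
          change _ * (ahol C.π α x (Fv v 1) + -1 * ahol C.π β x (Fv v 1)) = 0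
          rw [hβ2]
          simp [v.2]
    · obtain ⟨β, hβ1, hβ2⟩ := hcob fun z => if z = (x₀, v₁.1) then 1 else 0
      have hne0 : ∀ x : G, (x, v₀) ≠ (x₀, v₁.1) := fun x h => v₁.2 (Prod.ext_iff.1 h).2.symm
      refine ⟨β, ?_, ?_⟩
      · change ahol C.π β x₀ (Fv v₁ 1) = 1
        rw [hβ2, if_pos rfl, if_neg (hne0 _), sub_zero]
      · rintro ⟨x, c | v⟩ _ hne
        · exact hβ1 x c
        · change ahol C.π β x (Fv v 1) = 0
          rw [hβ2, if_neg (hne0 _), if_neg, sub_zero]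
          intro h
          obtain ⟨h1, h2⟩ := Prod.ext_iff.1 h
          simp only at h1 h2
          exact hne (by rw [h1, Subtype.ext h2])

theorem pres_of_dim2 {G : Type} [Group G] (h : Crest.Topology.HasClassifyingComplex G 2) :
    Nonempty (Pres G) := by
  obtain ⟨X, _, _, _, hd, ⟨E, _, p, _, hp, hs⟩, x, ⟨φ⟩⟩ := h
  obtain ⟨C⟩ := exists_cx X hd
  obtain ⟨_, _, ⟨D⟩⟩ := exists_gcx hp hs x φ C
  have := t2_cover hp
  exact D.pres

end Crest.Agent.R197
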