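import Crest.Agent.R197.K1

/-! Row 197: canonical completion of a finite convex subset of the right-angled Artin group. -/

set_option autoImplicit false

namespace Crest.Agent.R197

variable {Γ : SimpleGraph V}

theorem rfa_lt_not (v : V) (b : Bool) : lt Γ (v, b) * lt Γ (v, !b) = 1 := by
  cases b <;> simp [lt]

/-- The interval between `1` and `g`. -/
def rfaY (g : Raag Γ) : Set (Raag Γ) := {x | ∀ H, kap x H ∈ Set.uIcc 0 (kap g H)}

theorem rfaY_finite (g : Raag Γ) : (rfaY g).Finite := by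
  refine (finite_len_le (len g)).subset fun x hx => ?_
  refine Set.ncard_le_ncard (fun H hH => ?_) (kap_finite g)
  intro h0
  have := hx H
  rw [h0, Set.uIcc_self] at this
  exact hH this

theorem rfaY_mul_iff {g x : Raag Γ} (hx : x ∈ rfaY g) (a : Letter) :
    x * lt Γ a ∈ rfaY g ↔ kap x (eh x a) + sg a ∈ Set.uIcc 0 (kap g (eh x a)) := by
  constructor
  · intro h
    have := h (eh x a)
    rwa [kap_mul_lt, Pi.add_apply, Pi.single_eq_same] at this
  · intro h H
    rw [kap_mul_lt, Pi.add_apply]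
    by_cases hH : H = eh x a
    · rw [hH, Pi.single_eq_same]; exact h
    · rw [Pi.single_eq_of_ne hH, add_zero]; exact hx H

theorem rfaY_square {g x : Raag Γ} (hx : x ∈ rfaY g) {a b : Letter} (hab : Γ.Adj a.1 b.1)
    (ha : x * lt Γ a ∈ rfaY g) : x * lt Γ a * lt Γ b ∈ rfaY g ↔ x * lt Γ b ∈ rfaY g := by
  have hne : eh x b ≠ eh x a := fun h => hab.ne (congrArg Prod.fst (eh_inj x h)).symm
  rw [rfaY_mul_iff ha, rfaY_mul_iff hx, eh_mul_lt x hab.symm, kap_mul_lt, Pi.add_apply,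
    Pi.single_eq_of_ne hne, add_zero]

theorem rfaY_desc {g x : Raag Γ} (hx : x ∈ rfaY g) {a : Letter} (ha : Desc x a) :
    x * lt Γ a ∈ rfaY g := by
  rw [rfaY_mul_iff hx]
  have := (sep_iff x 1 a).1 ((desc_iff x a).1 ha)
  rw [← this, kap_one]
  exact Set.left_mem_uIcc

open Classical in
/-- Move in the current direction if possible, else turn round. -/
noncomputable def rfaF (Y : Set (Raag Γ)) (v : V) (b : Bool) (z : Raag Γ × (V → Bool)) :
    Raag Γ × (V → Bool) :=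
  if z.1 ∈ Y ∧ z.1 * lt Γ (v, xor b (z.2 v)) ∈ Y then (z.1 * lt Γ (v, xor b (z.2 v)), z.2)
  else (z.1, Function.update z.2 v (!z.2 v))

theorem rfaF_pos {Y : Set (Raag Γ)} {v : V} {b : Bool} {x : Raag Γ} {ε : V → Bool} (h1 : x ∈ Y)
    (h2 : x * lt Γ (v, xor b (ε v)) ∈ Y) :
    rfaF Y v b (x, ε) = (x * lt Γ (v, xor b (ε v)), ε) := if_pos ⟨h1, h2⟩

theorem rfaF_neg {Y : Set (Raag Γ)} {v : V} {b : Bool} {x : Raag Γ} {ε : V → Bool}
    (h : ¬ (x ∈ Y ∧ x * lt Γ (v, xor b (ε v)) ∈ Y)) :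
    rfaF Y v b (x, ε) = (x, Function.update ε v (!ε v)) := if_neg h

theorem rfaF_inv (Y : Set (Raag Γ)) (v : V) (b : Bool) (z : Raag Γ × (V → Bool)) :
    rfaF Y v (!b) (rfaF Y v b z) = z := by
  obtain ⟨x, ε⟩ := z
  by_cases h : x ∈ Y ∧ x * lt Γ (v, xor b (ε v)) ∈ Y
  · have e : x * lt Γ (v, xor b (ε v)) * lt Γ (v, xor (!b) (ε v)) = x := by
      rw [Bool.not_xor, mul_assoc, rfa_lt_not, mul_one]
    rw [rfaF_pos h.1 h.2, rfaF_pos h.2 (by rw [e]; exact h.1), e]
  · rw [rfaF_neg h, rfaF_neg (by simpa using h)]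
    simp

theorem rfaF_mem {Y : Set (Raag Γ)} (v : V) (b : Bool) {z : Raag Γ × (V → Bool)} (hz : z.1 ∈ Y) :
    (rfaF Y v b z).1 ∈ Y := by
  obtain ⟨x, ε⟩ := z
  by_cases h : x ∈ Y ∧ x * lt Γ (v, xor b (ε v)) ∈ Y
  · rw [rfaF_pos h.1 h.2]; exact h.2
  · rw [rfaF_neg h]; exact hz

theorem rfaF_comm (g : Raag Γ) {v w : V} (h : Γ.Adj v w) (b c : Bool)
    (z : Raag Γ × (V → Bool)) :
    rfaF (rfaY g) v b (rfaF (rfaY g) w c z) = rfaF (rfaY g) w c (rfaF (rfaY g) v b z) := by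
  obtain ⟨x, ε⟩ := z
  have hvw : v ≠ w := h.ne
  have e1 : Function.update ε w (!ε w) v = ε v := Function.update_of_ne hvw _ _
  have e2 : Function.update ε v (!ε v) w = ε w := Function.update_of_ne hvw.symm _ _
  have hneg : ¬ (x ∈ rfaY g ∧ x * lt Γ (v, xor b (ε v)) ∈ rfaY g) →
      ¬ (x ∈ rfaY g ∧ x * lt Γ (w, xor c (ε w)) ∈ rfaY g) →
      rfaF (rfaY g) v b (rfaF (rfaY g) w c (x, ε)) =
        rfaF (rfaY g) w c (rfaF (rfaY g) v b (x, ε)) := by
    intro h1 h2
    rw [rfaF_neg h1, rfaF_neg h2, rfaF_neg (by rwa [e1]), rfaF_neg (by rwa [e2]), e1, e2,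
      Function.update_comm hvw]
  by_cases hx : x ∈ rfaY g
  · have s1 := @rfaY_square Γ g x hx (v, xor b (ε v)) (w, xor c (ε w)) h
    have s2 := @rfaY_square Γ g x hx (w, xor c (ε w)) (v, xor b (ε v)) h.symm
    by_cases h1 : x * lt Γ (v, xor b (ε v)) ∈ rfaY g
    · by_cases h2 : x * lt Γ (w, xor c (ε w)) ∈ rfaY g
      · rw [rfaF_pos hx h1, rfaF_pos hx h2, rfaF_pos h2 ((s2 h2).2 h1), rfaF_pos h1 ((s1 h1).2 h2),
          mul_assoc, mul_assoc, (lt_comm (a := (v, xor b (ε v))) (b := (w, xor c (ε w))) h).eq]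
      · rw [rfaF_pos hx h1, rfaF_neg fun h' => h2 h'.2, rfaF_pos hx (by rwa [e1]),
          rfaF_neg fun h' => h2 ((s1 h1).1 h'.2), e1]
    · by_cases h2 : x * lt Γ (w, xor c (ε w)) ∈ rfaY g
      · rw [rfaF_pos hx h2, rfaF_neg (v := v) (x := x) fun h' => h1 h'.2,
          rfaF_pos (v := w) hx (by rwa [e2]), rfaF_neg fun h' => h1 ((s2 h2).1 h'.2), e2]
      · exact hneg (fun h' => h1 h'.2) fun h' => h2 h'.2
  · exact hneg (fun h' => hx h'.1) fun h' => hx h'.1

/-- The permutation attached to a generator. -/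
noncomputable def rfaP (Y : Set (Raag Γ)) (v : V) : Equiv.Perm (Raag Γ × (V → Bool)) :=
  ⟨rfaF Y v true, rfaF Y v false, rfaF_inv Y v true, rfaF_inv Y v false⟩

/-- The action of the group. -/
noncomputable def rfaHom (g : Raag Γ) : Raag Γ →* Equiv.Perm (Raag Γ × (V → Bool)) :=
  rlift (rfaP (rfaY g)) fun _ _ h => Equiv.ext fun z => rfaF_comm g h true true z

theorem rfaHom_lt (g : Raag Γ) (a : Letter) (z : Raag Γ × (V → Bool)) :
    rfaHom g (lt Γ a) z = rfaF (rfaY g) a.1 a.2 z := by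
  obtain ⟨v, b⟩ := a
  have h : rfaHom g (gen Γ v) = rfaP (rfaY g) v := rlift_gen _ _ v
  cases b
  · simp only [lt, Bool.false_eq_true, if_false, map_inv, h]
    rfl
  · simp only [lt, if_true, h]
    rfl

theorem rfaHom_mem (g x : Raag Γ) :
    ∀ z : Raag Γ × (V → Bool), z.1 ∈ rfaY g → (rfaHom g x z).1 ∈ rfaY g := by
  induction x using raag_ind with
  | h1 => intro z hz; simpa using hz
  | hs x a ih =>
    intro z hz
    rw [map_mul, Equiv.Perm.mul_apply, rfaHom_lt]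
    exact ih _ (rfaF_mem _ _ hz)

theorem rfaHom_inv (g : Raag Γ) (n : ℕ) : ∀ x ∈ rfaY g, len x = n →
    rfaHom g x⁻¹ (1, fun _ => true) = (x, fun _ => true) := by
  induction n with
  | zero =>
    intro x _ hn
    by_cases h : x = 1
    · simp [h]
    · obtain ⟨a, ha⟩ := exists_desc h
      have := len_desc ha
      omega
  | succ n ih =>
    intro x hx hn
    have h : x ≠ 1 := by
      rintro rfl
      rw [len_one] at hn
      omega
    obtain ⟨⟨v, b⟩, ha⟩ := exists_desc h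
    have h1 := len_desc ha
    have hx' := rfaY_desc hx ha
    have e : x⁻¹ = lt Γ (v, b) * (x * lt Γ (v, b))⁻¹ := by group
    have e' : x * lt Γ (v, b) * lt Γ (v, xor b true) = x := by
      rw [Bool.xor_true, mul_assoc, rfa_lt_not, mul_one]
    rw [e, map_mul, Equiv.Perm.mul_apply, ih _ hx' (by omega), rfaHom_lt,
      rfaF_pos hx' (by rw [e']; exact hx), e']

theorem rfa_main (Γ : SimpleGraph V) : Group.ResiduallyFinite (Raag Γ) := by
  rw [Group.residuallyFinite_iff_exists_finiteIndex]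
  intro g hg
  let _ : MulAction (Raag Γ) (Raag Γ × (V → Bool)) := MulAction.compHom _ (rfaHom g)
  have hsm : ∀ (x : Raag Γ) (z : Raag Γ × (V → Bool)), x • z = rfaHom g x z := fun _ _ => rfl
  have h1 : (1 : Raag Γ) ∈ rfaY g := fun H => by rw [kap_one]; exact Set.left_mem_uIcc
  have hgY : g ∈ rfaY g := fun H => Set.right_mem_uIcc
  refine ⟨MulAction.stabilizer (Raag Γ) ((1 : Raag Γ), fun _ : V => true), ⟨?_⟩, fun h => ?_⟩
  · rw [MulAction.index_stabilizer]
    refine ((Set.ncard_pos ?_).2 (MulAction.nonempty_orbit _)).ne'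
    refine ((rfaY_finite g).prod (Set.finite_univ (α := V → Bool))).subset ?_
    rintro _ ⟨x, rfl⟩
    exact ⟨rfaHom_mem g x _ h1, trivial⟩
  · have h2 := (MulAction.stabilizer (Raag Γ) ((1 : Raag Γ), fun _ : V => true)).inv_mem h
    rw [MulAction.mem_stabilizer_iff, hsm, rfaHom_inv g _ g hgY rfl] at h2
    exact hg (congrArg Prod.fst h2)

end Crest.Agent.R197
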