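import Crest.Agent.R197.K1
import Crest.Agent.R197.RFa

/-! Row 197: residual finiteness, finite generation, non-vanishing in degree two. -/

set_option autoImplicit false

namespace Crest.Agent.R197

/-- For `g ≠ 1` let `Y = {x | ∀ H, kap x H ∈ Set.uIcc 0 (kap g H)}` (finite, `kap_injective`).
On `Y × (V → Bool)` let `s v` flip the `v`-th sign, and let `t v (x, ε)` be
`(x * lt (v, ε v), flip v ε)` if that point is in `Y`, else `(x, ε)`; both are involutions, and
for adjacent `a, b` the pairs commute (`eh_mul_lt`, `kap_mul_lt`: for `x ∈ Y`, membership of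
`x * lt a` only depends on `kap x (eh x a)`).  Send `gen v` to `(s v * t v)⁻¹`; then a letter `a`
with `x, x * lt a ∈ Y` has `(lt a)⁻¹` mapping `(x, true)` to `(x * lt a, true)`, so along a
geodesic (`K1`, induction on `len`) `x⁻¹` maps `(1, true)` to `(x, true)` for all `x ∈ Y`. -/
theorem raag_rf (Γ : SimpleGraph V) : Group.ResiduallyFinite (Raag Γ) :=
  rfa_main Γ

theorem rfb_ht_gen {Γ : SimpleGraph V} (v : V) : ht Γ (gen Γ v) = Multiplicative.ofAdd 1 :=
  rlift_gen _ _ v

theorem rfb_th_gen {Γ : SimpleGraph V} (v : V) :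
    th Γ (gen Γ v) = Multiplicative.ofAdd (Pi.single v 1) :=
  rlift_gen _ _ v

theorem rfb_q_mem {Γ : SimpleGraph V} (a b : V) : (gen Γ a)⁻¹ * gen Γ b ∈ BBG Γ := by
  simp [BBG, MonoidHom.mem_ker, rfb_ht_gen]

theorem rfb_P_mem {Γ : SimpleGraph V} (s : ℕ) (a b : V) :
    (gen Γ a ^ s)⁻¹ * gen Γ b ^ s ∈ BBG Γ := by
  simp [BBG, MonoidHom.mem_ker, rfb_ht_gen]

theorem rfb_comm {Γ : SimpleGraph V} (t : Tri Γ) :
    Commute ((gen Γ t.a)⁻¹ * gen Γ t.b) ((gen Γ t.a)⁻¹ * gen Γ t.c) :=
  ((Commute.refl _).mul_right (gen_comm t.adj_ac).inv_left).mul_left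
    ((gen_comm t.adj_ab).symm.inv_right.mul_right (gen_comm t.adj_bc))

/-- Generated by the `(gen a)⁻¹ * gen b` for adjacent `a, b`: the subgroup `N` they generate
contains all `(gen a)⁻¹ * gen c` and `gen c * (gen a)⁻¹` (walk along `par` to the root), so it is
normal, and every `x` is `n * gen root ^ ht x`. -/
theorem bbg_fg (L : LData) : Group.FG (BBG L.Γ) := by
  classical
  let S : Set (Raag L.Γ) :=
    (fun p : V × V => (gen L.Γ p.1)⁻¹ * gen L.Γ p.2) '' {p | L.Γ.Adj p.1 p.2}
  have hS : S.Finite := (Set.toFinite _).image _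
  let N : Subgroup (Raag L.Γ) := Subgroup.closure S
  have hadj : ∀ a b, L.Γ.Adj a b → (gen L.Γ a)⁻¹ * gen L.Γ b ∈ N := fun a b h =>
    Subgroup.subset_closure ⟨(a, b), h, rfl⟩
  have hroot : ∀ (n : ℕ) (v : V), L.rk v = n →
      (gen L.Γ L.root)⁻¹ * gen L.Γ v ∈ N ∧ gen L.Γ v * (gen L.Γ L.root)⁻¹ ∈ N := by
    intro n
    induction n using Nat.strong_induction_on with
    | _ n ih =>
      intro v hv
      by_cases h : v = L.root
      · subst h
        simp
      · obtain ⟨h1, h2⟩ := ih _ (hv ▸ L.rk_lt v h) (L.par v) rfl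
        have h3 := hadj _ _ (L.par_adj v h)
        have h4 : gen L.Γ v * (gen L.Γ (L.par v))⁻¹ ∈ N := by
          rwa [← (gen_comm (L.par_adj v h)).inv_left.eq]
        refine ⟨?_, ?_⟩
        · have := N.mul_mem h1 h3
          rwa [mul_assoc, mul_inv_cancel_left] at this
        · have := N.mul_mem h4 h2
          rwa [mul_assoc, inv_mul_cancel_left] at this
  have hl : ∀ a c, (gen L.Γ a)⁻¹ * gen L.Γ c ∈ N := fun a c => by
    have := N.mul_mem (N.inv_mem (hroot _ a rfl).1) (hroot _ c rfl).1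
    rwa [mul_inv_rev, inv_inv, mul_assoc, mul_inv_cancel_left] at this
  have hr : ∀ a c, gen L.Γ c * (gen L.Γ a)⁻¹ ∈ N := fun a c => by
    have := N.mul_mem (hroot _ c rfl).2 (N.inv_mem (hroot _ a rfl).2)
    rwa [mul_inv_rev, inv_inv, mul_assoc, inv_mul_cancel_left] at this
  have hconj : ∀ (a : Letter) (x : Raag L.Γ), x ∈ N → lt L.Γ a * x * (lt L.Γ a)⁻¹ ∈ N := by
    intro a x hx
    induction hx using Subgroup.closure_induction with
    | one => simp
    | mul x y _ _ hx hy =>
      have := N.mul_mem hx hy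
      convert this using 1
      group
    | inv x _ hx =>
      have := N.inv_mem hx
      convert this using 1
      group
    | mem x hx =>
      obtain ⟨⟨u, w⟩, huw, rfl⟩ := hx
      obtain ⟨v, _ | _⟩ := a
      · have e : (gen L.Γ u)⁻¹ * gen L.Γ w = gen L.Γ w * (gen L.Γ u)⁻¹ :=
          (gen_comm huw).inv_left.eq
        have := N.mul_mem (hl v w) (hl u v)
        simp only [lt, Bool.false_eq_true, if_false, inv_inv]
        rw [e]
        convert this using 1
        group
      · have := N.mul_mem (hr u v) (hr v w)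
        simp only [lt, if_true]
        convert this using 1
        group
  have hnorm : N.Normal := ⟨fun n hn g => by
    induction g using raag_ind generalizing n with
    | h1 => simpa using hn
    | hs x a ih =>
      have := ih _ (hconj a n hn)
      convert this using 1
      group⟩
  have hdec : ∀ x : Raag L.Γ,
      x * (gen L.Γ L.root ^ Multiplicative.toAdd (ht L.Γ x))⁻¹ ∈ N := by
    intro x
    induction x using raag_ind with
    | h1 => simp
    | hs x a ih =>
      obtain ⟨v, _ | _⟩ := a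
      · have := N.mul_mem (hnorm.conj_mem _ (hl v L.root) x) ih
        simp only [lt, Bool.false_eq_true, if_false, map_mul, map_inv, rfb_ht_gen, toAdd_mul,
          toAdd_inv, toAdd_ofAdd]
        convert this using 1
        group
      · have := N.mul_mem (hnorm.conj_mem _ (hr L.root v) x) ih
        simp only [lt, if_true, map_mul, rfb_ht_gen, toAdd_mul, toAdd_ofAdd]
        convert this using 1
        group
  rw [Group.fg_iff_subgroup_fg, Subgroup.fg_iff]
  refine ⟨S, le_antisymm ?_ fun x hx => ?_, hS⟩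
  · rw [Subgroup.closure_le]
    rintro _ ⟨p, -, rfl⟩
    exact rfb_q_mem _ _
  · have := hdec x
    rw [MonoidHom.mem_ker.1 hx] at this
    simpa using this

/-- The cocycle `(g, h) ↦ th g b * th h c` with trivial coefficients `ℤ` is not symmetric on the
commuting pair `(gen a)⁻¹ * gen b`, `(gen a)⁻¹ * gen c` of the triangle `L.t0`. -/
theorem bbg_h2 (L : LData) :
    ∃ A : Rep ℤ (BBG L.Γ), ¬ CategoryTheory.Limits.IsZero (groupCohomology A 2) := by
  let τ : BBG L.Γ → V → ℤ := fun g => Multiplicative.toAdd (th L.Γ g)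
  have hτ : ∀ g h, τ (g * h) = τ g + τ h := fun g h => by simp [τ]
  let A : Rep ℤ (BBG L.Γ) := Rep.trivial ℤ (BBG L.Γ) ℤ
  let f : BBG L.Γ × BBG L.Γ → ℤ := fun p => τ p.1 L.t0.b * τ p.2 L.t0.c
  have hf : (f : BBG L.Γ × BBG L.Γ → A) ∈ groupCohomology.cocycles₂ A := by
    rw [groupCohomology.mem_cocycles₂_iff]
    intro g h j
    show f (g * h, j) + f (g, h) = f (h, j) + f (g, h * j)
    simp only [f, hτ, Pi.add_apply]
    ring
  refine ⟨A, fun hz => ?_⟩
  have : Subsingleton (groupCohomology A 2) := ModuleCat.subsingleton_of_isZero hz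
  have h0 : groupCohomology.H2π A ⟨f, hf⟩ = 0 := Subsingleton.elim _ _
  obtain ⟨u, hu⟩ := (groupCohomology.H2π_eq_zero_iff _).1 h0
  let g : BBG L.Γ := ⟨_, rfb_q_mem L.t0.a L.t0.b⟩
  let h : BBG L.Γ := ⟨_, rfb_q_mem L.t0.a L.t0.c⟩
  have hgh : g * h = h * g := Subtype.ext (rfb_comm L.t0).eq
  let u' : BBG L.Γ → ℤ := u
  have hu' : ∀ x y, u' y - u' (x * y) + u' x = f (x, y) := fun x y => congrFun hu (x, y)
  have h1 := hu' g h
  have h2 := hu' h g
  rw [hgh] at h1
  have hab := L.t0.ab.ne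
  have hbc := L.t0.bc.ne
  have hac := L.t0.ac.ne
  have h3 : f (g, h) = 1 := by
    simp [f, τ, g, h, rfb_th_gen, hab.symm, hac.symm]
  have h4 : f (h, g) = 0 := by
    simp [f, τ, g, h, rfb_th_gen, hab.symm, hbc]
  omega

/-- `q a b = (gen a)⁻¹ * gen b`, `P s a = (gen root ^ s)⁻¹ * gen a ^ s`. -/
theorem bbg_bb (L : LData) : Nonempty (BB L (BBG L.Γ)) := by
  refine ⟨{ θ := (th L.Γ).comp (BBG L.Γ).subtype
            q := fun a b => ⟨_, rfb_q_mem a b⟩
            P := fun s a => ⟨_, rfb_P_mem s L.root a⟩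
            θq := fun a b => ?_
            θP := fun s a => ?_
            Pq := fun s a b h => Subtype.ext ?_
            P_root := fun s => Subtype.ext (inv_mul_cancel _)
            comm := fun t => Subtype.ext (rfb_comm t).eq
            tri := fun t => Subtype.ext ?_ }⟩
  · simp [rfb_th_gen, sub_eq_neg_add]
  · simp only [MonoidHom.comp_apply, Subgroup.subtype_apply, map_mul, map_inv, map_pow,
      rfb_th_gen, toAdd_mul, toAdd_inv, toAdd_pow, toAdd_ofAdd, ← Pi.single_nsmul]
    simp [sub_eq_neg_add]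
  · show (gen L.Γ L.root ^ s)⁻¹ * gen L.Γ b ^ s =
      (gen L.Γ L.root ^ s)⁻¹ * gen L.Γ a ^ s * ((gen L.Γ a)⁻¹ * gen L.Γ b) ^ s
    rw [(gen_comm h).inv_left.mul_pow, inv_pow, mul_assoc, mul_inv_cancel_left]
  · show (gen L.Γ t.a)⁻¹ * gen L.Γ t.b * ((gen L.Γ t.b)⁻¹ * gen L.Γ t.c) =
      (gen L.Γ t.a)⁻¹ * gen L.Γ t.c
    rw [mul_assoc, mul_inv_cancel_left]

end Crest.Agent.R197
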