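import Crest.Agent.R197.Defs

/-! Row 197: the right-angled Artin group, its hyperplanes and the crossing cocycle. -/

set_option autoImplicit false

namespace Crest.Agent.R197

variable (Γ : SimpleGraph V)

/-- Commutation relators. -/
def rels : Set (FreeGroup V) :=
  {w | ∃ a b, Γ.Adj a b ∧
    w = FreeGroup.of a * FreeGroup.of b * (FreeGroup.of a)⁻¹ * (FreeGroup.of b)⁻¹}

/-- The right-angled Artin group. -/
def Raag : Type := PresentedGroup (rels Γ)

instance : Group (Raag Γ) := inferInstanceAs (Group (PresentedGroup (rels Γ)))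

/-- Generators. -/
def gen (v : V) : Raag Γ := PresentedGroup.of (rels := rels Γ) v

variable {Γ}

theorem gen_comm {a b : V} (h : Γ.Adj a b) : Commute (gen Γ a) (gen Γ b) := by
  have : (PresentedGroup.mk (rels Γ)) (FreeGroup.of a * FreeGroup.of b * (FreeGroup.of a)⁻¹ *
      (FreeGroup.of b)⁻¹) = 1 := PresentedGroup.one_of_mem ⟨a, b, h, rfl⟩
  have h2 : gen Γ a * gen Γ b * (gen Γ a)⁻¹ * (gen Γ b)⁻¹ = 1 := this
  rw [Commute, SemiconjBy]
  calc gen Γ a * gen Γ b = gen Γ a * gen Γ b * (gen Γ a)⁻¹ * (gen Γ b)⁻¹ * (gen Γ b * gen Γ a) := by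
        group
    _ = gen Γ b * gen Γ a := by rw [h2, one_mul]

/-- The universal property. -/
def rlift {H : Type} [Group H] (f : V → H) (h : ∀ a b, Γ.Adj a b → Commute (f a) (f b)) :
    Raag Γ →* H :=
  PresentedGroup.toGroup (rels := rels Γ) (f := f) (by
    rintro _ ⟨a, b, hab, rfl⟩
    simp [(h a b hab).eq])

@[simp] theorem rlift_gen {H : Type} [Group H] (f : V → H)
    (h : ∀ a b, Γ.Adj a b → Commute (f a) (f b)) (v : V) : rlift f h (gen Γ v) = f v :=
  PresentedGroup.toGroup.of _

theorem closure_gen : Subgroup.closure (Set.range (gen Γ)) = ⊤ :=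
  PresentedGroup.closure_range_of (rels Γ)

/-- A letter: a generator or (for `false`) its inverse. -/
abbrev Letter : Type := V × Bool

/-- The group element of a letter. -/
def lt (Γ : SimpleGraph V) (a : Letter) : Raag Γ := if a.2 then gen Γ a.1 else (gen Γ a.1)⁻¹

/-- The sign of a letter. -/
def sg (a : Letter) : ℤ := if a.2 then 1 else -1

/-- The lower end of the edge of a letter. -/
def lo (Γ : SimpleGraph V) (a : Letter) : Raag Γ := if a.2 then 1 else (gen Γ a.1)⁻¹

theorem raag_ind {p : Raag Γ → Prop} (h1 : p 1) (hs : ∀ x a, p x → p (x * lt Γ a)) (x : Raag Γ) :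
    p x := by
  have hx : x ∈ Subgroup.closure (Set.range (gen Γ)) := by rw [closure_gen]; trivial
  induction hx using Subgroup.closure_induction_right with
  | one => exact h1
  | mul_right x _ y hy ih => obtain ⟨v, rfl⟩ := hy; exact hs x (v, true) ih
  | mul_inv_cancel x _ y hy ih => obtain ⟨v, rfl⟩ := hy; exact hs x (v, false) ih

variable (Γ)

/-- Exponent sums. -/
def th : Raag Γ →* Multiplicative (V → ℤ) :=
  rlift (fun v => Multiplicative.ofAdd (Pi.single v 1)) fun _ _ _ => Commute.all _ _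

/-- The height. -/
def ht : Raag Γ →* Multiplicative ℤ :=
  rlift (fun _ => Multiplicative.ofAdd 1) fun _ _ _ => Commute.all _ _

/-- The Bestvina–Brady group. -/
def BBG : Subgroup (Raag Γ) := (ht Γ).ker

/-- The subgroup generated by the link of `v`. -/
def Cen (v : V) : Subgroup (Raag Γ) := Subgroup.closure (gen Γ '' Γ.neighborSet v)

/-- Hyperplanes. -/
def Hyp : Type := Σ v : V, Raag Γ ⧸ Cen Γ v

noncomputable instance : DecidableEq (Hyp Γ) := Classical.decEq _

variable {Γ}

/-- The hyperplane dual to the edge from `x` to `x * gen v`. -/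
def hyp (x : Raag Γ) (v : V) : Hyp Γ := ⟨v, QuotientGroup.mk x⟩

instance : MulAction (Raag Γ) (Hyp Γ) where
  smul g H := ⟨H.1, g • H.2⟩
  one_smul H := by cases H; exact congrArg (Sigma.mk _) (one_smul _ _)
  mul_smul g h H := by cases H; exact congrArg (Sigma.mk _) (mul_smul _ _ _)

theorem smul_hyp (g x : Raag Γ) (v : V) : g • hyp x v = hyp (g * x) v := rfl

theorem smul_fst (g : Raag Γ) (H : Hyp Γ) : (g • H).1 = H.1 := rfl

theorem hyp_eq_iff {x y : Raag Γ} {v w : V} :
    hyp x v = hyp y w ↔ v = w ∧ x⁻¹ * y ∈ Cen Γ v := by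
  constructor
  · intro h
    obtain rfl : v = w := congrArg Sigma.fst h
    exact ⟨rfl, QuotientGroup.eq.1 (eq_of_heq (Sigma.mk.inj h).2)⟩
  · rintro ⟨rfl, h⟩
    exact congrArg (Sigma.mk _) (QuotientGroup.eq.2 h)

theorem hyp_mul_gen (x : Raag Γ) {a b : V} (h : Γ.Adj a b) : hyp (x * gen Γ b) a = hyp x a :=
  (hyp_eq_iff.2 ⟨rfl, by
    have : gen Γ b ∈ Cen Γ a := Subgroup.subset_closure ⟨b, h, rfl⟩
    simpa using (Cen Γ a).inv_mem this⟩)

theorem hyp_surj (H : Hyp Γ) : ∃ x, hyp x H.1 = H := by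
  obtain ⟨v, q⟩ := H
  obtain ⟨x, rfl⟩ := QuotientGroup.mk_surjective q
  exact ⟨x, rfl⟩

variable (Γ) in
/-- The crossing cocycle, as a homomorphism to the twisted function group. -/
noncomputable def kapW : Raag Γ →* Wr (Raag Γ) (Multiplicative (Hyp Γ → ℤ)) :=
  rlift (fun v => ⟨fun x => Multiplicative.ofAdd (Pi.single (hyp x v) 1), gen Γ v⟩)
    fun a b h => by
      refine Wr.ext (funext fun x => ?_) (gen_comm h).eq
      simp only [Wr.mul_f, hyp_mul_gen x h, hyp_mul_gen x h.symm]
      exact mul_comm _ _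

/-- The signed number of crossings of `H` on the way from `1` to `x`. -/
noncomputable def kap (x : Raag Γ) : Hyp Γ → ℤ := Multiplicative.toAdd ((kapW Γ x).f 1)

/-- The hyperplane dual to the edge from `x` to `x * lt a`. -/
def eh (x : Raag Γ) (a : Letter) : Hyp Γ := hyp (x * lo Γ a) a.1

/-- The edge from `x` along `a` leads towards `y`. -/
def Sep (x y : Raag Γ) (a : Letter) : Prop := kap y (eh x a) ≠ kap x (eh x a)

/-- Descending letters. -/
def Desc (x : Raag Γ) (a : Letter) : Prop := kap x (eh x a) ≠ 0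

/-- The number of hyperplanes separating `1` from `x`. -/
noncomputable def len (x : Raag Γ) : ℕ := (Function.support (kap x)).ncard

end Crest.Agent.R197
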