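import Crest.Agent.R197.Exact

/-! Row 197: the top boundary map splits over the Bestvina–Brady group. -/

set_option autoImplicit false

namespace Crest.Agent.R197

open Finsupp

theorem split_tr_tr {A T : Type} [Group A] (g h : A) (c : A × T →₀ ℤ) :
    tr g (tr h c) = tr (g * h) c := by
  induction c using Finsupp.induction_linear with
  | zero => simp
  | add f f' hf hf' => simp only [map_add, hf, hf']
  | single p n => obtain ⟨x, t⟩ := p; simp only [tr_single, mul_assoc]

/-- The splitting at non-negative heights. -/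
noncomputable def splitP (L : LData) : ℕ → V → V → (Raag L.Γ × Tri L.Γ →₀ ℤ)
  | 0, _, _ => 0
  | n + 1, u, v => ∑ t : Tri L.Γ, L.h1 u v t •
      tr (gen L.Γ u * gen L.Γ v * (gen L.Γ t.a * gen L.Γ t.b * gen L.Γ t.c)⁻¹)
        (single (1, t) 1 + (splitP L n t.b t.c - splitP L n t.a t.c + splitP L n t.a t.b))

/-- The splitting at non-positive heights. -/
noncomputable def splitM (L : LData) : ℕ → V → V → (Raag L.Γ × Tri L.Γ →₀ ℤ)
  | 0, _, _ => 0
  | n + 1, u, v => ∑ t : Tri L.Γ, L.h1 u v t •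
      (tr (gen L.Γ t.a) (splitM L n t.b t.c) - tr (gen L.Γ t.b) (splitM L n t.a t.c)
        + tr (gen L.Γ t.c) (splitM L n t.a t.b) - single (1, t) 1)

/-- The splitting at all heights. -/
noncomputable def splitZ (L : LData) (n : ℤ) : V → V → (Raag L.Γ × Tri L.Γ →₀ ℤ) :=
  if 0 ≤ n then splitP L n.toNat else splitM L (-n).toNat

theorem splitZ_nat (L : LData) (n : ℕ) : splitZ L n = splitP L n := by
  rw [splitZ, if_pos (Int.natCast_nonneg n), Int.toNat_natCast]

theorem splitZ_neg (L : LData) (n : ℕ) : splitZ L (-(n : ℤ)) = splitM L n := by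
  rcases n with _ | n
  · rw [Nat.cast_zero, neg_zero, splitZ, if_pos le_rfl]
    ext1 u; ext1 v
    simp [splitP, splitM]
  · rw [splitZ, if_neg (by omega), neg_neg, Int.toNat_natCast]

theorem split_sum (L : LData) {M : Type} [AddCommGroup M] (t0 : Tri L.Γ) (W : Tri L.Γ → M) :
    ∑ t, L.h1 t0.b t0.c t • W t - ∑ t, L.h1 t0.a t0.c t • W t + ∑ t, L.h1 t0.a t0.b t • W t =
      W t0 := by
  rw [← Finset.sum_sub_distrib, ← Finset.sum_add_distrib]
  simp only [← sub_smul, ← add_smul, L.h1_spec, ite_smul, one_smul, zero_smul]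
  rw [Finset.sum_ite_eq' Finset.univ t0, if_pos (Finset.mem_univ _)]

theorem split_step (L : LData) (n : ℤ) (t : Tri L.Γ) :
    tr (gen L.Γ t.a) (splitZ L (n + 1) t.b t.c) - tr (gen L.Γ t.b) (splitZ L (n + 1) t.a t.c)
      + tr (gen L.Γ t.c) (splitZ L (n + 1) t.a t.b)
      - (splitZ L n t.b t.c - splitZ L n t.a t.c + splitZ L n t.a t.b) = single (1, t) 1 := by
  rcases le_or_gt 0 n with hn | hn
  · obtain ⟨m, rfl⟩ := Int.eq_ofNat_of_zero_le hn
    have h1 : ((m : ℤ) + 1) = ((m + 1 : ℕ) : ℤ) := by push_cast; rfl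
    rw [h1, splitZ_nat, splitZ_nat]
    simp only [splitP, map_sum, map_zsmul, split_tr_tr]
    have e1 : ∀ z, gen L.Γ t.a * (gen L.Γ t.b * gen L.Γ t.c * z) =
        gen L.Γ t.a * gen L.Γ t.b * gen L.Γ t.c * z := fun z => by simp only [mul_assoc]
    have e2 : ∀ z, gen L.Γ t.b * (gen L.Γ t.a * gen L.Γ t.c * z) =
        gen L.Γ t.a * gen L.Γ t.b * gen L.Γ t.c * z := fun z => by
      rw [(gen_comm t.adj_ab).eq]; simp only [mul_assoc]
    have e3 : ∀ z, gen L.Γ t.c * (gen L.Γ t.a * gen L.Γ t.b * z) =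
        gen L.Γ t.a * gen L.Γ t.b * gen L.Γ t.c * z := fun z => by
      rw [((gen_comm t.adj_ac).mul_left (gen_comm t.adj_bc)).eq]; simp only [mul_assoc]
    simp only [e1, e2, e3]
    rw [split_sum L t fun t' => tr (gen L.Γ t.a * gen L.Γ t.b * gen L.Γ t.c *
      (gen L.Γ t'.a * gen L.Γ t'.b * gen L.Γ t'.c)⁻¹) (single (1, t') 1 +
        (splitP L m t'.b t'.c - splitP L m t'.a t'.c + splitP L m t'.a t'.b)), mul_inv_cancel]
    have h2 : ∀ c : Raag L.Γ × Tri L.Γ →₀ ℤ, tr (1 : Raag L.Γ) c = c := by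
      intro c
      induction c using Finsupp.induction_linear with
      | zero => simp
      | add f f' hf hf' => simp only [map_add, hf, hf']
      | single p n => obtain ⟨x, t⟩ := p; simp only [tr_single, one_mul]
    rw [h2]
    abel
  · obtain ⟨m, hm⟩ := Int.eq_ofNat_of_zero_le (show 0 ≤ -(n + 1) by omega)
    have h1 : n + 1 = -(m : ℤ) := by omega
    have h2 : n = -((m + 1 : ℕ) : ℤ) := by push_cast; omega
    rw [h1, h2, splitZ_neg, splitZ_neg]
    simp only [splitM]
    rw [split_sum L t fun t' => tr (gen L.Γ t'.a) (splitM L m t'.b t'.c) -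
      tr (gen L.Γ t'.b) (splitM L m t'.a t'.c) + tr (gen L.Γ t'.c) (splitM L m t'.a t'.b) -
        single (1, t') 1]
    abel

/-- Define `Ψ : ℤ → V → V → (Raag × Tri →₀ ℤ)` (the value on the square at `1`, at virtual height
`n`) by `Ψ 0 = 0`,
`Ψ (n+1) u v = ∑ t, h1 u v t • tr (u v (a b c)⁻¹) (single (1,t) 1 + Ψ n b c - Ψ n a c + Ψ n a b)`
for `n ≥ 0`, and
`Ψ (n-1) u v = ∑ t, h1 u v t • (tr a (Ψ n b c) - tr b (Ψ n a c) + tr c (Ψ n a b) - single (1,t) 1)`
for `n ≤ 0` (`a, b, c` the generators of `t`), and `ψ (single (x, (u,v)) 1) = tr x (Ψ (ht x) u v)`.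
For a cube at height `≥ 0` use the first formula on its three top faces (they share the top
vertex), for a cube at height `≤ -1` the second one on its bottom faces; `L.h1_spec`. -/
theorem exists_split (L : LData) :
    ∃ ψ : (Raag L.Γ × Edge L.Γ →₀ ℤ) →ₗ[ℤ] (Raag L.Γ × Tri L.Γ →₀ ℤ),
      (∀ g ∈ BBG L.Γ, ∀ c, ψ (tr g c) = tr g (ψ c)) ∧ ∀ c, ψ (d3 L.Γ c) = c := by
  refine ⟨linearCombination ℤ fun p =>
    tr p.1 (splitZ L (Multiplicative.toAdd (ht L.Γ p.1)) p.2.1.1 p.2.1.2), ?_, ?_⟩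
  · intro g hg c
    have hg' : ht L.Γ g = 1 := hg
    induction c using Finsupp.induction_linear with
    | zero => simp
    | add f f' hf hf' => simp only [map_add, hf, hf']
    | single p n =>
      obtain ⟨x, e⟩ := p
      simp only [tr_single, linearCombination_single, map_zsmul, split_tr_tr, map_mul, hg',
        one_mul]
  · intro c
    induction c using Finsupp.induction_linear with
    | zero => simp
    | add f f' hf hf' => simp only [map_add, hf, hf']
    | single p n =>
      obtain ⟨x, t⟩ := p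
      have hh : ∀ v, Multiplicative.toAdd (ht L.Γ (x * gen L.Γ v)) =
          Multiplicative.toAdd (ht L.Γ x) + 1 := by
        intro v
        rw [map_mul, toAdd_mul, ht, rlift_gen, toAdd_ofAdd]
      have h1 := congrArg (tr x) (split_step L (Multiplicative.toAdd (ht L.Γ x)) t)
      simp only [map_sub, map_add, split_tr_tr, tr_single, mul_one] at h1
      rw [d3, linearCombination_single, map_zsmul]
      simp only [map_sub, map_add, linearCombination_single, one_smul, hh]
      simp only [Tri.ebc, Tri.eac, Tri.eab]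
      rw [h1, smul_single, smul_eq_mul, mul_one]

theorem bbg_cd (L : LData) (M : Rep ℤ (BBG L.Γ)) (n : ℕ) (hn : 3 ≤ n) :
    CategoryTheory.Limits.IsZero (groupCohomology M n) := by
  obtain ⟨ψ, h1, h2⟩ := exists_split L
  exact cd_le_two (BBG L.Γ) (d1 L.Γ) (d2 L.Γ) (d3 L.Γ) ψ (fun g _ => d1_tr g) (fun g _ => d2_tr g)
    (fun g _ => d3_tr g) h1 (exact0 _) (exact1 _) (exact2 _) h2 M n hn

end Crest.Agent.R197
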