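import Crest.Agent.R197.Defs

/-! Row 197: smooth families of unit quaternions. -/

set_option autoImplicit false

namespace Crest.Agent.R197

open scoped Quaternion

/-- Normalisation. -/
noncomputable def spread_nrm (x : ℍ) : ℍ := ‖x‖⁻¹ • x

theorem spread_norm_nrm {x : ℍ} (hx : x ≠ 0) : ‖spread_nrm x‖ = 1 := by
  rw [spread_nrm, norm_smul, norm_inv, norm_norm, inv_mul_cancel₀ (norm_ne_zero_iff.2 hx)]

theorem spread_nrm_unit {x : ℍ} (hx : ‖x‖ = 1) : spread_nrm x = x := by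
  rw [spread_nrm, hx, inv_one, one_smul]

theorem spread_contDiffAt_nrm {x : ℍ} (hx : x ≠ 0) : ContDiffAt ℝ 2 spread_nrm x :=
  ((contDiffAt_norm ℝ hx).inv (norm_ne_zero_iff.2 hx)).smul contDiffAt_id

theorem spread_eq_of_zero {τ : ℝ} {u p : ℍ} (hu : ‖u‖ = 1) (hp : ‖p‖ = 1)
    (h : τ • u - (1 - τ) • p = 0) : τ = 1 / 2 ∧ u = p := by
  rw [sub_eq_zero] at h
  have h1 := congrArg norm h
  rw [norm_smul, norm_smul, hu, hp, mul_one, mul_one, Real.norm_eq_abs, Real.norm_eq_abs] at h1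
  have h2 : τ = 1 / 2 := by
    rcases abs_eq_abs.1 h1 with h3 | h3 <;> linarith
  refine ⟨h2, ?_⟩
  rw [h2, show (1 : ℝ) - 1 / 2 = 1 / 2 by norm_num] at h
  exact smul_right_injective ℍ (by norm_num : (1 / 2 : ℝ) ≠ 0) h

theorem spread_norm_U (c : U) : ‖(c : ℍ)‖ = 1 := mem_sphere_zero_iff_norm.1 c.2

/-- A smooth path from `1` to `c`: normalise `(1 - t) + t c` if `c ≠ -1`, and use
`cos (π t) + sin (π t) i` if `c = -1`. -/
theorem exists_path (c : U) : ∃ A : ℝ → U, ContDiff ℝ 2 (fun t => (A t : ℍ)) ∧ A 0 = 1 ∧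
    A 1 = c ∧ (c = 1 → ∀ t, A t = 1) := by
  by_cases hc : (c : ℍ) = -1
  · let I : ℍ := ⟨0, 1, 0, 0⟩
    have hn : ∀ t : ℝ, ‖Real.cos (Real.pi * t) • (1 : ℍ) + Real.sin (Real.pi * t) • I‖ = 1 := by
      intro t
      have h1 := Quaternion.normSq_eq_norm_mul_self
        (Real.cos (Real.pi * t) • (1 : ℍ) + Real.sin (Real.pi * t) • I)
      rw [Quaternion.normSq_def'] at h1
      simp [I] at h1
      rcases mul_self_eq_one_iff.1 h1.symm with h2 | h2
      · exact h2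
      · exact absurd h2 (by
          have := norm_nonneg (Real.cos (Real.pi * t) • (1 : ℍ) + Real.sin (Real.pi * t) • I)
          intro h3
          simp only [I] at this
          linarith)
    refine ⟨fun t => ⟨_, mem_sphere_zero_iff_norm.2 (hn t)⟩, ?_, ?_, ?_, fun h => ?_⟩
    · exact ((Real.contDiff_cos.comp (contDiff_const.mul contDiff_id)).smul contDiff_const).add
        ((Real.contDiff_sin.comp (contDiff_const.mul contDiff_id)).smul contDiff_const)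
    · exact Subtype.ext (by simp)
    · exact Subtype.ext (by simp [hc])
    · exfalso
      rw [h] at hc
      have := congrArg QuaternionAlgebra.re hc
      norm_num at this
  · have hne : ∀ t : ℝ, t • (c : ℍ) - (1 - t) • (-1 : ℍ) ≠ 0 := fun t h =>
      hc (spread_eq_of_zero (spread_norm_U c) (by simp) h).2
    refine ⟨fun t => ⟨spread_nrm (t • (c : ℍ) - (1 - t) • (-1 : ℍ)),
      mem_sphere_zero_iff_norm.2 (spread_norm_nrm (hne t))⟩, ?_, ?_, ?_, fun h t => ?_⟩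
    · refine contDiff_iff_contDiffAt.2 fun t => (spread_contDiffAt_nrm (hne t)).comp
        (f := fun t : ℝ => t • (c : ℍ) - (1 - t) • (-1 : ℍ)) t ?_
      fun_prop
    · exact Subtype.ext (by simp [spread_nrm])
    · exact Subtype.ext (by simp [spread_nrm_unit (spread_norm_U c)])
    · refine Subtype.ext ?_
      have : t • (c : ℍ) - (1 - t) • (-1 : ℍ) = 1 := by
        rw [h, Metric.unitSphere.coe_one]
        module
      simp only [this]
      simp [spread_nrm]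

/-- A deformation of the identity of the sphere to a map that is constant away from `p`.
With a smooth `ψ : ℍ → [0,1]`, `ψ p = 1`, `ψ = 0` off `ball p ε`, and `ψ_t = 1 - t (1 - ψ)`:
normalise `ψ_t u • u - (1 - ψ_t u) • p` (if it vanished, taking norms gives `ψ_t u = 1/2` and
`u = p`, for every real `t`), and multiply by a path from `1` to `o * (-p)⁻¹`. -/
theorem exists_chi (p o : U) {ε : ℝ} (hε : 0 < ε) : ∃ χ : ℝ × ℍ → ℍ,
    (∀ t u, ‖u‖ = 1 → ContDiffAt ℝ 2 χ (t, u) ∧ ‖χ (t, u)‖ = 1) ∧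
    (∀ u, ‖u‖ = 1 → χ (0, u) = u) ∧
    ∀ u, ‖u‖ = 1 → ε ≤ ‖u - (p : ℍ)‖ → χ (1, u) = (o : ℍ) := by
  obtain ⟨A, hA, hA0, hA1, -⟩ := exists_path (o * (-p)⁻¹)
  let ψ : ContDiffBump (p : ℍ) := ⟨ε / 2, ε, by positivity, by linarith⟩
  have hψ : ContDiff ℝ 2 ψ := ψ.contDiff
  let G : ℝ × ℍ → ℍ := fun x =>
    (1 - x.1 * (1 - ψ x.2)) • x.2 - (1 - (1 - x.1 * (1 - ψ x.2))) • (p : ℍ)
  have hG : ContDiff ℝ 2 G := by
    have : ContDiff ℝ 2 fun x : ℝ × ℍ => ψ x.2 := hψ.comp contDiff_snd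
    fun_prop
  have hne : ∀ t u, ‖u‖ = 1 → G (t, u) ≠ 0 := by
    intro t u hu h
    obtain ⟨h1, h2⟩ := spread_eq_of_zero hu (spread_norm_U p) h
    simp only at h1 h2
    rw [h2, ψ.one_of_mem_closedBall (Metric.mem_closedBall_self ψ.rIn_pos.le)] at h1
    norm_num at h1
  refine ⟨fun x => (A x.1 : ℍ) * spread_nrm (G x), fun t u hu => ⟨?_, ?_⟩, fun u hu => ?_,
    fun u hu hε' => ?_⟩
  · exact (hA.comp contDiff_fst).contDiffAt.mul
      ((spread_contDiffAt_nrm (hne t u hu)).comp (t, u) hG.contDiffAt)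
  · rw [norm_mul, spread_norm_U, spread_norm_nrm (hne t u hu), mul_one]
  · simp [G, hA0, spread_nrm_unit hu]
  · have h0 : ψ u = 0 := ψ.zero_of_le_dist (by rw [dist_eq_norm]; exact hε')
    have h1 : G (1, u) = -(p : ℍ) := by simp [G, h0]
    have h2 : ‖-(p : ℍ)‖ = 1 := by rw [norm_neg, spread_norm_U]
    simp only [h1, hA1, spread_nrm_unit h2]
    rw [← coe_neg_sphere, ← Metric.unitSphere.coe_mul, inv_mul_cancel_right]

/-- A smooth loop contracts in small steps.  Pick a unit `p` off the range of `γ` (the range of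
`(s,t) ↦ s • γ t` has dense complement, `ContDiff.dense_compl_range_of_finrank_lt_finrank`); let
`N τ u` normalise `τ • u - (1 - τ) • p`, `w j t = N (j/M) (γ t) * (N (j/M) 1)⁻¹` (clamp `j` at `M`);
uniform continuity on `[0,1]²`. -/
theorem spread (γ : ℝ → U) (hγ : ContDiff ℝ 2 fun t => (γ t : ℍ)) (h0 : γ 0 = 1) (h1 : γ 1 = 1)
    {η : ℝ} (hη : 0 < η) : ∃ M0 : ℕ, ∀ M : ℕ, M0 ≤ M → ∃ w : ℕ → ℝ → U,
      (∀ j, ContDiff ℝ 2 fun t => (w j t : ℍ)) ∧ (∀ t, w 0 t = 1) ∧ (∀ t, w M t = γ t) ∧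
      (∀ j, w j 0 = 1 ∧ w j 1 = 1) ∧
      ∀ j < M, ∀ t ∈ Set.Icc (0 : ℝ) 1, ‖(w (j + 1) t : ℍ) - w j t‖ ≤ η := by
  obtain ⟨p, hp⟩ : ∃ p : U, ∀ t, (γ t : ℍ) ≠ p := by
    have hf : ContDiff ℝ 1 fun x : ℝ × ℝ => x.1 • (γ x.2 : ℍ) :=
      contDiff_fst.smul ((hγ.of_le (by norm_num)).comp contDiff_snd)
    obtain ⟨x, hx⟩ := (hf.dense_compl_range_of_finrank_lt_finrank
      (by simp [Quaternion.finrank_eq_four])).nonempty
    have hx0 : x ≠ 0 := fun h => hx ⟨(0, 0), by simp [h]⟩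
    refine ⟨⟨spread_nrm x, mem_sphere_zero_iff_norm.2 (spread_norm_nrm hx0)⟩, fun t h => ?_⟩
    refine hx ⟨(‖x‖, t), ?_⟩
    simp only [h, spread_nrm]
    rw [smul_smul, mul_inv_cancel₀ (norm_ne_zero_iff.2 hx0), one_smul]
  have hne : ∀ τ t : ℝ, τ • (γ t : ℍ) - (1 - τ) • (p : ℍ) ≠ 0 := fun τ t h =>
    hp t (spread_eq_of_zero (spread_norm_U _) (spread_norm_U p) h).2
  let N : ℝ × ℝ → U := fun x => ⟨spread_nrm (x.1 • (γ x.2 : ℍ) - (1 - x.1) • (p : ℍ)),
    mem_sphere_zero_iff_norm.2 (spread_norm_nrm (hne x.1 x.2))⟩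
  have hN : ContDiff ℝ 2 fun x => (N x : ℍ) := by
    refine contDiff_iff_contDiffAt.2 fun x => (spread_contDiffAt_nrm (hne x.1 x.2)).comp
      (f := fun x : ℝ × ℝ => x.1 • (γ x.2 : ℍ) - (1 - x.1) • (p : ℍ)) x ?_
    have : ContDiff ℝ 2 fun x : ℝ × ℝ => (γ x.2 : ℍ) := hγ.comp contDiff_snd
    fun_prop
  let F : ℝ × ℝ → U := fun x => N x * (N (x.1, 0))⁻¹
  have hF : Continuous fun x => (F x : ℍ) := by
    have h1 : Continuous N := hN.continuous.subtype_mk _
    have h2 : Continuous F := h1.mul (h1.comp (continuous_fst.prodMk continuous_const)).inv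
    exact continuous_subtype_val.comp h2
  have hK : IsCompact (Set.Icc (0 : ℝ) 1 ×ˢ Set.Icc (0 : ℝ) 1) := isCompact_Icc.prod isCompact_Icc
  obtain ⟨δ, hδ, hu⟩ := Metric.uniformContinuousOn_iff_le.1
    (hK.uniformContinuousOn_of_continuous hF.continuousOn) η hη
  obtain ⟨M0, hM0⟩ := exists_nat_gt (1 / δ)
  refine ⟨M0, fun M hM => ?_⟩
  have hM' : 1 / δ < M := hM0.trans_le (by exact_mod_cast hM)
  have hMp : (0 : ℝ) < M := (by positivity : (0 : ℝ) < 1 / δ).trans hM'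
  refine ⟨fun j t => F (j / M, t), fun j => ?_, fun t => ?_, fun t => ?_, fun j => ⟨?_, ?_⟩,
    fun j hj t ht => ?_⟩
  · simp only [F, Metric.unitSphere.coe_mul]
    exact (hN.comp (contDiff_const.prodMk contDiff_id)).mul contDiff_const
  · have : N (((0 : ℕ) : ℝ) / M, t) = N (((0 : ℕ) : ℝ) / M, 0) := Subtype.ext (by simp [N])
    simp only [F, this, mul_inv_cancel]
  · have e1 : ∀ t, N ((M : ℝ) / M, t) = γ t := fun t =>
      Subtype.ext (by simp [N, div_self hMp.ne', spread_nrm_unit (spread_norm_U (γ t))])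
    simp only [F, e1, h0, inv_one, mul_one]
  · simp only [F, mul_inv_cancel]
  · have : N ((j : ℝ) / M, 1) = N ((j : ℝ) / M, 0) := Subtype.ext (by simp only [N, h0, h1])
    simp only [F, this, mul_inv_cancel]
  · have hj' : ((j + 1 : ℕ) : ℝ) ≤ M := by exact_mod_cast hj
    have hj'' : (j : ℝ) ≤ M := by exact_mod_cast hj.le
    rw [← dist_eq_norm]
    refine hu _ ⟨⟨by positivity, (div_le_one hMp).2 hj'⟩, ht⟩ _
      ⟨⟨by positivity, (div_le_one hMp).2 hj''⟩, ht⟩ ?_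
    rw [Prod.dist_eq, dist_self, Real.dist_eq, ← sub_div]
    push_cast
    rw [add_sub_cancel_left, abs_of_pos (by positivity), max_eq_left (by positivity)]
    rw [div_lt_iff₀ hδ] at hM'
    rw [div_le_iff₀ hMp]
    linarith

end Crest.Agent.R197
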