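import Crest.Agent.R197.K1

/-! Row 197: the cube complex of the Artin group inside `Hyp → ℝ`, and its quotient. -/

set_option autoImplicit false

namespace Crest.Agent.R197

open scoped Topology

variable (Γ : SimpleGraph V)

/-- Signed cube coordinates: in `[-1, 1]`, supported on a clique. -/
def Cub (t : V → ℝ) : Prop := (∀ v, |t v| ≤ 1) ∧ ∀ u v, u ≠ v → t u ≠ 0 → t v ≠ 0 → Γ.Adj u v

variable {Γ} in
/-- The point with signed coordinates `t` in a cube at the vertex `x`. -/
noncomputable def spt (x : Raag Γ) (t : V → ℝ) : Hyp Γ → ℝ := fun H =>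
  kap x H + (if H = eh x (H.1, true) then max (t H.1) 0 else 0) +
    (if H = eh x (H.1, false) then min (t H.1) 0 else 0)

/-- The cube complex (product topology). -/
def Xt : Set (Hyp Γ → ℝ) := {p | ∃ x t, Cub Γ t ∧ p = spt x t}

/-- The quotient of the cube complex by the Bestvina–Brady group. -/
def Xb : Set ((V → UnitAddCircle) × ℝ) :=
  {b | (∀ u v, u ≠ v → b.1 u ≠ 0 → b.1 v ≠ 0 → Γ.Adj u v) ∧ ∑ v, b.1 v = (b.2 : UnitAddCircle)}

variable {Γ}

/-- The action on functions. -/
noncomputable def actF (g : Raag Γ) (p : Hyp Γ → ℝ) : Hyp Γ → ℝ :=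
  fun H => kap g H + p (g⁻¹ • H)

/-- Circle coordinates and height. -/
noncomputable def muF (p : Hyp Γ → ℝ) : (V → UnitAddCircle) × ℝ :=
  (fun v => ((∑ᶠ H : Hyp Γ, if H.1 = v then p H else 0 : ℝ) : UnitAddCircle), ∑ᶠ H : Hyp Γ, p H)

theorem actF_spt (g x : Raag Γ) (t : V → ℝ) : actF g (spt x t) = spt (g * x) t := by
  funext H
  have e : ∀ b : Bool, (g⁻¹ • H = eh x (H.1, b)) ↔ (H = eh (g * x) (H.1, b)) := fun b => by
    rw [inv_smul_eq_iff, smul_eh]
  simp only [actF, spt, smul_fst, e, kap_mul, Int.cast_add]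
  ring

theorem Xt_eh_fst (x : Raag Γ) (a : Letter) : (eh x a).1 = a.1 := rfl

theorem Xt_fin_single (H₀ : Hyp Γ) (r : ℝ) :
    (Function.support fun H : Hyp Γ => if H = H₀ then r else 0).Finite :=
  (Set.finite_singleton H₀).subset fun H hH => by
    by_contra h
    exact hH (if_neg h)

theorem Xt_sum_single (H₀ : Hyp Γ) (r : ℝ) : ∑ᶠ H : Hyp Γ, (if H = H₀ then r else 0) = r := by
  rw [finsum_eq_single _ H₀ fun H hH => if_neg hH, if_pos rfl]

theorem Xt_fiber_eq (x : Raag Γ) (t : V → ℝ) (v : V) :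
    (fun H : Hyp Γ => if H.1 = v then spt x t H else 0) = fun H : Hyp Γ =>
      (((if H.1 = v then kap x H else 0 : ℤ) : ℝ) + if H = eh x (v, true) then max (t v) 0 else 0) +
        if H = eh x (v, false) then min (t v) 0 else 0 := by
  funext H
  by_cases h : H.1 = v
  · subst h
    simp [spt]
  · have e : ∀ b : Bool, H ≠ eh x (v, b) := fun b hb => h (by rw [hb]; rfl)
    simp [h, e]

theorem Xt_fin_kap (x : Raag Γ) (v : V) :
    (Function.support fun H : Hyp Γ => (if H.1 = v then kap x H else 0 : ℤ)).Finite :=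
  (kap_finite x).subset fun H hH h0 => hH (by simp [h0])

theorem Xt_fin_kapR (x : Raag Γ) (v : V) :
    (Function.support fun H : Hyp Γ => ((if H.1 = v then kap x H else 0 : ℤ) : ℝ)).Finite :=
  (Xt_fin_kap x v).subset fun H hH h0 => hH (by
    have h1 : (if H.1 = v then kap x H else 0 : ℤ) = 0 := h0
    simp only [h1, Int.cast_zero])

theorem Xt_fin_add {f g : Hyp Γ → ℝ} (hf : (Function.support f).Finite)
    (hg : (Function.support g).Finite) : (Function.support fun H => f H + g H).Finite :=
  (hf.union hg).subset (Function.support_add f g)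

theorem Xt_fiber_fin (x : Raag Γ) (t : V → ℝ) (v : V) :
    (Function.support fun H : Hyp Γ => if H.1 = v then spt x t H else 0).Finite := by
  rw [Xt_fiber_eq]
  exact Xt_fin_add (Xt_fin_add (Xt_fin_kapR x v) (Xt_fin_single _ _)) (Xt_fin_single _ _)

theorem Xt_fiber_sum (x : Raag Γ) (t : V → ℝ) (v : V) :
    ∑ᶠ H : Hyp Γ, (if H.1 = v then spt x t H else 0) =
      ((Multiplicative.toAdd (th Γ x) v : ℤ) : ℝ) + t v := by
  rw [Xt_fiber_eq, finsum_add_distrib (Xt_fin_add (Xt_fin_kapR x v) (Xt_fin_single _ _))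
    (Xt_fin_single _ _), finsum_add_distrib (Xt_fin_kapR x v) (Xt_fin_single _ _), Xt_sum_single,
    Xt_sum_single, ← sum_kap, add_assoc, max_add_min, add_zero]
  congr 1
  exact ((Int.castAddHom ℝ).map_finsum (Xt_fin_kap x v)).symm

theorem Xt_coe_int (n : ℤ) : (((n : ℝ)) : UnitAddCircle) = 0 :=
  (AddCircle.coe_eq_zero_iff (1 : ℝ)).2 ⟨n, by simp⟩

theorem muF_spt (x : Raag Γ) (t : V → ℝ) : muF (spt x t) =
    (fun v => (t v : UnitAddCircle), ((Multiplicative.toAdd (ht Γ x) : ℤ) : ℝ) + ∑ v, t v) := by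
  refine Prod.ext (funext fun v => ?_) ?_
  · change ((∑ᶠ H : Hyp Γ, (if H.1 = v then spt x t H else 0) : ℝ) : UnitAddCircle) = _
    rw [Xt_fiber_sum, AddCircle.coe_add, Xt_coe_int, zero_add]
  · change ∑ᶠ H : Hyp Γ, spt x t H = _
    have e : (fun H : Hyp Γ => spt x t H) =
        fun H : Hyp Γ => ∑ v : V, if H.1 = v then spt x t H else 0 := by
      funext H
      simp
    rw [e, finsum_sum_comm _ _ fun v _ => Xt_fiber_fin x t v]
    simp only [Xt_fiber_sum, Finset.sum_add_distrib, ← sum_th, Int.cast_sum]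

theorem spt_continuous (x : Raag Γ) : Continuous (spt x) := by
  refine continuous_pi fun H => ?_
  unfold spt
  split_ifs <;> fun_prop

/-- Moving the base vertex across an edge of the cube. -/
theorem spt_move (x : Raag Γ) {t : V → ℝ} (ht : Cub Γ t) (a : Letter) (ha : 0 < (sg a : ℝ) * t a.1) :
    spt x t = spt (x * lt Γ a) (Function.update t a.1 (t a.1 - sg a)) ∧
      Cub Γ (Function.update t a.1 (t a.1 - sg a)) := by
  have hne : t a.1 ≠ 0 := fun h0 => by rw [h0, mul_zero] at ha; exact lt_irrefl _ ha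
  have hab := abs_le.1 (ht.1 a.1)
  constructor
  · funext H
    simp only [spt, kap_mul_lt, Pi.add_apply, Pi.single_apply]
    by_cases hH : H.1 = a.1
    · have hb := eh_back x a
      obtain ⟨v, b⟩ := a
      simp only at hH hne hab ha
      rw [hH, Function.update_self]
      cases b
      · simp only [sg, Bool.false_eq_true, if_false, Bool.not_false, Int.cast_neg, Int.cast_one]
          at ha hb ⊢
        rw [hb, max_eq_right (by linarith), min_eq_left (by linarith), max_eq_left (by linarith),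
          min_eq_right (by linarith)]
        split_ifs <;> push_cast <;> ring
      · simp only [sg, if_true, Bool.not_true, Int.cast_one] at ha hb ⊢
        rw [hb, max_eq_left (by linarith), min_eq_right (by linarith), max_eq_right (by linarith),
          min_eq_left (by linarith)]
        split_ifs <;> push_cast <;> ring
    · have h1 : H ≠ eh x a := fun h => hH (by rw [h]; rfl)
      rw [Function.update_of_ne hH, if_neg h1, add_zero]
      by_cases h0 : t H.1 = 0
      · simp [h0]
      · have hadj : Γ.Adj H.1 a.1 := ht.2 _ _ hH h0 hne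
        rw [eh_mul_lt x (a := (H.1, true)) hadj, eh_mul_lt x (a := (H.1, false)) hadj]
  · have hz : ∀ u, Function.update t a.1 (t a.1 - sg a) u ≠ 0 → t u ≠ 0 := fun u hu => by
      by_cases h : u = a.1
      · rwa [h]
      · rwa [Function.update_of_ne h] at hu
    refine ⟨fun u => ?_, fun u v huv hu hv => ht.2 u v huv (hz u hu) (hz v hv)⟩
    by_cases h : u = a.1
    · rw [h, Function.update_self, abs_le]
      unfold sg at ha ⊢
      split_ifs at ha ⊢ <;> push_cast at ha ⊢ <;> constructor <;> linarith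
    · rw [Function.update_of_ne h]
      exact ht.1 u

theorem Xt_sg_cases (a : Letter) : ((sg a : ℤ) : ℝ) = 1 ∨ ((sg a : ℤ) : ℝ) = -1 := by
  unfold sg
  split_ifs <;> simp

theorem Xt_sg_not (a : Letter) : ((sg (a.1, !a.2) : ℤ) : ℝ) = -((sg a : ℤ) : ℝ) := by
  obtain ⟨v, b⟩ := a
  cases b <;> simp [sg]

/-- Moving the base vertex until all directions of the cube are good. -/
theorem Xt_norm (Q : Raag Γ → Letter → Prop)
    (h1 : ∀ y a, ¬ Q y a → Q (y * lt Γ a) (a.1, !a.2))
    (h2 : ∀ y (a b : Letter), Γ.Adj a.1 b.1 → Q y a → Q (y * lt Γ b) a) {p : Hyp Γ → ℝ}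
    (hp : p ∈ Xt Γ) : ∃ x t, Cub Γ t ∧ (∀ v, |t v| < 1) ∧
      (∀ a : Letter, 0 < (sg a : ℝ) * t a.1 → Q x a) ∧ p = spt x t := by
  classical
  obtain ⟨x, t, ht, rfl⟩ := hp
  generalize hn : (Finset.univ.filter fun a : Letter =>
    0 < (sg a : ℝ) * t a.1 ∧ (|t a.1| = 1 ∨ ¬ Q x a)).card = n
  induction n using Nat.strong_induction_on generalizing x t with
  | _ n ih =>
    by_cases hb : ∃ a : Letter, 0 < (sg a : ℝ) * t a.1 ∧ (|t a.1| = 1 ∨ ¬ Q x a)
    · obtain ⟨a, ha, ha'⟩ := hb
      obtain ⟨e, hc⟩ := spt_move x ht a ha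
      rw [e]
      refine ih _ ?_ _ _ hc rfl
      rw [← hn]
      refine Finset.card_lt_card ⟨fun b hb => ?_, fun hsub => ?_⟩
      · rw [Finset.mem_filter] at hb ⊢
        obtain ⟨-, hb1, hb2⟩ := hb
        have hab := abs_le.1 (ht.1 a.1)
        by_cases hba : b.1 = a.1
        · exfalso
          rw [hba, Function.update_self] at hb1 hb2
          by_cases hb3 : b = a
          · rw [hb3] at hb1
            rcases Xt_sg_cases a with h | h <;> rw [h] at ha hb1 <;> linarith
          · have hb4 : b = (a.1, !a.2) := by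
              obtain ⟨v, c⟩ := a
              obtain ⟨w, d⟩ := b
              simp only at hba
              subst hba
              cases c <;> cases d <;> simp_all
            rw [hb4, Xt_sg_not] at hb1
            rcases hb2 with hb2 | hb2
            · rcases Xt_sg_cases a with h | h <;> rw [h] at ha hb1 hb2 <;>
                rcases abs_eq (zero_le_one' ℝ) |>.1 hb2 with h' | h' <;> linarith
            · rcases ha' with ha' | ha'
              · rcases Xt_sg_cases a with h | h <;> rw [h] at ha hb1 <;>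
                  rcases abs_eq (zero_le_one' ℝ) |>.1 ha' with h' | h' <;> linarith
              · exact hb2 (hb4 ▸ h1 x a ha')
        · rw [Function.update_of_ne hba] at hb1 hb2
          refine ⟨Finset.mem_univ _, hb1, hb2.imp_right fun hq hq' => hq (h2 x b a ?_ hq')⟩
          refine ht.2 _ _ hba (fun h0 => ?_) fun h0 => ?_
          · rw [h0, mul_zero] at hb1; exact lt_irrefl _ hb1
          · rw [h0, mul_zero] at ha; exact lt_irrefl _ ha
      · have := (Finset.mem_filter.1 (hsub (Finset.mem_filter.2 ⟨Finset.mem_univ a, ha, ha'⟩))).2.1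
        rw [Function.update_self] at this
        have hab := abs_le.1 (ht.1 a.1)
        rcases Xt_sg_cases a with h | h <;> rw [h] at ha this <;> linarith
    · push Not at hb
      refine ⟨x, t, ht, fun v => lt_of_le_of_ne (ht.1 v) fun h => ?_, fun a ha => (hb a ha).2, rfl⟩
      rcases abs_eq (zero_le_one' ℝ) |>.1 h with h' | h'
      · exact (hb (v, true) (by simp [sg, h'])).1 h
      · exact (hb (v, false) (by simp [sg, h'])).1 h

/-- Normal form from the lowest vertex. -/
theorem xt_low {p : Hyp Γ → ℝ} (hp : p ∈ Xt Γ) :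
    ∃ x t, Cub Γ t ∧ (∀ v, 0 ≤ t v ∧ t v < 1) ∧ p = spt x t := by
  obtain ⟨x, t, ht, h1, h2, rfl⟩ := Xt_norm (fun _ a => a.2 = true)
    (fun _ a h => by simpa using h) (fun _ _ _ _ h => h) hp
  refine ⟨x, t, ht, fun v => ⟨?_, (abs_lt.1 (h1 v)).2⟩, rfl⟩
  by_contra h
  exact absurd (h2 (v, false) (by simpa [sg] using h)) (by simp)

/-- Normal form from the vertex farthest from `1`. -/
theorem xt_top {p : Hyp Γ → ℝ} (hp : p ∈ Xt Γ) :
    ∃ x t, Cub Γ t ∧ (∀ v, |t v| < 1) ∧ (∀ a : Letter, 0 < (sg a : ℝ) * t a.1 → Desc x a) ∧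
      p = spt x t := by
  exact Xt_norm Desc (fun y a h => (desc_back y a).2 h)
    (fun y a b hab h => (desc_mul_lt y hab).2 h) hp

/-- Take floors: the lowest vertex is determined (`kap_injective`). -/
theorem spt_inj {x y : Raag Γ} {t : V → ℝ} (ht : Cub Γ t) (h1 : ∀ v, |t v| < 1)
    (h : spt x t = spt y t) : x = y := by
  apply kap_injective
  funext H
  have e := congrFun h H
  have h2 := abs_lt.1 (h1 H.1)
  have h3 : |((kap x H - kap y H : ℤ) : ℝ)| < 1 := by
    simp only [spt] at e
    push_cast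
    rw [abs_lt]
    rcases le_total 0 (t H.1) with h0 | h0
    · rw [max_eq_left h0, min_eq_right h0] at e
      split_ifs at e <;> constructor <;> linarith
    · rw [max_eq_right h0, min_eq_left h0] at e
      split_ifs at e <;> constructor <;> linarith
  have h4 : |kap x H - kap y H| < 1 := by exact_mod_cast h3
  exact sub_eq_zero.1 (Int.abs_lt_one_iff.1 h4)

/-- The open star of a vertex.  Move the base vertex of `p` to the side of `x` of all hyperplanes
of its cube (`spt_move`, `K0`); if it were not `x`, then `K1` gives an edge at `x` whose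
hyperplane has `|p H - kap x H| = 1`. -/
theorem star {p : Hyp Γ → ℝ} (hp : p ∈ Xt Γ) (x : Raag Γ)
    (h : ∀ a : Letter, |p (eh x a) - kap x (eh x a)| < 1) :
    ∃ t, Cub Γ t ∧ (∀ v, |t v| < 1) ∧ p = spt x t := by
  obtain ⟨y, t, ht, h1, h2, rfl⟩ := Xt_norm (fun y a => ¬ Sep y x a)
    (fun y a h => by
      have h' := (sep_iff y x a).1 (not_not.1 h)
      simp only [Sep, eh_back, kap_mul_lt, Pi.add_apply, Pi.single_eq_same, not_not]
      exact h')
    (fun y a b hab h => by
      have hne : eh y a ≠ eh y b := fun he => hab.ne (congrArg Sigma.fst he)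
      simp only [Sep, eh_mul_lt y hab, kap_mul_lt, Pi.add_apply, Pi.single_eq_of_ne hne, add_zero]
      exact h) hp
  obtain rfl : x = y := by
    by_contra hxy
    obtain ⟨a, ha⟩ := K1 hxy
    have h3 := h a
    have h4 : spt y t (eh x a) = kap y (eh x a) := by
      have e1 : (if eh x a = eh y ((eh x a).1, true) then max (t (eh x a).1) 0 else 0) = 0 := by
        split_ifs with he
        · refine max_eq_right (not_lt.1 fun h0 => h2 ((eh x a).1, true) (by simpa [sg] using h0) ?_)
          unfold Sep at ha ⊢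
          rw [← he]
          exact ha.symm
        · rfl
      have e2 : (if eh x a = eh y ((eh x a).1, false) then min (t (eh x a).1) 0 else 0) = 0 := by
        split_ifs with he
        · refine min_eq_right (not_lt.1 fun h0 => h2 ((eh x a).1, false) (by simpa [sg] using h0) ?_)
          unfold Sep at ha ⊢
          rw [← he]
          exact ha.symm
        · rfl
      rw [spt, e1, e2, add_zero, add_zero]
    rw [h4] at h3
    have h5 : |kap y (eh x a) - kap x (eh x a)| < 1 := by exact_mod_cast h3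
    exact ha (sub_eq_zero.1 (Int.abs_lt_one_iff.1 h5))
  exact ⟨t, ht, h1, rfl⟩

theorem actF_mem (g : Raag Γ) {p : Hyp Γ → ℝ} (hp : p ∈ Xt Γ) : actF g p ∈ Xt Γ := by
  obtain ⟨x, t, ht, rfl⟩ := hp
  exact ⟨g * x, t, ht, actF_spt g x t⟩

noncomputable instance : MulAction (Raag Γ) (Xt Γ) where
  smul g p := ⟨actF g p.1, actF_mem g p.2⟩
  one_smul p := by
    obtain ⟨_, x, t, ht, rfl⟩ := p
    exact Subtype.ext ((actF_spt 1 x t).trans (by rw [one_mul]))
  mul_smul g h p := by
    obtain ⟨_, x, t, ht, rfl⟩ := p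
    refine Subtype.ext ?_
    change actF (g * h) (spt x t) = actF g (actF h (spt x t))
    rw [actF_spt, actF_spt, actF_spt, mul_assoc]

theorem coe_smul_xt (g : Raag Γ) (p : Xt Γ) : ((g • p : Xt Γ) : Hyp Γ → ℝ) = actF g p.1 := rfl

theorem muF_mem {p : Hyp Γ → ℝ} (hp : p ∈ Xt Γ) : muF p ∈ Xb Γ := by
  obtain ⟨x, t, ht, rfl⟩ := hp
  rw [muF_spt]
  refine ⟨fun u v huv hu hv => ht.2 u v huv (fun h => hu ?_) fun h => hv ?_, ?_⟩
  · simp [h]
  · simp [h]
  · change ∑ v, (t v : UnitAddCircle) = ((_ + _ : ℝ) : UnitAddCircle)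
    rw [AddCircle.coe_add, Xt_coe_int, zero_add]
    exact (map_sum (QuotientAddGroup.mk' _) t Finset.univ).symm

variable (Γ) in
/-- The quotient map. -/
noncomputable def mu (p : Xt Γ) : Xb Γ := ⟨muF p.1, muF_mem p.2⟩

end Crest.Agent.R197
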